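import Vale.Agent.H76.Space

/-!
# Track U (P243), row U4: chord Fubini

If every chord of the compact convex set `K` in the direction of the unit vector `u` has length
at most `F`, then the part of `K` inside the cylinder over a measurable base `B ⊆ u^⊥` has volume
at most `F` times the area of `B`.

LEAN ROW U4 (`chord_fubini`).  Sketch (all in `Vale.Agent.H76`): `Ψ := splitEquiv u hu`,
`T := Ψ '' K`; as in the proof of `cylinder_bound` (Transfer.lean, step `h2`)
`volume (K ∩ proj ⁻¹' B) = (ν.prod volume) (T ∩ B ×ˢ univ)`; `layer_cake` (Lev.lean):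
`(ν.prod volume) (T ∩ B ×ˢ univ) = ∫⁻ r in Ioi 0, ν (Lev T r ∩ B)`.  For `F < r`, `Lev T r = ∅`:
if `(x, z), (x, z') ∈ T` with `r ≤ z' - z`, the preimages `p, p' ∈ K` satisfy
`p' = p + (z' - z) • u` (apply `Ψ`; `Ψ (t • u) = (0, t)`), contradicting `hchord`.  So the
integral is at most `∫⁻ r in Ioc 0 F, ν B = ofReal F * ν B`.
-/

open MeasureTheory Set Module
open scoped ENNReal

namespace Vale.Agent.H5.P243

variable {E : Type*} [NormedAddCommGroup E] [InnerProductSpace ℝ E] [FiniteDimensional ℝ E]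
  [MeasurableSpace E] [BorelSpace E]

theorem ufubini_symm (u : E) (hu : ‖u‖ = 1) (b : ↥(Submodule.span ℝ {u})ᗮ) (t : ℝ) :
    (Vale.Agent.H76.splitEquiv u hu).symm (b, t) = (b : E) + t • u := by
  simp [Vale.Agent.H76.splitEquiv, add_comm]

theorem chord_fubini (hE : finrank ℝ E = 3) (u : E) (hu : ‖u‖ = 1) {K : Set E}
    (hK : IsCompact K) (hKc : Convex ℝ K) {F : ℝ} (hF : 0 ≤ F)
    (hchord : ∀ x ∈ K, ∀ t : ℝ, x + t • u ∈ K → t ≤ F)
    {B : Set ↥(Submodule.span ℝ {u})ᗮ} (hB : MeasurableSet B) :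
    volume (K ∩ (Submodule.span ℝ {u})ᗮ.orthogonalProjectionOnto ⁻¹' B) ≤
      ENNReal.ofReal F * volume B := by
  set Ψ := Vale.Agent.H76.splitEquiv u hu with hΨ
  set T : Set (↥(Submodule.span ℝ {u})ᗮ × ℝ) := Ψ '' K with hTdef
  have hT : IsCompact T := hK.image Ψ.continuous
  have hTc : Convex ℝ T := hKc.is_linear_image Ψ.isLinear
  have hmp := Vale.Agent.H76.splitEquiv_measurePreserving u hu
  have h2 : (volume.prod volume) (T ∩ B ×ˢ univ) =
      volume (K ∩ (Submodule.span ℝ {u})ᗮ.orthogonalProjectionOnto ⁻¹' B) := by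
    rw [← hmp.measure_preimage
      (hT.isClosed.measurableSet.inter (hB.prod MeasurableSet.univ)).nullMeasurableSet]
    congr 1
    ext x
    constructor
    · rintro ⟨⟨y, hy, hxy⟩, hxB⟩
      have hyx : y = x := Ψ.injective hxy
      subst hyx
      refine ⟨hy, ?_⟩
      have : (Ψ y).1 ∈ B := hxB.1
      rw [Vale.Agent.H76.splitEquiv_fst] at this
      exact this
    · rintro ⟨hxK, hxB⟩
      refine ⟨⟨x, hxK, rfl⟩, ?_, mem_univ _⟩
      show (Ψ x).1 ∈ B
      rw [Vale.Agent.H76.splitEquiv_fst]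
      exact hxB
  have hLev : ∀ r : ℝ, F < r → Vale.Agent.H76.Lev T r = ∅ := by
    intro r hr
    ext x
    simp only [mem_empty_iff_false, iff_false]
    rintro ⟨z, z', ⟨p, hp, hpz⟩, ⟨p', hp', hpz'⟩, hrz⟩
    have e1 : p = (x : E) + z • u := by
      rw [← ufubini_symm u hu x z, ← hpz]
      exact (Ψ.symm_apply_apply p).symm
    have e2 : p' = (x : E) + z' • u := by
      rw [← ufubini_symm u hu x z', ← hpz']
      exact (Ψ.symm_apply_apply p').symm
    have e3 : p + (z' - z) • u = p' := by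
      rw [e1, e2, sub_smul]
      abel
    have h3 := hchord p hp (z' - z) (e3 ▸ hp')
    linarith
  rw [← h2, Vale.Agent.H76.layer_cake volume hT hTc hB]
  calc ∫⁻ r in Ioi (0 : ℝ), volume (Vale.Agent.H76.Lev T r ∩ B)
      ≤ ∫⁻ r in Ioi (0 : ℝ), (Ioc (0 : ℝ) F).indicator (fun _ => volume B) r := by
        apply setLIntegral_mono' measurableSet_Ioi
        intro r hr
        by_cases h : r ≤ F
        · rw [indicator_of_mem (show r ∈ Ioc (0 : ℝ) F from ⟨hr, h⟩)]
          exact measure_mono inter_subset_right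
        · rw [hLev r (not_le.1 h)]
          simp
    _ = ∫⁻ r in Ioc (0 : ℝ) F ∩ Ioi (0 : ℝ), volume B := by
        rw [setLIntegral_indicator measurableSet_Ioc]
    _ = ENNReal.ofReal F * volume B := by
        have hI : Ioc (0 : ℝ) F ∩ Ioi (0 : ℝ) = Ioc (0 : ℝ) F := by
          ext r
          constructor
          · exact fun h => h.1
          · exact fun h => ⟨h, h.1⟩
        rw [hI, setLIntegral_const, Real.volume_Ioc, sub_zero, mul_comm]

end Vale.Agent.H5.P243
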