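import Vale.Agent.H76.Space
import Vale.Agent.H76.Transfer

/-!
# Track U (P243), row U9: a set of positive volume has a shadow of positive area

LEAN ROW U9 (`shadow_pos`).  Sketch (in `Vale.Agent.H76`): `Ψ := splitEquiv u hu` is measure
preserving (`splitEquiv_measurePreserving`) and the first component of `Ψ x` is `proj x` (`splitEquiv_fst`), so
`K ⊆ Ψ ⁻¹' (P ×ˢ univ)` with `P := proj '' K`, and
`volume (Ψ ⁻¹' (P ×ˢ univ)) = (volume.prod volume) (P ×ˢ univ) = volume P * volume univ`
(`MeasurePreserving.measure_preimage` — `P` is compact, hence measurable — and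
`Measure.prod_prod`).  If `volume P = 0` this is `0`, contradicting `hpos`.
-/

open MeasureTheory Set Module
open scoped ENNReal

namespace Vale.Agent.H5.P243

variable {E : Type*} [NormedAddCommGroup E] [InnerProductSpace ℝ E] [FiniteDimensional ℝ E]
  [MeasurableSpace E] [BorelSpace E]

theorem shadow_pos (hE : finrank ℝ E = 3) (u : E) (hu : ‖u‖ = 1) {K : Set E}
    (hK : IsCompact K) (hpos : 0 < volume K) :
    0 < volume ((Submodule.span ℝ {u})ᗮ.orthogonalProjectionOnto '' K) := by
  have hPc : IsCompact ((Submodule.span ℝ {u})ᗮ.orthogonalProjectionOnto '' K) :=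
    hK.image (ContinuousLinearMap.continuous _)
  have hPm : MeasurableSet ((Submodule.span ℝ {u})ᗮ.orthogonalProjectionOnto '' K) :=
    hPc.measurableSet
  by_contra h
  have h0 : volume ((Submodule.span ℝ {u})ᗮ.orthogonalProjectionOnto '' K) = 0 :=
    le_antisymm (not_lt.mp h) zero_le
  have hsub : K ⊆ (H76.splitEquiv u hu) ⁻¹'
      (((Submodule.span ℝ {u})ᗮ.orthogonalProjectionOnto '' K) ×ˢ (univ : Set ℝ)) := by
    intro x hx
    refine ⟨?_, mem_univ _⟩
    rw [H76.splitEquiv_fst]
    exact ⟨x, hx, rfl⟩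
  have hmp := H76.splitEquiv_measurePreserving u hu
  have hz : volume ((H76.splitEquiv u hu) ⁻¹'
      (((Submodule.span ℝ {u})ᗮ.orthogonalProjectionOnto '' K) ×ˢ (univ : Set ℝ))) = 0 := by
    rw [hmp.measure_preimage (hPm.prod MeasurableSet.univ).nullMeasurableSet,
      Measure.prod_prod, h0, zero_mul]
  have hle := measure_mono (μ := volume) hsub
  rw [hz] at hle
  exact (not_le.mpr hpos) hle

end Vale.Agent.H5.P243
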