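import Vale.Agent.H76.Space

/-!
# Track U (P243), row U3: the cone bound

A compact convex set `K` of a 3-dimensional Euclidean space which contains a chord of length `s`
in the direction of the unit vector `u` has volume at least `s / 3` times the area of its shadow
along `u`.

LEAN ROW U3 (`cone_bound`).  Sketch (all in `Vale.Agent.H76`): `Ψ := splitEquiv u hu`,
`T := Ψ '' K` (compact, convex), `ν := volume` on `H := (span {u})ᗮ` (`finrank = 2`,
`Submodule.finrank_orthogonal_span_singleton`).  As in the proof of `cylinder_bound`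
(Transfer.lean): `(ν.prod volume) T = volume K` and
`Prod.fst '' T = orthogonalProjectionOnto '' K =: P`.  With `x₀ := (Ψ y).1`: `Ψ (y + s • u)` has
the same first component and second component `(Ψ y).2 + s` (prove `Ψ (s • u) = (0, s)` by
`simp [splitEquiv]`-style unfolding), so `x₀ ∈ Lev T s`.  For `ρ ∈ [0, 1]`, `Lev_combo` gives
`(1 - ρ) • Lev T 0 + ρ • Lev T s ⊆ Lev T (s * ρ)` and `Lev T 0 = P` (`Lev_of_nonpos`), hence
`(1 - ρ) • P + {ρ • x₀} ⊆ Lev T (s * ρ)` and
`ν (Lev T (s * ρ)) ≥ ν ((1 - ρ) • P) = ofReal ((1 - ρ) ^ 2) * ν P`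
(`Measure.addHaar_smul`, translation invariance).  `normalized_volume_le` (BM.lean) with `c := s`:
`ofReal s * ∫⁻ ρ in Ioc 0 1, ν (Lev T (s * ρ)) ≤ (ν.prod volume) T`, and
`∫⁻ ρ in Ioc 0 1, ofReal ((1 - ρ) ^ 2) = ofReal (1 / 3)`.
-/

open MeasureTheory Set Module
open scoped ENNReal Pointwise

namespace Vale.Agent.H5.P243

variable {E : Type*} [NormedAddCommGroup E] [InnerProductSpace ℝ E] [FiniteDimensional ℝ E]
  [MeasurableSpace E] [BorelSpace E]

open Vale.Agent.H76 in
theorem ucone_split_u (u : E) (hu : ‖u‖ = 1) : splitEquiv u hu u = (0, 1) := by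
  have h1 : (splitEquiv u hu u).1 = 0 := by
    rw [splitEquiv_fst]
    apply Subtype.ext
    rw [coe_proj u hu]
    simp [hu]
  have h2 : (splitEquiv u hu u).2 = 1 := by
    have hsnd : (splitEquiv u hu u).2 = (LinearIsometryEquiv.toSpanUnitSingleton u hu).symm
        ((Submodule.span ℝ {u}).orthogonalProjectionOnto u) := by
      simp [splitEquiv]
    rw [hsnd, LinearIsometryEquiv.symm_apply_eq, LinearIsometryEquiv.toSpanUnitSingleton_apply]
    have hmem : u ∈ Submodule.span ℝ {u} := Submodule.mem_span_singleton_self u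
    have := Submodule.orthogonalProjectionOnto_mem_subspace_eq_self (K := Submodule.span ℝ {u})
      ⟨u, hmem⟩
    rw [this]
    apply Subtype.ext
    simp
  exact Prod.ext h1 h2

theorem ucone_integral :
    ∫⁻ ρ in Ioc (0 : ℝ) 1, ENNReal.ofReal ((1 - ρ) ^ 2) = ENNReal.ofReal (1 / 3) := by
  have hint : IntegrableOn (fun ρ : ℝ => (1 - ρ) ^ 2) (Ioc 0 1) := by
    apply Continuous.integrableOn_Ioc
    fun_prop
  rw [← ofReal_integral_eq_lintegral_ofReal hint
    (Filter.Eventually.of_forall fun ρ => by positivity)]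
  congr 1
  rw [← intervalIntegral.integral_of_le zero_le_one]
  rw [intervalIntegral.integral_comp_sub_left (fun x => x ^ 2) 1]
  simp [integral_pow]
  norm_num

open Vale.Agent.H76 in
theorem cone_bound (hE : finrank ℝ E = 3) (u : E) (hu : ‖u‖ = 1) {K : Set E}
    (hK : IsCompact K) (hKc : Convex ℝ K) {y : E} {s : ℝ} (hs : 0 ≤ s) (hy : y ∈ K)
    (hys : y + s • u ∈ K) :
    ENNReal.ofReal s * volume ((Submodule.span ℝ {u})ᗮ.orthogonalProjectionOnto '' K) ≤
      3 * volume K := by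
  have hu0 : u ≠ 0 := by
    rintro rfl
    simp at hu
  have : Fact (finrank ℝ E = 2 + 1) := ⟨hE⟩
  have hH : finrank ℝ ↥(Submodule.span ℝ {u})ᗮ = 2 :=
    Submodule.finrank_orthogonal_span_singleton hu0
  set Ψ := splitEquiv u hu with hΨ
  set T : Set (↥(Submodule.span ℝ {u})ᗮ × ℝ) := Ψ '' K with hTdef
  have hT : IsCompact T := hK.image Ψ.continuous
  have hTc : Convex ℝ T := hKc.is_linear_image Ψ.isLinear
  have hfst : Prod.fst '' T = (Submodule.span ℝ {u})ᗮ.orthogonalProjectionOnto '' K := by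
    ext z
    constructor
    · rintro ⟨_, ⟨x, hx, rfl⟩, rfl⟩
      exact ⟨x, hx, (splitEquiv_fst u hu x).symm⟩
    · rintro ⟨x, hx, rfl⟩
      exact ⟨Ψ x, ⟨x, hx, rfl⟩, splitEquiv_fst u hu x⟩
  have hmp := splitEquiv_measurePreserving u hu
  have h1 : (volume.prod volume) T = volume K := by
    rw [← hmp.measure_preimage hT.isClosed.measurableSet.nullMeasurableSet,
      Ψ.injective.preimage_image]
  set P : Set ↥(Submodule.span ℝ {u})ᗮ :=
    (Submodule.span ℝ {u})ᗮ.orthogonalProjectionOnto '' K with hP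
  have hLev0 : Lev T 0 = P := by rw [Lev_of_nonpos T le_rfl, hfst]
  -- the chord
  have hx0 : (Ψ y).1 ∈ Lev T s := by
    refine ⟨(Ψ y).2, (Ψ y).2 + s, ⟨y, hy, rfl⟩, ⟨y + s • u, hys, ?_⟩, by simp⟩
    rw [map_add, map_smul, hΨ, ucone_split_u u hu]
    ext <;> simp
  -- the pointwise bound
  have hpt : ∀ ρ ∈ Ioc (0 : ℝ) 1, ENNReal.ofReal ((1 - ρ) ^ 2) * volume P ≤
      volume (Lev T (s * ρ)) := by
    intro ρ hρ
    have h1ρ : 0 ≤ 1 - ρ := sub_nonneg.2 hρ.2
    have hsub := Lev_combo hTc h1ρ hρ.1.le (by ring) 0 s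
    have hr : (1 - ρ) * 0 + ρ * s = s * ρ := by ring
    rw [hr, hLev0] at hsub
    have hsub2 : (1 - ρ) • P + {ρ • (Ψ y).1} ⊆ Lev T (s * ρ) := by
      refine (Set.add_subset_add_left ?_).trans hsub
      rw [Set.singleton_subset_iff]
      exact ⟨(Ψ y).1, hx0, rfl⟩
    have hvol : volume ((1 - ρ) • P + {ρ • (Ψ y).1}) =
        ENNReal.ofReal ((1 - ρ) ^ 2) * volume P := by
      rw [Set.add_singleton, Set.image_add_right, measure_preimage_add_right,
        Measure.addHaar_smul, hH, abs_of_nonneg (by positivity)]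
    rw [← hvol]
    exact measure_mono hsub2
  have hnv := normalized_volume_le (volume : Measure ↥(Submodule.span ℝ {u})ᗮ) hT hTc hs
  rw [h1] at hnv
  have hint : ENNReal.ofReal (1 / 3) * volume P ≤
      ∫⁻ ρ in Ioc (0 : ℝ) 1, volume (Lev T (s * ρ)) := by
    rw [← ucone_integral, ← lintegral_mul_const _ (by fun_prop)]
    exact setLIntegral_mono' measurableSet_Ioc hpt
  have h3 : ENNReal.ofReal s * (ENNReal.ofReal (1 / 3) * volume P) ≤ volume K :=
    (mul_le_mul_right hint _).trans hnv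
  have h13 : (3 : ℝ≥0∞) * ENNReal.ofReal (1 / 3) = 1 := by
    rw [show (3 : ℝ≥0∞) = ENNReal.ofReal 3 by simp, ← ENNReal.ofReal_mul (by norm_num)]
    simp
  calc ENNReal.ofReal s * volume P
      = 3 * (ENNReal.ofReal s * (ENNReal.ofReal (1 / 3) * volume P)) := by
        rw [← mul_assoc, ← mul_assoc, mul_comm 3 (ENNReal.ofReal s), mul_assoc (ENNReal.ofReal s),
          h13, mul_one]
    _ ≤ 3 * volume K := mul_le_mul_right h3 _

end Vale.Agent.H5.P243
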