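import Mathlib

/-!
# The convex hull of four points as the join of two segments (P243, track T)
-/

open Set

namespace Vale.Agent.H5.P243

/-- Convex combinations of four points lie in their convex hull. -/
theorem hull4_mem_weights {V : Type*} [AddCommGroup V] [Module ℝ V] (p₁ p₂ q₁ q₂ : V)
    (w₁ w₂ w₃ w₄ : ℝ) (h₁ : 0 ≤ w₁) (h₂ : 0 ≤ w₂) (h₃ : 0 ≤ w₃) (h₄ : 0 ≤ w₄)
    (hs : w₁ + w₂ + w₃ + w₄ = 1) :
    w₁ • p₁ + w₂ • p₂ + w₃ • q₁ + w₄ • q₂ ∈ convexHull ℝ {p₁, p₂, q₁, q₂} := by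
  have hc : Convex ℝ (convexHull ℝ ({p₁, p₂, q₁, q₂} : Set V)) := convex_convexHull ℝ _
  have hp₁ : p₁ ∈ convexHull ℝ ({p₁, p₂, q₁, q₂} : Set V) := subset_convexHull ℝ _ (by simp)
  have hp₂ : p₂ ∈ convexHull ℝ ({p₁, p₂, q₁, q₂} : Set V) := subset_convexHull ℝ _ (by simp)
  have hq₁ : q₁ ∈ convexHull ℝ ({p₁, p₂, q₁, q₂} : Set V) := subset_convexHull ℝ _ (by simp)
  have hq₂ : q₂ ∈ convexHull ℝ ({p₁, p₂, q₁, q₂} : Set V) := subset_convexHull ℝ _ (by simp)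
  have key := hc.sum_mem (t := Finset.univ) (w := ![w₁, w₂, w₃, w₄]) (z := ![p₁, p₂, q₁, q₂])
    (by
      intro i _
      fin_cases i
      · exact h₁
      · exact h₂
      · exact h₃
      · exact h₄)
    (by
      rw [Fin.sum_univ_four]
      exact hs)
    (by
      intro i _
      fin_cases i
      · exact hp₁
      · exact hp₂
      · exact hq₁
      · exact hq₂)
  rw [Fin.sum_univ_four] at key
  exact key

/-- The join parametrisation gives points of the hull. -/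
theorem hull4_mem {V : Type*} [AddCommGroup V] [Module ℝ V] (p₁ p₂ q₁ q₂ : V)
    (l a b : ℝ) (hl : l ∈ Icc (0 : ℝ) 1) (ha : a ∈ Icc (0 : ℝ) 1) (hb : b ∈ Icc (0 : ℝ) 1) :
    (p₁ + a • (p₂ - p₁)) + l • ((q₁ + b • (q₂ - q₁)) - (p₁ + a • (p₂ - p₁))) ∈
      convexHull ℝ {p₁, p₂, q₁, q₂} := by
  obtain ⟨hl0, hl1⟩ := hl
  obtain ⟨ha0, ha1⟩ := ha
  obtain ⟨hb0, hb1⟩ := hb
  have := hull4_mem_weights p₁ p₂ q₁ q₂ ((1 - l) * (1 - a)) ((1 - l) * a) (l * (1 - b)) (l * b)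
    (mul_nonneg (by linarith) (by linarith)) (mul_nonneg (by linarith) ha0)
    (mul_nonneg hl0 (by linarith)) (mul_nonneg hl0 hb0) (by ring)
  convert this using 1
  module

/-- Every point of the hull of four points is given by the join parametrisation. -/
theorem hull4_param {V : Type*} [AddCommGroup V] [Module ℝ V] (p₁ p₂ q₁ q₂ x : V)
    (hx : x ∈ convexHull ℝ {p₁, p₂, q₁, q₂}) :
    ∃ l ∈ Icc (0 : ℝ) 1, ∃ a ∈ Icc (0 : ℝ) 1, ∃ b ∈ Icc (0 : ℝ) 1,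
      x = (p₁ + a • (p₂ - p₁)) + l • ((q₁ + b • (q₂ - q₁)) - (p₁ + a • (p₂ - p₁))) := by
  rw [← convexJoin_segments, mem_convexJoin] at hx
  obtain ⟨X, hX, Y, hY, hxXY⟩ := hx
  rw [segment_eq_image'] at hX hY hxXY
  obtain ⟨a, ha, rfl⟩ := hX
  obtain ⟨b, hb, rfl⟩ := hY
  obtain ⟨l, hl, rfl⟩ := hxXY
  exact ⟨l, hl, a, ha, b, hb, rfl⟩

end Vale.Agent.H5.P243
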