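import Mathlib

/-!
# Areas of triangles in `ℝ × ℝ` (P243, track T)

LEAN ROW T2: `volume_stdTri`, `volume_tri`, `convexHull_subset_tri`.

Sketch. `volume_stdTri`: `Measure.prod_apply` (the set is closed, hence measurable) or
`volume_regionBetween_eq_lintegral` plus a null boundary: the section over `x ∈ [0,1]` is
`[0, 1 - x]`, and `∫⁻ x in Icc 0 1, ENNReal.ofReal (1 - x) = 1/2`.
`volume_tri`: the map is a translation after the linear map with matrix columns `Y - X`, `Z - X`
(e.g. `Matrix.toLin (Basis.finTwoProd ℝ) (Basis.finTwoProd ℝ)`, `LinearMap.det_toLin`,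
`Matrix.det_fin_two_of`), then `Measure.addHaar_image_linearMap` and translation invariance.
`convexHull_subset_tri`: `tri X Y Z` is convex (affine image of a convex set) and contains
`X, Y, Z` (images of `(0,0), (1,0), (0,1)`), so `convexHull_min` applies.
-/

open MeasureTheory Set
open scoped ENNReal

namespace Vale.Agent.H5.P243

/-- The standard triangle with vertices `(0,0)`, `(1,0)`, `(0,1)`. -/
def stdTri : Set (ℝ × ℝ) := {g | 0 ≤ g.1 ∧ 0 ≤ g.2 ∧ g.1 + g.2 ≤ 1}

/-- The (possibly degenerate) closed triangle with vertices `X`, `Y`, `Z`, as an affine image of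
the standard triangle. -/
def tri (X Y Z : ℝ × ℝ) : Set (ℝ × ℝ) :=
  (fun g : ℝ × ℝ => X + g.1 • (Y - X) + g.2 • (Z - X)) '' stdTri

theorem pln_measurable_stdTri : MeasurableSet stdTri := by
  have h1 : MeasurableSet {g : ℝ × ℝ | (0 : ℝ) ≤ g.1} :=
    measurableSet_le measurable_const measurable_fst
  have h2 : MeasurableSet {g : ℝ × ℝ | (0 : ℝ) ≤ g.2} :=
    measurableSet_le measurable_const measurable_snd
  have h3 : MeasurableSet {g : ℝ × ℝ | g.1 + g.2 ≤ (1 : ℝ)} :=
    measurableSet_le (measurable_fst.add measurable_snd) measurable_const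
  exact h1.inter (h2.inter h3)

theorem pln_section (x : ℝ) :
    volume (Prod.mk x ⁻¹' stdTri)
      = (Icc (0 : ℝ) 1).indicator (fun t : ℝ => ENNReal.ofReal (1 - t)) x := by
  by_cases hx0 : 0 ≤ x
  · have hsec : Prod.mk x ⁻¹' stdTri = Icc (0 : ℝ) (1 - x) := by
      ext y
      simp only [stdTri, mem_preimage, mem_ofPred_eq, mem_Icc]
      constructor
      · rintro ⟨-, h2, h3⟩
        exact ⟨h2, by linarith⟩
      · rintro ⟨h2, h3⟩
        exact ⟨hx0, h2, by linarith⟩
    rw [hsec, Real.volume_Icc, sub_zero]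
    by_cases hx1 : x ≤ 1
    · rw [indicator_of_mem (mem_Icc.mpr ⟨hx0, hx1⟩)]
    · rw [indicator_of_notMem (fun h => hx1 (mem_Icc.mp h).2)]
      exact ENNReal.ofReal_of_nonpos (by linarith)
  · have hsec : Prod.mk x ⁻¹' stdTri = ∅ := by
      ext y
      simp only [stdTri, mem_preimage, mem_ofPred_eq, mem_empty_iff_false, iff_false]
      rintro ⟨h1, -, -⟩
      exact hx0 h1
    rw [hsec, measure_empty, indicator_of_notMem (fun h => hx0 (mem_Icc.mp h).1)]

theorem pln_integral : ∫ t in Icc (0 : ℝ) 1, (1 - t) = 1 / 2 := by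
  rw [integral_Icc_eq_integral_Ioc, ← intervalIntegral.integral_of_le zero_le_one]
  rw [intervalIntegral.integral_sub (by simp) (by simp)]
  simp
  norm_num

theorem volume_stdTri : volume stdTri = 1 / 2 := by
  rw [Measure.volume_eq_prod, Measure.prod_apply pln_measurable_stdTri]
  rw [lintegral_congr pln_section, lintegral_indicator measurableSet_Icc]
  have hint : IntegrableOn (fun t : ℝ => 1 - t) (Icc (0 : ℝ) 1) :=
    (continuous_const.sub continuous_id).integrableOn_Icc
  have hnn : 0 ≤ᵐ[volume.restrict (Icc (0 : ℝ) 1)] fun t : ℝ => 1 - t := by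
    rw [Filter.EventuallyLE, ae_restrict_iff' measurableSet_Icc]
    exact Filter.Eventually.of_forall (fun t ht => by
      have := (mem_Icc.mp ht).2
      simp only [Pi.zero_apply]
      linarith)
  rw [← ofReal_integral_eq_lintegral_ofReal hint hnn, pln_integral]
  rw [one_div, one_div, ENNReal.ofReal_inv_of_pos two_pos, ENNReal.ofReal_ofNat]

/-- The linear part of the affine map defining `tri X Y Z`. -/
noncomputable def pln_lin (X Y Z : ℝ × ℝ) : (ℝ × ℝ) →ₗ[ℝ] (ℝ × ℝ) :=
  (LinearMap.fst ℝ ℝ ℝ).smulRight (Y - X) + (LinearMap.snd ℝ ℝ ℝ).smulRight (Z - X)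

theorem pln_lin_apply (X Y Z g : ℝ × ℝ) :
    pln_lin X Y Z g = g.1 • (Y - X) + g.2 • (Z - X) := by
  simp [pln_lin]

theorem pln_det (X Y Z : ℝ × ℝ) :
    LinearMap.det (pln_lin X Y Z)
      = (Y.1 - X.1) * (Z.2 - X.2) - (Y.2 - X.2) * (Z.1 - X.1) := by
  rw [← LinearMap.det_toMatrix (Module.Basis.finTwoProd ℝ), Matrix.det_fin_two]
  simp [LinearMap.toMatrix_apply, pln_lin_apply]
  ring

theorem pln_tri_eq (X Y Z : ℝ × ℝ) :
    tri X Y Z = (fun p : ℝ × ℝ => X + p) '' (pln_lin X Y Z '' stdTri) := by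
  rw [image_image]
  unfold tri
  apply image_congr
  intro g _
  rw [pln_lin_apply, add_assoc]

theorem volume_tri (X Y Z : ℝ × ℝ) :
    volume (tri X Y Z) =
      ENNReal.ofReal (|(Y.1 - X.1) * (Z.2 - X.2) - (Y.2 - X.2) * (Z.1 - X.1)| / 2) := by
  rw [pln_tri_eq, image_add_left, measure_preimage_add, Measure.addHaar_image_linearMap,
    pln_det, volume_stdTri, ENNReal.ofReal_div_of_pos two_pos, ENNReal.ofReal_ofNat,
    one_div, div_eq_mul_inv]

theorem pln_convex_tri (X Y Z : ℝ × ℝ) : Convex ℝ (tri X Y Z) := by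
  rintro _ ⟨g1, ⟨h11, h12, h13⟩, rfl⟩ _ ⟨g2, ⟨h21, h22, h23⟩, rfl⟩ a b ha hb hab
  have hb' : b = 1 - a := by linarith
  subst hb'
  refine ⟨a • g1 + (1 - a) • g2, ⟨?_, ?_, ?_⟩, ?_⟩
  · simp only [Prod.fst_add, Prod.smul_fst, smul_eq_mul]
    exact add_nonneg (mul_nonneg ha h11) (mul_nonneg hb h21)
  · simp only [Prod.snd_add, Prod.smul_snd, smul_eq_mul]
    exact add_nonneg (mul_nonneg ha h12) (mul_nonneg hb h22)
  · simp only [Prod.fst_add, Prod.smul_fst, Prod.snd_add, Prod.smul_snd, smul_eq_mul]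
    nlinarith
  · ext <;> simp <;> ring

theorem convexHull_subset_tri (X Y Z : ℝ × ℝ) : convexHull ℝ {X, Y, Z} ⊆ tri X Y Z := by
  apply convexHull_min _ (pln_convex_tri X Y Z)
  intro p hp
  simp only [mem_insert_iff, mem_singleton_iff] at hp
  rcases hp with rfl | rfl | rfl
  · exact ⟨(0, 0), ⟨le_refl _, le_refl _, by norm_num⟩, by simp⟩
  · exact ⟨(1, 0), ⟨zero_le_one, le_refl _, by norm_num⟩, by simp⟩
  · exact ⟨(0, 1), ⟨le_refl _, zero_le_one, by norm_num⟩, by simp⟩

end Vale.Agent.H5.P243
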