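import Vale.Agent.H5.P243.Planar

/-!
# The area of the convex hull of two segments (P243, track T)

LEAN ROW T4: `hull4_subset_union`, `volume_hull4_le`.

Sketch. `hull4_subset_union` (two crossing segments): a point of the hull is
`wP₁ P₁ + wP₂ P₂ + wQ₁ Q₁ + wQ₂ Q₂` (`convexHull_insert` / `mem_convexHull` for finite sets, or
`convexJoin_segments`); if `b = 0` or `d = 0` one of `Q₁, Q₂` is itself a convex combination of
`P₁, P₂`; otherwise subtract `t (b Q₁ + d Q₂)` and add `t (a P₁ + c P₂)` with
`t = min (wQ₁ / b) (wQ₂ / d)`: one of the weights of `Q₁`, `Q₂` becomes `0`.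

`volume_hull4_le`: `A = (0,0)`, `B = (1,0)`, `C = (α,β)`, `D = (α,β+1)` satisfy
`(α - 1) A + (1 + β) C = α B + β D`.  Four cases.
* `1 ≤ α`, `0 ≤ β`: `hull4_subset_union` with `P = A, C`, `Q = B, D`: hull ⊆ ABC ∪ ACD, areas
  `β/2 + α/2`.
* `1 ≤ α`, `β ≤ 0`: `α B = (α-1) A + (1+β) C + (-β) D`, so `B ∈ ACD`, hull ⊆ ACD, area `α/2`.
* `α ≤ 1`, `0 ≤ β`: `(1+β) C = (1-α) A + α B + β D`, so `C ∈ ABD`, hull ⊆ ABD, area `(β+1)/2`.
* `α ≤ 1`, `β ≤ 0`: `(1-α) A + α B = (1+β) C + (-β) D`: `hull4_subset_union` with `P = A, B`,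
  `Q = C, D`: hull ⊆ ABC ∪ ABD, areas `-β/2 + (β+1)/2 = 1/2`.
Areas of the triangles by `convexHull_subset_tri` and `volume_tri`; all four bounds are
`≤ (1 + α + β)/2` because `α ≥ 1/2`, `β ≥ -1/2`.
-/

open MeasureTheory Set
open scoped ENNReal

namespace Vale.Agent.H5.P243

/-- A convex combination of three points of a convex set. -/
theorem plb_combo3 {V : Type*} [AddCommGroup V] [Module ℝ V] {S : Set V} (hS : Convex ℝ S)
    {x y z : V} (hx : x ∈ S) (hy : y ∈ S) (hz : z ∈ S) {a b c : ℝ} (ha : 0 ≤ a) (hb : 0 ≤ b)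
    (hc : 0 ≤ c) (h : a + b + c = 1) : a • x + b • y + c • z ∈ S := by
  rcases eq_or_lt_of_le hc with hc0 | hcpos
  · have hab : a + b = 1 := by linarith
    have h1 : a • x + b • y ∈ S := hS hx hy ha hb hab
    rw [← hc0, zero_smul, add_zero]
    exact h1
  · by_cases hab0 : a + b = 0
    · have ha0 : a = 0 := by linarith
      have hb0 : b = 0 := by linarith
      have hc1 : c = 1 := by linarith
      rw [ha0, hb0, hc1]
      simpa using hz
    · have habpos : 0 < a + b := lt_of_le_of_ne (add_nonneg ha hb) (Ne.symm hab0)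
      have h1 : (a / (a + b)) • x + (b / (a + b)) • y ∈ S :=
        hS hx hy (div_nonneg ha habpos.le) (div_nonneg hb habpos.le) (by field_simp)
      have h2 : (a + b) • ((a / (a + b)) • x + (b / (a + b)) • y) + c • z ∈ S :=
        hS h1 hz habpos.le hc h
      have h3 : (a + b) • ((a / (a + b)) • x + (b / (a + b)) • y) + c • z
          = a • x + b • y + c • z := by
        rw [smul_add, smul_smul, smul_smul, mul_div_cancel₀ _ hab0, mul_div_cancel₀ _ hab0]
      rw [h3] at h2
      exact h2

/-- A point of the convex hull of four points is a convex combination of them. -/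
theorem plb_mem4 {V : Type*} [AddCommGroup V] [Module ℝ V] (P₁ P₂ Q₁ Q₂ z : V)
    (hz : z ∈ convexHull ℝ ({P₁, P₂, Q₁, Q₂} : Set V)) :
    ∃ w₁ w₂ w₃ w₄ : ℝ, 0 ≤ w₁ ∧ 0 ≤ w₂ ∧ 0 ≤ w₃ ∧ 0 ≤ w₄ ∧ w₁ + w₂ + w₃ + w₄ = 1 ∧
      z = w₁ • P₁ + w₂ • P₂ + w₃ • Q₁ + w₄ • Q₂ := by
  rw [convexHull_insert (by simp), mem_convexJoin] at hz
  obtain ⟨p, hp, y, hy, hzy⟩ := hz
  rw [Set.mem_singleton_iff] at hp
  subst hp
  rw [convexHull_insert (by simp), mem_convexJoin] at hy
  obtain ⟨p₂, hp₂, y', hy', hyy'⟩ := hy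
  rw [Set.mem_singleton_iff] at hp₂
  subst hp₂
  rw [convexHull_pair] at hy'
  obtain ⟨u₃, v₃, hu₃, hv₃, huv₃, rfl⟩ := hy'
  obtain ⟨u₂, v₂, hu₂, hv₂, huv₂, rfl⟩ := hyy'
  obtain ⟨u₁, v₁, hu₁, hv₁, huv₁, rfl⟩ := hzy
  refine ⟨u₁, v₁ * u₂, v₁ * v₂ * u₃, v₁ * v₂ * v₃, hu₁, mul_nonneg hv₁ hu₂,
    mul_nonneg (mul_nonneg hv₁ hv₂) hu₃, mul_nonneg (mul_nonneg hv₁ hv₂) hv₃, ?_, ?_⟩
  · have h1 : v₁ * v₂ * u₃ + v₁ * v₂ * v₃ = v₁ * v₂ := by
      rw [← mul_add, huv₃, mul_one]
    have h2 : v₁ * u₂ + v₁ * v₂ = v₁ := by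
      rw [← mul_add, huv₂, mul_one]
    linarith
  · module

/-- If the segments `P₁P₂` and `Q₁Q₂` cross (a point of one is a point of the other), the convex
hull of the four points is the union of the two triangles on the base `P₁P₂`. -/
theorem hull4_subset_union {V : Type*} [AddCommGroup V] [Module ℝ V] (P₁ P₂ Q₁ Q₂ : V)
    (a c b d : ℝ) (ha : 0 ≤ a) (hc : 0 ≤ c) (hb : 0 ≤ b) (hd : 0 ≤ d) (hsum : a + c = b + d)
    (hpos : 0 < b + d) (h : a • P₁ + c • P₂ = b • Q₁ + d • Q₂) :
    convexHull ℝ {P₁, P₂, Q₁, Q₂} ⊆ convexHull ℝ {P₁, P₂, Q₁} ∪ convexHull ℝ {P₁, P₂, Q₂} := by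
  intro z hz
  obtain ⟨w₁, w₂, w₃, w₄, hw₁, hw₂, hw₃, hw₄, hw, rfl⟩ := plb_mem4 P₁ P₂ Q₁ Q₂ z hz
  have hP₁1 : P₁ ∈ convexHull ℝ ({P₁, P₂, Q₁} : Set V) := subset_convexHull ℝ _ (by simp)
  have hP₂1 : P₂ ∈ convexHull ℝ ({P₁, P₂, Q₁} : Set V) := subset_convexHull ℝ _ (by simp)
  have hQ₁1 : Q₁ ∈ convexHull ℝ ({P₁, P₂, Q₁} : Set V) := subset_convexHull ℝ _ (by simp)
  have hP₁2 : P₁ ∈ convexHull ℝ ({P₁, P₂, Q₂} : Set V) := subset_convexHull ℝ _ (by simp)
  have hP₂2 : P₂ ∈ convexHull ℝ ({P₁, P₂, Q₂} : Set V) := subset_convexHull ℝ _ (by simp)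
  have hQ₂2 : Q₂ ∈ convexHull ℝ ({P₁, P₂, Q₂} : Set V) := subset_convexHull ℝ _ (by simp)
  by_cases hcase : w₃ * d ≤ w₄ * b
  · -- eliminate `Q₁`
    right
    rcases eq_or_lt_of_le hb with hb0 | hbpos
    · -- `b = 0`, so `d > 0` and `w₃ = 0`
      have hdpos : 0 < d := by linarith
      have hw₃0 : w₃ = 0 := by
        rw [← hb0, mul_zero] at hcase
        have := mul_nonneg hw₃ hd
        have h0 : w₃ * d = 0 := le_antisymm hcase this
        rcases mul_eq_zero.mp h0 with h1 | h1
        · exact h1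
        · linarith
      have hmem := plb_combo3 (convex_convexHull ℝ _) hP₁2 hP₂2 hQ₂2 hw₁ hw₂ hw₄
        (by rw [hw₃0] at hw; linarith)
      rw [hw₃0, zero_smul, add_zero]
      exact hmem
    · set t : ℝ := w₃ / b with ht
      have ht0 : 0 ≤ t := div_nonneg hw₃ hbpos.le
      have htb : t * b = w₃ := by rw [ht]; field_simp
      have htd : t * d ≤ w₄ := by
        rw [ht, div_mul_eq_mul_div, div_le_iff₀ hbpos]
        exact hcase
      have hmem := plb_combo3 (convex_convexHull ℝ _) hP₁2 hP₂2 hQ₂2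
        (add_nonneg hw₁ (mul_nonneg ht0 ha)) (add_nonneg hw₂ (mul_nonneg ht0 hc))
        (sub_nonneg.mpr htd) (by
          have : t * a + t * c = t * b + t * d := by rw [← mul_add, ← mul_add, hsum]
          linarith)
      have key : w₁ • P₁ + w₂ • P₂ + w₃ • Q₁ + w₄ • Q₂
          = (w₁ + t * a) • P₁ + (w₂ + t * c) • P₂ + (w₄ - t * d) • Q₂ := by
        rw [← htb]
        linear_combination (norm := module) (-t) • h
      rw [key]
      exact hmem
  · -- eliminate `Q₂`
    left
    push Not at hcase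
    have hdpos : 0 < d := by
      rcases eq_or_lt_of_le hd with hd0 | hdpos
      · rw [← hd0, mul_zero] at hcase
        have := mul_nonneg hw₄ hb
        linarith
      · exact hdpos
    set t : ℝ := w₄ / d with ht
    have ht0 : 0 ≤ t := div_nonneg hw₄ hdpos.le
    have htd : t * d = w₄ := by rw [ht]; field_simp
    have htb : t * b ≤ w₃ := by
      rw [ht, div_mul_eq_mul_div, div_le_iff₀ hdpos]
      exact hcase.le
    have hmem := plb_combo3 (convex_convexHull ℝ _) hP₁1 hP₂1 hQ₁1
      (add_nonneg hw₁ (mul_nonneg ht0 ha)) (add_nonneg hw₂ (mul_nonneg ht0 hc))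
      (sub_nonneg.mpr htb) (by
        have : t * a + t * c = t * b + t * d := by rw [← mul_add, ← mul_add, hsum]
        linarith)
    have key : w₁ • P₁ + w₂ • P₂ + w₃ • Q₁ + w₄ • Q₂
        = (w₁ + t * a) • P₁ + (w₂ + t * c) • P₂ + (w₃ - t * b) • Q₁ := by
      rw [← htd]
      linear_combination (norm := module) (-t) • h
    rw [key]
    exact hmem

/-- The area of a triangle hull. -/
theorem plb_vol_tri (X Y Z : ℝ × ℝ) :
    volume (convexHull ℝ ({X, Y, Z} : Set (ℝ × ℝ))) ≤
      ENNReal.ofReal (|(Y.1 - X.1) * (Z.2 - X.2) - (Y.2 - X.2) * (Z.1 - X.1)| / 2) := by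
  rw [← volume_tri]
  exact measure_mono (convexHull_subset_tri X Y Z)

/-- The convex hull of the horizontal unit segment from `(0,0)` and the vertical unit segment
from `(α, β)` has area at most `(1 + α + β)/2` when `α ≥ 1/2`, `β ≥ -1/2`. -/
theorem volume_hull4_le (α β : ℝ) (hα : 1 / 2 ≤ α) (hβ : -1 / 2 ≤ β) :
    volume (convexHull ℝ {((0 : ℝ), (0 : ℝ)), ((1 : ℝ), (0 : ℝ)), (α, β), (α, β + 1)}) ≤
      ENNReal.ofReal ((1 + α + β) / 2) := by
  set A : ℝ × ℝ := ((0 : ℝ), (0 : ℝ)) with hA
  set B : ℝ × ℝ := ((1 : ℝ), (0 : ℝ)) with hB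
  set C : ℝ × ℝ := (α, β) with hC
  set D : ℝ × ℝ := (α, β + 1) with hD
  rcases le_total 1 α with h1 | h1
  · rcases le_total 0 β with h2 | h2
    · -- hull ⊆ ACB ∪ ACD
      have hset : ({A, B, C, D} : Set (ℝ × ℝ)) = {A, C, B, D} := by
        rw [Set.insert_comm B C]
      have hsub := hull4_subset_union A C B D (α - 1) (1 + β) α β (by linarith) (by linarith)
        (by linarith) h2 (by ring) (by linarith) (by
          rw [hA, hB, hC, hD]
          ext <;> simp <;> ring)
      rw [hset]
      calc volume (convexHull ℝ ({A, C, B, D} : Set (ℝ × ℝ)))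
          ≤ volume (convexHull ℝ ({A, C, B} : Set (ℝ × ℝ)) ∪ convexHull ℝ {A, C, D}) :=
            measure_mono hsub
        _ ≤ volume (convexHull ℝ ({A, C, B} : Set (ℝ × ℝ)))
              + volume (convexHull ℝ ({A, C, D} : Set (ℝ × ℝ))) := measure_union_le _ _
        _ ≤ ENNReal.ofReal (β / 2) + ENNReal.ofReal (α / 2) := by
            refine add_le_add ((plb_vol_tri A C B).trans ?_) ((plb_vol_tri A C D).trans ?_)
            · apply ENNReal.ofReal_le_ofReal
              rw [hA, hB, hC]
              simp only [sub_zero, mul_zero, mul_one, zero_sub, abs_neg, abs_of_nonneg h2]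
              exact le_rfl
            · apply ENNReal.ofReal_le_ofReal
              rw [hA, hC, hD]
              simp only [sub_zero]
              have : α * (β + 1) - β * α = α := by ring
              rw [this, abs_of_nonneg (by linarith)]
        _ = ENNReal.ofReal (β / 2 + α / 2) := by
            rw [ENNReal.ofReal_add (by linarith) (by linarith)]
        _ ≤ ENNReal.ofReal ((1 + α + β) / 2) := by
            apply ENNReal.ofReal_le_ofReal
            linarith
    · -- `B` lies in the triangle `ACD`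
      have hAm : A ∈ convexHull ℝ ({A, C, D} : Set (ℝ × ℝ)) := subset_convexHull ℝ _ (by simp)
      have hCm : C ∈ convexHull ℝ ({A, C, D} : Set (ℝ × ℝ)) := subset_convexHull ℝ _ (by simp)
      have hDm : D ∈ convexHull ℝ ({A, C, D} : Set (ℝ × ℝ)) := subset_convexHull ℝ _ (by simp)
      have hα0 : 0 < α := by linarith
      have hBm : B ∈ convexHull ℝ ({A, C, D} : Set (ℝ × ℝ)) := by
        have hmem := plb_combo3 (convex_convexHull ℝ _) hAm hCm hDm
          (a := (α - 1) / α) (b := (1 + β) / α) (c := -β / α)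
          (div_nonneg (by linarith) hα0.le) (div_nonneg (by linarith) hα0.le)
          (div_nonneg (by linarith) hα0.le) (by field_simp; ring)
        have hB' : ((α - 1) / α) • A + ((1 + β) / α) • C + (-β / α) • D = B := by
          rw [hA, hB, hC, hD]
          ext
          · simp
            field_simp
            ring
          · simp
            field_simp
            ring
        rw [hB'] at hmem
        exact hmem
      have hsub : convexHull ℝ ({A, B, C, D} : Set (ℝ × ℝ)) ⊆ convexHull ℝ {A, C, D} := by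
        apply convexHull_min _ (convex_convexHull ℝ _)
        intro x hx
        simp only [Set.mem_insert_iff, Set.mem_singleton_iff] at hx
        rcases hx with rfl | rfl | rfl | rfl
        · exact hAm
        · exact hBm
        · exact hCm
        · exact hDm
      calc volume (convexHull ℝ ({A, B, C, D} : Set (ℝ × ℝ)))
          ≤ volume (convexHull ℝ ({A, C, D} : Set (ℝ × ℝ))) := measure_mono hsub
        _ ≤ ENNReal.ofReal (α / 2) := by
            refine (plb_vol_tri A C D).trans ?_
            apply ENNReal.ofReal_le_ofReal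
            rw [hA, hC, hD]
            simp only [sub_zero]
            have : α * (β + 1) - β * α = α := by ring
            rw [this, abs_of_nonneg (by linarith)]
        _ ≤ ENNReal.ofReal ((1 + α + β) / 2) := by
            apply ENNReal.ofReal_le_ofReal
            linarith
  · rcases le_total 0 β with h2 | h2
    · -- `C` lies in the triangle `ABD`
      have hAm : A ∈ convexHull ℝ ({A, B, D} : Set (ℝ × ℝ)) := subset_convexHull ℝ _ (by simp)
      have hBm : B ∈ convexHull ℝ ({A, B, D} : Set (ℝ × ℝ)) := subset_convexHull ℝ _ (by simp)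
      have hDm : D ∈ convexHull ℝ ({A, B, D} : Set (ℝ × ℝ)) := subset_convexHull ℝ _ (by simp)
      have hβ0 : 0 < 1 + β := by linarith
      have hCm : C ∈ convexHull ℝ ({A, B, D} : Set (ℝ × ℝ)) := by
        have hmem := plb_combo3 (convex_convexHull ℝ _) hAm hBm hDm
          (a := (1 - α) / (1 + β)) (b := α / (1 + β)) (c := β / (1 + β))
          (div_nonneg (by linarith) hβ0.le) (div_nonneg (by linarith) hβ0.le)
          (div_nonneg h2 hβ0.le) (by field_simp; ring)
        have hC' : ((1 - α) / (1 + β)) • A + (α / (1 + β)) • B + (β / (1 + β)) • D = C := by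
          rw [hA, hB, hC, hD]
          ext
          · simp
            field_simp
          · simp
            field_simp
            ring
        rw [hC'] at hmem
        exact hmem
      have hsub : convexHull ℝ ({A, B, C, D} : Set (ℝ × ℝ)) ⊆ convexHull ℝ {A, B, D} := by
        apply convexHull_min _ (convex_convexHull ℝ _)
        intro x hx
        simp only [Set.mem_insert_iff, Set.mem_singleton_iff] at hx
        rcases hx with rfl | rfl | rfl | rfl
        · exact hAm
        · exact hBm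
        · exact hCm
        · exact hDm
      calc volume (convexHull ℝ ({A, B, C, D} : Set (ℝ × ℝ)))
          ≤ volume (convexHull ℝ ({A, B, D} : Set (ℝ × ℝ))) := measure_mono hsub
        _ ≤ ENNReal.ofReal ((β + 1) / 2) := by
            refine (plb_vol_tri A B D).trans ?_
            apply ENNReal.ofReal_le_ofReal
            rw [hA, hB, hD]
            simp only [sub_zero, one_mul, zero_mul]
            rw [abs_of_nonneg (by linarith)]
        _ ≤ ENNReal.ofReal ((1 + α + β) / 2) := by
            apply ENNReal.ofReal_le_ofReal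
            linarith
    · -- hull ⊆ ABC ∪ ABD
      have hsub := hull4_subset_union A B C D (1 - α) α (1 + β) (-β) (by linarith) (by linarith)
        (by linarith) (by linarith) (by ring) (by linarith) (by
          rw [hA, hB, hC, hD]
          ext <;> simp <;> ring)
      calc volume (convexHull ℝ ({A, B, C, D} : Set (ℝ × ℝ)))
          ≤ volume (convexHull ℝ ({A, B, C} : Set (ℝ × ℝ)) ∪ convexHull ℝ {A, B, D}) :=
            measure_mono hsub
        _ ≤ volume (convexHull ℝ ({A, B, C} : Set (ℝ × ℝ)))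
              + volume (convexHull ℝ ({A, B, D} : Set (ℝ × ℝ))) := measure_union_le _ _
        _ ≤ ENNReal.ofReal (-β / 2) + ENNReal.ofReal ((β + 1) / 2) := by
            refine add_le_add ((plb_vol_tri A B C).trans ?_) ((plb_vol_tri A B D).trans ?_)
            · apply ENNReal.ofReal_le_ofReal
              rw [hA, hB, hC]
              simp only [sub_zero, one_mul, zero_mul]
              rw [abs_of_nonpos h2]
            · apply ENNReal.ofReal_le_ofReal
              rw [hA, hB, hD]
              simp only [sub_zero, one_mul, zero_mul]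
              rw [abs_of_nonneg (by linarith)]
        _ = ENNReal.ofReal (-β / 2 + (β + 1) / 2) := by
            rw [ENNReal.ofReal_add (by linarith) (by linarith)]
        _ ≤ ENNReal.ofReal ((1 + α + β) / 2) := by
            apply ENNReal.ofReal_le_ofReal
            linarith

end Vale.Agent.H5.P243
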