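import Vale.Agent.H5.P243.Planar

/-!
# The shadow of a tetrahedron along a chord joining two opposite edges (P243, track T)

LEAN ROW T3: `volume_crossRegion_le`.

Sketch. Write a point of `crossRegion a₀ b₀` as `(a₀ + 2 σ, b₀ + 2 τ)` with
`σ = (1 - l) (a - a₀)`, `τ = l (b - b₀)`.  According to the signs of `a - a₀` and `b - b₀` it lies
in one of the four triangles `tri (a₀, b₀) (a₀ + 2 A, b₀) (a₀, b₀ + 2 B)`,
`A ∈ {1 - a₀, -a₀}`, `B ∈ {1 - b₀, -b₀}`: e.g. for `a ≥ a₀`, `b ≥ b₀` take the point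
`g = ((1 - l) ξ, l η)` of `stdTri`, where `a - a₀ = ξ (1 - a₀)`, `b - b₀ = η (1 - b₀)`,
`ξ, η ∈ [0,1]` (if `a₀ = 1` then `a = a₀` and any `ξ` works).  By `volume_tri` the four triangles
have areas `2 |A| |B|`, which add up to `2 (1 - a₀ + a₀) (1 - b₀ + b₀) = 2`; conclude with
`measure_union_le`.
-/

open MeasureTheory Set
open scoped ENNReal

namespace Vale.Agent.H5.P243

/-- In the coordinates `(s, t) ↦ (X(s) + Y(t))/2` of the midpoint parallelogram, the shadow of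
the tetrahedron along a chord joining `X(a₀)` and `Y(b₀)`. -/
def crossRegion (a₀ b₀ : ℝ) : Set (ℝ × ℝ) :=
  {g | ∃ l ∈ Icc (0 : ℝ) 1, ∃ a ∈ Icc (0 : ℝ) 1, ∃ b ∈ Icc (0 : ℝ) 1,
    g = (a₀ + 2 * (1 - l) * (a - a₀), b₀ + 2 * l * (b - b₀))}

/-- A ratio `d / A` in `[0, 1]` with `d / A * A = d`, when `d` lies between `0` and `A`. -/
theorem pld_ratio {A d : ℝ} (h : (0 ≤ d ∧ d ≤ A) ∨ (A ≤ d ∧ d ≤ 0)) :
    0 ≤ d / A ∧ d / A ≤ 1 ∧ d / A * A = d := by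
  rcases h with ⟨h1, h2⟩ | ⟨h1, h2⟩
  · have hA : 0 ≤ A := h1.trans h2
    refine ⟨div_nonneg h1 hA, div_le_one_of_le₀ h2 hA, ?_⟩
    rcases eq_or_lt_of_le hA with h0 | h0
    · have : d = 0 := le_antisymm (by rw [h0]; exact h2) h1
      rw [this]; simp
    · exact div_mul_cancel₀ d h0.ne'
  · have hA : A ≤ 0 := h1.trans h2
    refine ⟨div_nonneg_of_nonpos h2 hA, ?_, ?_⟩
    · rw [← neg_div_neg_eq]
      exact div_le_one_of_le₀ (neg_le_neg h1) (neg_nonneg.mpr hA)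
    · rcases eq_or_lt_of_le hA with h0 | h0
      · have : d = 0 := le_antisymm h2 (by rw [← h0]; exact h1)
        rw [this]; simp
      · exact div_mul_cancel₀ d h0.ne

/-- The point `(a₀ + 2 (1 - l) da, b₀ + 2 l db)` lies in the triangle with legs `2 A`, `2 B`. -/
theorem pld_mem_tri {a₀ b₀ A B l da db : ℝ} (hl : l ∈ Icc (0 : ℝ) 1)
    (hA : (0 ≤ da ∧ da ≤ A) ∨ (A ≤ da ∧ da ≤ 0))
    (hB : (0 ≤ db ∧ db ≤ B) ∨ (B ≤ db ∧ db ≤ 0)) :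
    (a₀ + 2 * (1 - l) * da, b₀ + 2 * l * db) ∈ tri (a₀, b₀) (a₀ + 2 * A, b₀) (a₀, b₀ + 2 * B) := by
  obtain ⟨x0, x1, xe⟩ := pld_ratio hA
  obtain ⟨y0, y1, ye⟩ := pld_ratio hB
  have hl0 : 0 ≤ l := hl.1
  have hl1 : 0 ≤ 1 - l := sub_nonneg.mpr hl.2
  refine ⟨((1 - l) * (da / A), l * (db / B)), ⟨mul_nonneg hl1 x0, mul_nonneg hl0 y0, ?_⟩, ?_⟩
  · show (1 - l) * (da / A) + l * (db / B) ≤ 1
    nlinarith [mul_le_mul_of_nonneg_left x1 hl1, mul_le_mul_of_nonneg_left y1 hl0]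
  · refine Prod.ext ?_ ?_
    · simp only [Prod.fst_add, Prod.smul_fst, Prod.fst_sub, smul_eq_mul, sub_self, mul_zero,
        add_zero]
      have : (1 - l) * (da / A) * (a₀ + 2 * A - a₀) = 2 * (1 - l) * (da / A * A) := by ring
      rw [this, xe]
    · simp only [Prod.snd_add, Prod.smul_snd, Prod.snd_sub, smul_eq_mul, sub_self, mul_zero,
        add_zero]
      have : l * (db / B) * (b₀ + 2 * B - b₀) = 2 * l * (db / B * B) := by ring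
      rw [this, ye]

/-- Area of the triangle with legs `2 A`, `2 B`. -/
theorem pld_volume_tri (a₀ b₀ A B : ℝ) :
    volume (tri (a₀, b₀) (a₀ + 2 * A, b₀) (a₀, b₀ + 2 * B)) = ENNReal.ofReal (2 * |A| * |B|) := by
  rw [volume_tri]
  congr 1
  have : (a₀ + 2 * A - a₀) * (b₀ + 2 * B - b₀) - (b₀ - b₀) * (a₀ - a₀) = 4 * (A * B) := by ring
  simp only []
  rw [this, abs_mul, abs_mul]
  have h4 : |(4 : ℝ)| = 4 := abs_of_pos (by norm_num)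
  rw [h4]
  ring

theorem volume_crossRegion_le (a₀ b₀ : ℝ) (ha : a₀ ∈ Icc (0 : ℝ) 1) (hb : b₀ ∈ Icc (0 : ℝ) 1) :
    volume (crossRegion a₀ b₀) ≤ 2 := by
  set T1 := tri (a₀, b₀) (a₀ + 2 * (1 - a₀), b₀) (a₀, b₀ + 2 * (1 - b₀)) with hT1
  set T2 := tri (a₀, b₀) (a₀ + 2 * (1 - a₀), b₀) (a₀, b₀ + 2 * (-b₀)) with hT2
  set T3 := tri (a₀, b₀) (a₀ + 2 * (-a₀), b₀) (a₀, b₀ + 2 * (1 - b₀)) with hT3
  set T4 := tri (a₀, b₀) (a₀ + 2 * (-a₀), b₀) (a₀, b₀ + 2 * (-b₀)) with hT4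
  have hsub : crossRegion a₀ b₀ ⊆ (T1 ∪ T2) ∪ (T3 ∪ T4) := by
    rintro g ⟨l, hl, a, haI, b, hbI, rfl⟩
    rcases le_total a₀ a with h1 | h1
    · have hA : (0 ≤ a - a₀ ∧ a - a₀ ≤ 1 - a₀) ∨ (1 - a₀ ≤ a - a₀ ∧ a - a₀ ≤ 0) :=
        Or.inl ⟨sub_nonneg.mpr h1, by linarith [haI.2]⟩
      rcases le_total b₀ b with h2 | h2
      · have hB : (0 ≤ b - b₀ ∧ b - b₀ ≤ 1 - b₀) ∨ (1 - b₀ ≤ b - b₀ ∧ b - b₀ ≤ 0) :=
          Or.inl ⟨sub_nonneg.mpr h2, by linarith [hbI.2]⟩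
        exact Or.inl (Or.inl (pld_mem_tri hl hA hB))
      · have hB : (0 ≤ b - b₀ ∧ b - b₀ ≤ -b₀) ∨ (-b₀ ≤ b - b₀ ∧ b - b₀ ≤ 0) :=
          Or.inr ⟨by linarith [hbI.1], sub_nonpos.mpr h2⟩
        exact Or.inl (Or.inr (pld_mem_tri hl hA hB))
    · have hA : (0 ≤ a - a₀ ∧ a - a₀ ≤ -a₀) ∨ (-a₀ ≤ a - a₀ ∧ a - a₀ ≤ 0) :=
        Or.inr ⟨by linarith [haI.1], sub_nonpos.mpr h1⟩
      rcases le_total b₀ b with h2 | h2
      · have hB : (0 ≤ b - b₀ ∧ b - b₀ ≤ 1 - b₀) ∨ (1 - b₀ ≤ b - b₀ ∧ b - b₀ ≤ 0) :=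
          Or.inl ⟨sub_nonneg.mpr h2, by linarith [hbI.2]⟩
        exact Or.inr (Or.inl (pld_mem_tri hl hA hB))
      · have hB : (0 ≤ b - b₀ ∧ b - b₀ ≤ -b₀) ∨ (-b₀ ≤ b - b₀ ∧ b - b₀ ≤ 0) :=
          Or.inr ⟨by linarith [hbI.1], sub_nonpos.mpr h2⟩
        exact Or.inr (Or.inr (pld_mem_tri hl hA hB))
  have ha0 : |a₀| = a₀ := abs_of_nonneg ha.1
  have ha1 : |1 - a₀| = 1 - a₀ := abs_of_nonneg (sub_nonneg.mpr ha.2)
  have hb0 : |b₀| = b₀ := abs_of_nonneg hb.1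
  have hb1 : |1 - b₀| = 1 - b₀ := abs_of_nonneg (sub_nonneg.mpr hb.2)
  have v1 : volume T1 = ENNReal.ofReal (2 * (1 - a₀) * (1 - b₀)) := by
    rw [hT1, pld_volume_tri, ha1, hb1]
  have v2 : volume T2 = ENNReal.ofReal (2 * (1 - a₀) * b₀) := by
    rw [hT2, pld_volume_tri, ha1, abs_neg, hb0]
  have v3 : volume T3 = ENNReal.ofReal (2 * a₀ * (1 - b₀)) := by
    rw [hT3, pld_volume_tri, abs_neg, ha0, hb1]
  have v4 : volume T4 = ENNReal.ofReal (2 * a₀ * b₀) := by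
    rw [hT4, pld_volume_tri, abs_neg, abs_neg, ha0, hb0]
  have n1 : 0 ≤ 2 * (1 - a₀) * (1 - b₀) :=
    mul_nonneg (mul_nonneg (by norm_num) (sub_nonneg.mpr ha.2)) (sub_nonneg.mpr hb.2)
  have n2 : 0 ≤ 2 * (1 - a₀) * b₀ :=
    mul_nonneg (mul_nonneg (by norm_num) (sub_nonneg.mpr ha.2)) hb.1
  have n3 : 0 ≤ 2 * a₀ * (1 - b₀) :=
    mul_nonneg (mul_nonneg (by norm_num) ha.1) (sub_nonneg.mpr hb.2)
  have n4 : 0 ≤ 2 * a₀ * b₀ := mul_nonneg (mul_nonneg (by norm_num) ha.1) hb.1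
  calc volume (crossRegion a₀ b₀) ≤ volume ((T1 ∪ T2) ∪ (T3 ∪ T4)) := measure_mono hsub
    _ ≤ volume (T1 ∪ T2) + volume (T3 ∪ T4) := measure_union_le _ _
    _ ≤ (volume T1 + volume T2) + (volume T3 + volume T4) :=
        add_le_add (measure_union_le _ _) (measure_union_le _ _)
    _ = ENNReal.ofReal (2 * (1 - a₀) * (1 - b₀) + 2 * (1 - a₀) * b₀
          + (2 * a₀ * (1 - b₀) + 2 * a₀ * b₀)) := by
        rw [v1, v2, v3, v4, ← ENNReal.ofReal_add n1 n2, ← ENNReal.ofReal_add n3 n4,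
          ← ENNReal.ofReal_add (add_nonneg n1 n2) (add_nonneg n3 n4)]
    _ = 2 := by
        have : 2 * (1 - a₀) * (1 - b₀) + 2 * (1 - a₀) * b₀ + (2 * a₀ * (1 - b₀) + 2 * a₀ * b₀)
            = 2 := by ring
        rw [this]
        simp

end Vale.Agent.H5.P243
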