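import Vale.Agent.H5.P243.PlanarB

/-!
# The shadow of a tetrahedron in the coordinates of a median triangle (P243, track T)

LEAN ROW T5: `volume_hullG_le`.

Sketch. Put `ρ = (1 - τ) ξ - τ η`, `O = (0,0)`, `E = (1,0)`, `V₃ = (ρ, 2τ)`, `V₄ = (-ρ, 2 - 2τ)`.
Then `(ρ + 2τ - 1) O + (-ρ) E + (1 - τ) V₃ + (-τ) V₄ = 0` and the four weights add up to `0`.
Moreover `-τ ≤ -τ η ≤ ρ ≤ (1 - τ) ξ ≤ 1 - τ`.  Four cases.
* `0 ≤ ρ`, `ρ + 2τ - 1 ≤ 0`: `(1 - τ) V₃ = (1 - 2τ - ρ) O + ρ E + τ V₄`, so `V₃` is in the triangle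
  `O E V₄` (if `τ = 1` then `ρ = 0` and everything is trivial: treat `1 - τ = 0` separately, or use
  `hull4_subset_union`-style weights), hull ⊆ `O E V₄`, area `1 - τ`.
* `ρ ≤ 0`, `0 ≤ ρ + 2τ - 1`: `τ V₄ = (ρ + 2τ - 1) O + (-ρ) E + (1 - τ) V₃`, hull ⊆ `O E V₃`,
  area `τ`.
* `0 ≤ ρ`, `0 ≤ ρ + 2τ - 1`: `(ρ + 2τ - 1) O + (1 - τ) V₃ = ρ E + τ V₄`: `hull4_subset_union` with
  `P = O, V₃`, `Q = E, V₄`: hull ⊆ `O V₃ E ∪ O V₃ V₄`, areas `τ + ρ ≤ 1`.
* `ρ ≤ 0`, `ρ + 2τ - 1 ≤ 0`: `(-ρ) E + (1 - τ) V₃ = (1 - 2τ - ρ) O + τ V₄`: `hull4_subset_union`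
  with `P = E, V₃`, `Q = O, V₄`: hull ⊆ `E V₃ O ∪ E V₃ V₄`, areas `τ + (1 - 2τ - ρ) ≤ 1`.
(When the common weight sum is `0` all four points coincide pairwise suitably; e.g. in the third
case `ρ + τ = 0` forces `ρ = τ = 0`, then `V₃ = O`, `V₄ = (0,2)`, hull ⊆ `O E V₄`.)
Areas by `convexHull_subset_tri` and `volume_tri` (Planar.lean); reorder the four-point set with
`Set.insert_comm` / `Set.pair_comm` as needed.
-/

open MeasureTheory Set
open scoped ENNReal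

namespace Vale.Agent.H5.P243

/-- If the third of four points lies in the triangle of the other three, so does the hull. -/
theorem plg_sub3 {V : Type*} [AddCommGroup V] [Module ℝ V] (A B C D : V)
    (h : C ∈ convexHull ℝ ({A, B, D} : Set V)) :
    convexHull ℝ ({A, B, C, D} : Set V) ⊆ convexHull ℝ {A, B, D} := by
  apply convexHull_min _ (convex_convexHull ℝ _)
  intro x hx
  simp only [Set.mem_insert_iff, Set.mem_singleton_iff] at hx
  rcases hx with rfl | rfl | rfl | rfl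
  · exact subset_convexHull ℝ _ (by simp)
  · exact subset_convexHull ℝ _ (by simp)
  · exact h
  · exact subset_convexHull ℝ _ (by simp)

/-- If the fourth of four points lies in the triangle of the other three, so does the hull. -/
theorem plg_sub4 {V : Type*} [AddCommGroup V] [Module ℝ V] (A B C D : V)
    (h : D ∈ convexHull ℝ ({A, B, C} : Set V)) :
    convexHull ℝ ({A, B, C, D} : Set V) ⊆ convexHull ℝ {A, B, C} := by
  apply convexHull_min _ (convex_convexHull ℝ _)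
  intro x hx
  simp only [Set.mem_insert_iff, Set.mem_singleton_iff] at hx
  rcases hx with rfl | rfl | rfl | rfl
  · exact subset_convexHull ℝ _ (by simp)
  · exact subset_convexHull ℝ _ (by simp)
  · exact subset_convexHull ℝ _ (by simp)
  · exact h

/-- A point with a nonnegative weighted representation lies in the triangle. -/
theorem plg_mem3 {V : Type*} [AddCommGroup V] [Module ℝ V] (A B C X : V) (a b c : ℝ)
    (ha : 0 ≤ a) (hb : 0 ≤ b) (hc : 0 ≤ c) (hs : 0 < a + b + c)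
    (h : (a + b + c) • X = a • A + b • B + c • C) :
    X ∈ convexHull ℝ ({A, B, C} : Set V) := by
  have hA : A ∈ convexHull ℝ ({A, B, C} : Set V) := subset_convexHull ℝ _ (by simp)
  have hB : B ∈ convexHull ℝ ({A, B, C} : Set V) := subset_convexHull ℝ _ (by simp)
  have hC : C ∈ convexHull ℝ ({A, B, C} : Set V) := subset_convexHull ℝ _ (by simp)
  have hmem := plb_combo3 (convex_convexHull ℝ _) hA hB hC
    (a := a / (a + b + c)) (b := b / (a + b + c)) (c := c / (a + b + c))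
    (div_nonneg ha hs.le) (div_nonneg hb hs.le) (div_nonneg hc hs.le) (by field_simp)
  have hX : X = (1 / (a + b + c)) • ((a + b + c) • X) := by
    rw [smul_smul, one_div, inv_mul_cancel₀ hs.ne', one_smul]
  have e : (a / (a + b + c)) • A + (b / (a + b + c)) • B + (c / (a + b + c)) • C = X := by
    rw [hX, h]
    module
  rw [e] at hmem
  exact hmem

/-- Area bound for a triangle with explicit vertices. -/
theorem plg_tri (x1 x2 y1 y2 z1 z2 r : ℝ)
    (h : |(y1 - x1) * (z2 - x2) - (y2 - x2) * (z1 - x1)| / 2 ≤ r) :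
    volume (convexHull ℝ ({(x1, x2), (y1, y2), (z1, z2)} : Set (ℝ × ℝ))) ≤ ENNReal.ofReal r :=
  (plb_vol_tri (x1, x2) (y1, y2) (z1, z2)).trans (ENNReal.ofReal_le_ofReal h)

/-- The hull of `O, E, (ρ, 2τ), (-ρ, 2 - 2τ)` has area at most `1` when `-τ ≤ ρ ≤ 1 - τ`. -/
theorem plg_main (τ ρ : ℝ) (hτ0 : 0 ≤ τ) (hτ1 : τ ≤ 1) (hρ1 : -τ ≤ ρ) (hρ2 : ρ ≤ 1 - τ) :
    volume (convexHull ℝ ({((0 : ℝ), (0 : ℝ)), ((1 : ℝ), (0 : ℝ)), (ρ, 2 * τ),
      (-ρ, 2 - 2 * τ)} : Set (ℝ × ℝ))) ≤ 1 := by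
  rcases le_total 0 ρ with h1 | h1
  · rcases le_total (ρ + 2 * τ - 1) 0 with h2 | h2
    · -- (i): the third point lies in the triangle of the others
      have hmem : ((ρ, 2 * τ) : ℝ × ℝ) ∈ convexHull ℝ ({((0 : ℝ), (0 : ℝ)), ((1 : ℝ), (0 : ℝ)),
          (-ρ, 2 - 2 * τ)} : Set (ℝ × ℝ)) :=
        plg_mem3 _ _ _ _ (1 - 2 * τ - ρ) ρ τ (by linarith) h1 hτ0 (by linarith) (by
          refine Prod.ext ?_ ?_
          · simp
            ring
          · simp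
            ring)
      calc volume (convexHull ℝ ({((0 : ℝ), (0 : ℝ)), ((1 : ℝ), (0 : ℝ)), (ρ, 2 * τ),
              (-ρ, 2 - 2 * τ)} : Set (ℝ × ℝ)))
          ≤ volume (convexHull ℝ ({((0 : ℝ), (0 : ℝ)), ((1 : ℝ), (0 : ℝ)),
              (-ρ, 2 - 2 * τ)} : Set (ℝ × ℝ))) := measure_mono (plg_sub3 _ _ _ _ hmem)
        _ ≤ ENNReal.ofReal (1 - τ) := plg_tri _ _ _ _ _ _ _ (by
            have e : ((1 : ℝ) - 0) * (2 - 2 * τ - 0) - ((0 : ℝ) - 0) * (-ρ - 0) = 2 - 2 * τ := by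
              ring
            rw [e, abs_of_nonneg (by linarith)]
            linarith)
        _ ≤ 1 := ENNReal.ofReal_le_one.mpr (by linarith)
    · -- (iii): two crossing segments
      have hset : ({((0 : ℝ), (0 : ℝ)), ((1 : ℝ), (0 : ℝ)), (ρ, 2 * τ),
          (-ρ, 2 - 2 * τ)} : Set (ℝ × ℝ)) = {((0 : ℝ), (0 : ℝ)), (ρ, 2 * τ), ((1 : ℝ), (0 : ℝ)),
          (-ρ, 2 - 2 * τ)} := by
        rw [Set.insert_comm ((1 : ℝ), (0 : ℝ)) (ρ, 2 * τ)]
      have hsub := hull4_subset_union ((0 : ℝ), (0 : ℝ)) (ρ, 2 * τ) ((1 : ℝ), (0 : ℝ))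
        (-ρ, 2 - 2 * τ) (ρ + 2 * τ - 1) (1 - τ) ρ τ h2 (by linarith) h1 hτ0 (by ring)
        (by linarith) (by
          refine Prod.ext ?_ ?_
          · simp
            ring
          · simp
            ring)
      rw [hset]
      calc volume (convexHull ℝ ({((0 : ℝ), (0 : ℝ)), (ρ, 2 * τ), ((1 : ℝ), (0 : ℝ)),
              (-ρ, 2 - 2 * τ)} : Set (ℝ × ℝ)))
          ≤ volume (convexHull ℝ ({((0 : ℝ), (0 : ℝ)), (ρ, 2 * τ), ((1 : ℝ), (0 : ℝ))} :
                Set (ℝ × ℝ)) ∪ convexHull ℝ {((0 : ℝ), (0 : ℝ)), (ρ, 2 * τ), (-ρ, 2 - 2 * τ)}) :=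
            measure_mono hsub
        _ ≤ volume (convexHull ℝ ({((0 : ℝ), (0 : ℝ)), (ρ, 2 * τ), ((1 : ℝ), (0 : ℝ))} :
                Set (ℝ × ℝ)))
              + volume (convexHull ℝ ({((0 : ℝ), (0 : ℝ)), (ρ, 2 * τ), (-ρ, 2 - 2 * τ)} :
                Set (ℝ × ℝ))) := measure_union_le _ _
        _ ≤ ENNReal.ofReal τ + ENNReal.ofReal ρ := by
            refine add_le_add (plg_tri _ _ _ _ _ _ _ ?_) (plg_tri _ _ _ _ _ _ _ ?_)
            · have e : (ρ - 0) * ((0 : ℝ) - 0) - (2 * τ - 0) * ((1 : ℝ) - 0) = -(2 * τ) := by ring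
              rw [e, abs_neg, abs_of_nonneg (by linarith)]
              linarith
            · have e : (ρ - 0) * (2 - 2 * τ - 0) - (2 * τ - 0) * (-ρ - 0) = 2 * ρ := by ring
              rw [e, abs_of_nonneg (by linarith)]
              linarith
        _ = ENNReal.ofReal (τ + ρ) := by
            rw [ENNReal.ofReal_add hτ0 h1]
        _ ≤ 1 := ENNReal.ofReal_le_one.mpr (by linarith)
  · rcases le_total (ρ + 2 * τ - 1) 0 with h2 | h2
    · -- (iv): two crossing segments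
      have hset : ({((0 : ℝ), (0 : ℝ)), ((1 : ℝ), (0 : ℝ)), (ρ, 2 * τ),
          (-ρ, 2 - 2 * τ)} : Set (ℝ × ℝ)) = {((1 : ℝ), (0 : ℝ)), (ρ, 2 * τ), ((0 : ℝ), (0 : ℝ)),
          (-ρ, 2 - 2 * τ)} := by
        rw [Set.insert_comm ((0 : ℝ), (0 : ℝ)) ((1 : ℝ), (0 : ℝ)),
          Set.insert_comm ((0 : ℝ), (0 : ℝ)) (ρ, 2 * τ)]
      have hsub := hull4_subset_union ((1 : ℝ), (0 : ℝ)) (ρ, 2 * τ) ((0 : ℝ), (0 : ℝ))
        (-ρ, 2 - 2 * τ) (-ρ) (1 - τ) (1 - 2 * τ - ρ) τ (by linarith) (by linarith) (by linarith)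
        hτ0 (by ring) (by linarith) (by
          refine Prod.ext ?_ ?_
          · simp
            ring
          · simp
            ring)
      rw [hset]
      calc volume (convexHull ℝ ({((1 : ℝ), (0 : ℝ)), (ρ, 2 * τ), ((0 : ℝ), (0 : ℝ)),
              (-ρ, 2 - 2 * τ)} : Set (ℝ × ℝ)))
          ≤ volume (convexHull ℝ ({((1 : ℝ), (0 : ℝ)), (ρ, 2 * τ), ((0 : ℝ), (0 : ℝ))} :
                Set (ℝ × ℝ)) ∪ convexHull ℝ {((1 : ℝ), (0 : ℝ)), (ρ, 2 * τ), (-ρ, 2 - 2 * τ)}) :=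
            measure_mono hsub
        _ ≤ volume (convexHull ℝ ({((1 : ℝ), (0 : ℝ)), (ρ, 2 * τ), ((0 : ℝ), (0 : ℝ))} :
                Set (ℝ × ℝ)))
              + volume (convexHull ℝ ({((1 : ℝ), (0 : ℝ)), (ρ, 2 * τ), (-ρ, 2 - 2 * τ)} :
                Set (ℝ × ℝ))) := measure_union_le _ _
        _ ≤ ENNReal.ofReal τ + ENNReal.ofReal (1 - 2 * τ - ρ) := by
            refine add_le_add (plg_tri _ _ _ _ _ _ _ ?_) (plg_tri _ _ _ _ _ _ _ ?_)
            · have e : (ρ - 1) * ((0 : ℝ) - 0) - (2 * τ - 0) * ((0 : ℝ) - 1) = 2 * τ := by ring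
              rw [e, abs_of_nonneg (by linarith)]
              linarith
            · have e : (ρ - 1) * (2 - 2 * τ - 0) - (2 * τ - 0) * (-ρ - 1)
                  = -(2 * (1 - 2 * τ - ρ)) := by ring
              rw [e, abs_neg, abs_of_nonneg (by linarith)]
              linarith
        _ = ENNReal.ofReal (τ + (1 - 2 * τ - ρ)) := by
            rw [ENNReal.ofReal_add hτ0 (by linarith)]
        _ ≤ 1 := ENNReal.ofReal_le_one.mpr (by linarith)
    · -- (ii): the fourth point lies in the triangle of the others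
      have hmem : ((-ρ, 2 - 2 * τ) : ℝ × ℝ) ∈ convexHull ℝ ({((0 : ℝ), (0 : ℝ)),
          ((1 : ℝ), (0 : ℝ)), (ρ, 2 * τ)} : Set (ℝ × ℝ)) :=
        plg_mem3 _ _ _ _ (ρ + 2 * τ - 1) (-ρ) (1 - τ) h2 (by linarith) (by linarith)
          (by linarith) (by
          refine Prod.ext ?_ ?_
          · simp
            ring
          · simp
            ring)
      calc volume (convexHull ℝ ({((0 : ℝ), (0 : ℝ)), ((1 : ℝ), (0 : ℝ)), (ρ, 2 * τ),
              (-ρ, 2 - 2 * τ)} : Set (ℝ × ℝ)))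
          ≤ volume (convexHull ℝ ({((0 : ℝ), (0 : ℝ)), ((1 : ℝ), (0 : ℝ)),
              (ρ, 2 * τ)} : Set (ℝ × ℝ))) := measure_mono (plg_sub4 _ _ _ _ hmem)
        _ ≤ ENNReal.ofReal τ := plg_tri _ _ _ _ _ _ _ (by
            have e : ((1 : ℝ) - 0) * (2 * τ - 0) - ((0 : ℝ) - 0) * (ρ - 0) = 2 * τ := by ring
            rw [e, abs_of_nonneg (by linarith)]
            linarith)
        _ ≤ 1 := ENNReal.ofReal_le_one.mpr hτ1

/-- In the chart of the median triangle `v₁ v₂ (v₃+v₄)/2` the four vertices of the tetrahedron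
project to `(0,0)`, `(1,0)`, `(ρ, 2τ)`, `(-ρ, 2 - 2τ)`; for the directions considered
(`ρ = (1 - τ) ξ - τ η` with `τ, ξ, η ∈ [0,1]`) their convex hull has area at most `1`, twice the
area of the triangle. -/
theorem volume_hullG_le (τ ξ η : ℝ) (hτ : τ ∈ Icc (0 : ℝ) 1) (hξ : ξ ∈ Icc (0 : ℝ) 1)
    (hη : η ∈ Icc (0 : ℝ) 1) :
    volume (convexHull ℝ {((0 : ℝ), (0 : ℝ)), ((1 : ℝ), (0 : ℝ)),
      ((1 - τ) * ξ - τ * η, 2 * τ), (-((1 - τ) * ξ - τ * η), 2 - 2 * τ)}) ≤ 1 := by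
  have h1 : 0 ≤ (1 - τ) * ξ := mul_nonneg (by linarith [hτ.2]) hξ.1
  have h2 : (1 - τ) * ξ ≤ 1 - τ := mul_le_of_le_one_right (by linarith [hτ.2]) hξ.2
  have h3 : 0 ≤ τ * η := mul_nonneg hτ.1 hη.1
  have h4 : τ * η ≤ τ := mul_le_of_le_one_right hτ.1 hη.2
  exact plg_main τ ((1 - τ) * ξ - τ * η) hτ.1 hτ.2 (by linarith) (by linarith)

end Vale.Agent.H5.P243
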