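import Vale.Agent.H76.Space

/-!
# Shadows of planar pieces: the scaling constant (P243, track T)

`chart o v w` is the affine map `ℝ × ℝ → E3`, `(s, t) ↦ o + s • v + t • w`.  If `v, w, u` are
linearly independent, the shadow along `u` of a chart image `chart o v w '' A` has area
`c * volume A` with a constant `0 < c < ∞` depending only on `u, v, w` (`shadow_scaling`).

LEAN ROW T1 (`shadow_scaling`). Sketch: `H := (Submodule.span ℝ {u})ᗮ` has `finrank = 2`
(`Submodule.finrank_orthogonal_span_singleton`).  `L : ℝ × ℝ →ₗ[ℝ] H`,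
`g ↦ H.orthogonalProjectionOnto (g.1 • v + g.2 • w)` is injective (if the projection vanishes then
`g.1 • v + g.2 • w ∈ span {u}`, contradiction with `hli` unless `g = 0`), hence a (continuous)
linear equivalence (equal finrank).  `(volume : Measure H).map L.symm` is an additive Haar measure
on `ℝ × ℝ`, so it equals `c • volume` with `c = addHaarScalarFactor _ _ ≠ 0` (`c : ℝ≥0`, so
`≠ ⊤`); for arbitrary `A` use `MeasurableEquiv.map_apply` (no measurability needed), i.e.
`volume (L '' A) = c * volume A`.  Finally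
`shadow u (chart o v w '' A) = Subtype.val '' ((fun h => proj o + h) '' (L '' A))` by
`Vale.Agent.H76.coe_proj`, its `μHE[2]` is the `volume` of the set in `H` by
`Vale.Agent.H76.hausdorff_coe_image`, and `volume` on `H` is translation invariant.
-/

open MeasureTheory Set Module
open scoped ENNReal

namespace Vale.Agent.H5.P243

/-- Euclidean 3-space. -/
abbrev E3 := EuclideanSpace ℝ (Fin 3)

/-- The affine chart `(s, t) ↦ o + s • v + t • w` of a plane in 3-space. -/
def chart (o v w : E3) (g : ℝ × ℝ) : E3 := o + g.1 • v + g.2 • w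

/-- Orthogonal projection of a set along the unit vector `u`. -/
def shadow (u : E3) (S : Set E3) : Set E3 := (fun x => x - inner ℝ x u • u) '' S

theorem shadow_mono (u : E3) {S T : Set E3} (h : S ⊆ T) : shadow u S ⊆ shadow u T :=
  image_mono h

/-- The projection along `u` kills multiples of `u`. -/
theorem proj_add_smul (u : E3) (hu : ‖u‖ = 1) (y : E3) (t : ℝ) :
    (y + t • u) - inner ℝ (y + t • u) u • u = y - inner ℝ y u • u := by
  have h1 : inner ℝ (y + t • u) u = inner ℝ y u + t := by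
    rw [inner_add_left, inner_smul_left, real_inner_self_eq_norm_sq, hu]
    simp
  rw [h1, add_smul]
  abel

/-- **Scaling constant.** -/
theorem shadow_scaling (u v w : E3) (hu : ‖u‖ = 1) (hli : LinearIndependent ℝ ![v, w, u]) :
    ∃ c : ℝ≥0∞, c ≠ 0 ∧ c ≠ ⊤ ∧ ∀ (o : E3) (A : Set (ℝ × ℝ)),
      μHE[2] (shadow u (chart o v w '' A)) = c * volume A := by
  classical
  have hE : finrank ℝ E3 = 3 := by simp
  have hu0 : u ≠ 0 := by
    rintro rfl
    simp at hu
  have : Fact (finrank ℝ E3 = 2 + 1) := ⟨hE⟩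
  have hH : finrank ℝ ↥(Submodule.span ℝ {u})ᗮ = 2 :=
    Submodule.finrank_orthogonal_span_singleton hu0
  let P : E3 →L[ℝ] ↥(Submodule.span ℝ {u})ᗮ := (Submodule.span ℝ {u})ᗮ.orthogonalProjectionOnto
  let L : ℝ × ℝ →ₗ[ℝ] ↥(Submodule.span ℝ {u})ᗮ :=
    (LinearMap.fst ℝ ℝ ℝ).smulRight (P v) + (LinearMap.snd ℝ ℝ ℝ).smulRight (P w)
  have hL : ∀ g : ℝ × ℝ, L g = g.1 • P v + g.2 • P w := fun g => rfl
  have hinj : Function.Injective L := by
    rw [← LinearMap.ker_eq_bot, LinearMap.ker_eq_bot']
    intro g hg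
    have h1 : P (g.1 • v + g.2 • w) = 0 := by
      rw [map_add, map_smul, map_smul]
      exact hg
    have h3 := Vale.Agent.H76.coe_proj u hu (g.1 • v + g.2 • w)
    have h3' : ((P (g.1 • v + g.2 • w) : ↥(Submodule.span ℝ {u})ᗮ) : E3)
        = (g.1 • v + g.2 • w) - inner ℝ (g.1 • v + g.2 • w) u • u := h3
    rw [h1] at h3'
    have h5 : g.1 • v + g.2 • w = inner ℝ (g.1 • v + g.2 • w) u • u := by
      have h6 : (g.1 • v + g.2 • w) - inner ℝ (g.1 • v + g.2 • w) u • u = 0 := by
        rw [← h3']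
        rfl
      exact sub_eq_zero.mp h6
    have h7 := Fintype.linearIndependent_iff.mp hli
      ![g.1, g.2, -inner ℝ (g.1 • v + g.2 • w) u] (by
        have e3 : ∀ (a b cc : ℝ) (x y z : E3),
            ∑ i : Fin 3, (![a, b, cc] : Fin 3 → ℝ) i • (![x, y, z] : Fin 3 → E3) i
              = a • x + b • y + cc • z := by
          intro a b cc x y z
          rw [Fin.sum_univ_three]
          rfl
        rw [e3, neg_smul, ← h5]
        abel)
    have h8 := h7 0
    have h9 := h7 1
    simp only [Matrix.cons_val_zero, Matrix.cons_val_one] at h8 h9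
    exact Prod.ext h8 h9
  let Le : (ℝ × ℝ) ≃ₗ[ℝ] ↥(Submodule.span ℝ {u})ᗮ :=
    LinearMap.linearEquivOfInjective L hinj (by rw [hH]; simp)
  have hLe : ∀ g, Le g = L g := fun g => rfl
  let Lc : (ℝ × ℝ) ≃L[ℝ] ↥(Submodule.span ℝ {u})ᗮ := Le.toContinuousLinearEquiv
  have hLc : ∀ g, Lc g = L g := fun g => rfl
  let ν : Measure (ℝ × ℝ) := (volume : Measure ↥(Submodule.span ℝ {u})ᗮ).map Lc.symm
  have hνH : Measure.IsAddHaarMeasure ν := Lc.symm.isAddHaarMeasure_map volume
  have hν : ν = Measure.addHaarScalarFactor ν volume • (volume : Measure (ℝ × ℝ)) :=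
    Measure.isAddLeftInvariant_eq_smul ν volume
  have hpos : 0 < Measure.addHaarScalarFactor ν volume :=
    Measure.addHaarScalarFactor_pos_of_isAddHaarMeasure ν volume
  refine ⟨(Measure.addHaarScalarFactor ν volume : ℝ≥0∞), ?_, ENNReal.coe_ne_top, ?_⟩
  · exact ENNReal.coe_ne_zero.mpr hpos.ne'
  intro o A
  have h1 : shadow u (chart o v w '' A)
      = (fun x => x - inner ℝ x u • u) '' (chart o v w '' A) := rfl
  rw [h1, Vale.Agent.H76.hausdorff_shadow hE u hu]
  have h2 : (Submodule.span ℝ {u})ᗮ.orthogonalProjectionOnto '' (chart o v w '' A)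
      = (fun h => -P o + h) ⁻¹' (L '' A) := by
    ext h
    simp only [mem_image, mem_preimage]
    constructor
    · rintro ⟨_, ⟨g, hg, rfl⟩, rfl⟩
      refine ⟨g, hg, ?_⟩
      have e1 : (Submodule.span ℝ {u})ᗮ.orthogonalProjectionOnto (chart o v w g)
          = P o + g.1 • P v + g.2 • P w := by
        show P (o + g.1 • v + g.2 • w) = _
        rw [map_add, map_add, map_smul, map_smul]
      rw [e1, hL]
      abel
    · rintro ⟨g, hg, hgh⟩
      refine ⟨chart o v w g, ⟨g, hg, rfl⟩, ?_⟩
      have e1 : (Submodule.span ℝ {u})ᗮ.orthogonalProjectionOnto (chart o v w g)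
          = P o + g.1 • P v + g.2 • P w := by
        show P (o + g.1 • v + g.2 • w) = _
        rw [map_add, map_add, map_smul, map_smul]
      rw [e1, add_assoc, ← hL, hgh]
      abel
  rw [h2, measure_preimage_add]
  have h3 : L '' A = Lc.symm ⁻¹' A := by
    ext h
    constructor
    · rintro ⟨g, hg, rfl⟩
      show Lc.symm (L g) ∈ A
      rw [← hLc, Lc.symm_apply_apply]
      exact hg
    · intro hh
      refine ⟨Lc.symm h, hh, ?_⟩
      rw [← hLc, Lc.apply_symm_apply]
  have h4 : ν A = volume (Lc.symm ⁻¹' A) :=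
    Lc.symm.toHomeomorph.toMeasurableEquiv.map_apply A
  rw [h3, ← h4]
  conv_lhs => rw [hν]
  exact Measure.nnreal_smul_coe_apply _ _ _

end Vale.Agent.H5.P243
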