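import Vale.Agent.H5.P243.Scale

/-!
# Plane-section measures for cylinder coverings (P243, track T)

`plane_section`: if a planar piece `chart o v w '' D` of `K` has, in every cylinder direction,
a shadow of at least half the area of the shadow of `K`, then the relative base areas of any
covering of `K` by these cylinders sum to at least `1/2`.  `shadow_le_of_chart` is the tool for
checking the hypothesis on the shadows in coordinates.
-/

open MeasureTheory Set Module
open scoped ENNReal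

namespace Vale.Agent.H5.P243

/-- Comparison of the shadow of `K` with the shadow of a planar piece, checked in a second
chart `chart o' v' w'` transversal to `u`. -/
theorem shadow_le_of_chart (K : Set E3) (u : E3) (hu : ‖u‖ = 1)
    (o v w : E3) (D : Set (ℝ × ℝ))
    (o' v' w' : E3) (hli' : LinearIndependent ℝ ![v', w', u])
    (D' G : Set (ℝ × ℝ))
    (hK : ∀ x ∈ K, ∃ g ∈ G, ∃ t : ℝ, x = chart o' v' w' g + t • u)
    (hD : ∀ g ∈ D', ∃ d ∈ D, ∃ t : ℝ, chart o' v' w' g = chart o v w d + t • u)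
    (hvol : volume G ≤ 2 * volume D') :
    μHE[2] (shadow u K) ≤ 2 * μHE[2] (shadow u (chart o v w '' D)) := by
  obtain ⟨c, -, -, hc⟩ := shadow_scaling u v' w' hu hli'
  have h1 : shadow u K ⊆ shadow u (chart o' v' w' '' G) := by
    rintro _ ⟨x, hx, rfl⟩
    obtain ⟨g, hg, t, rfl⟩ := hK x hx
    refine ⟨chart o' v' w' g, mem_image_of_mem _ hg, ?_⟩
    exact (proj_add_smul u hu _ t).symm
  have h2 : shadow u (chart o' v' w' '' D') ⊆ shadow u (chart o v w '' D) := by
    rintro _ ⟨_, ⟨g, hg, rfl⟩, rfl⟩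
    obtain ⟨d, hd, t, hdt⟩ := hD g hg
    refine ⟨chart o v w d, mem_image_of_mem _ hd, ?_⟩
    show chart o v w d - inner ℝ (chart o v w d) u • u =
      chart o' v' w' g - inner ℝ (chart o' v' w' g) u • u
    rw [hdt]
    exact (proj_add_smul u hu _ t).symm
  calc μHE[2] (shadow u K) ≤ μHE[2] (shadow u (chart o' v' w' '' G)) := measure_mono h1
    _ = c * volume G := hc o' G
    _ ≤ c * (2 * volume D') := mul_le_mul' le_rfl hvol
    _ = 2 * (c * volume D') := by ring
    _ = 2 * μHE[2] (shadow u (chart o' v' w' '' D')) := by rw [hc o' D']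
    _ ≤ 2 * μHE[2] (shadow u (chart o v w '' D)) := mul_le_mul' le_rfl (measure_mono h2)

/-- **Plane-section lemma.** -/
theorem plane_section (m : ℕ) (K : Set E3) (u : Fin m → E3) (hu : ∀ i, ‖u i‖ = 1)
    (B : Fin m → Set E3) (hB : ∀ i, ∀ x ∈ B i, inner ℝ x (u i) = 0)
    (hcov : K ⊆ ⋃ i, {x | ∃ b ∈ B i, ∃ t : ℝ, x = b + t • u i})
    (o v w : E3) (D : Set (ℝ × ℝ)) (hD0 : volume D ≠ 0) (hDfin : volume D ≠ ⊤)
    (hDK : ∀ g ∈ D, chart o v w g ∈ K)
    (hli : ∀ i, LinearIndependent ℝ ![v, w, u i])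
    (hsh : ∀ i, μHE[2] (shadow (u i) K) ≤ 2 * μHE[2] (shadow (u i) (chart o v w '' D))) :
    (1 / 2 : ℝ≥0∞) ≤ ∑ i, μHE[2] (B i) / μHE[2] (shadow (u i) K) := by
  -- the pieces of `D` lying in the cylinders
  set Dp : Fin m → Set (ℝ × ℝ) := fun i =>
    {g | g ∈ D ∧ ∃ b ∈ B i, ∃ t : ℝ, chart o v w g = b + t • u i} with hDp
  have hDcov : D ⊆ ⋃ i, Dp i := by
    intro g hg
    obtain ⟨i, hi⟩ := mem_iUnion.1 (hcov (hDK g hg))
    exact mem_iUnion.2 ⟨i, hg, hi⟩
  have hsub : volume D ≤ ∑ i, volume (Dp i) :=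
    (measure_mono hDcov).trans (measure_iUnion_fintype_le _ _)
  have key : ∀ i, volume (Dp i) / (2 * volume D) ≤ μHE[2] (B i) / μHE[2] (shadow (u i) K) := by
    intro i
    obtain ⟨c, hc0, hctop, hc⟩ := shadow_scaling (u i) v w (hu i) (hli i)
    have h1 : shadow (u i) (chart o v w '' Dp i) ⊆ B i := by
      rintro _ ⟨_, ⟨g, ⟨-, b, hb, t, hbt⟩, rfl⟩, rfl⟩
      show chart o v w g - inner ℝ (chart o v w g) (u i) • u i ∈ B i
      rw [hbt, proj_add_smul (u i) (hu i) b t, hB i b hb]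
      simpa using hb
    have h2 : c * volume (Dp i) ≤ μHE[2] (B i) := by
      rw [← hc o (Dp i)]
      exact measure_mono h1
    have h3 : μHE[2] (shadow (u i) K) ≤ c * (2 * volume D) := by
      calc μHE[2] (shadow (u i) K) ≤ 2 * μHE[2] (shadow (u i) (chart o v w '' D)) := hsh i
        _ = 2 * (c * volume D) := by rw [hc o D]
        _ = c * (2 * volume D) := by ring
    calc volume (Dp i) / (2 * volume D) = c * volume (Dp i) / (c * (2 * volume D)) := by
          rw [ENNReal.mul_div_mul_left _ _ hc0 hctop]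
      _ ≤ μHE[2] (B i) / μHE[2] (shadow (u i) K) := ENNReal.div_le_div h2 h3
  have h2D0 : 2 * volume D ≠ 0 := mul_ne_zero two_ne_zero hD0
  have h2Dtop : 2 * volume D ≠ ⊤ := ENNReal.mul_ne_top ENNReal.ofNat_ne_top hDfin
  calc (1 / 2 : ℝ≥0∞) = volume D / (2 * volume D) := by
        rw [ENNReal.div_eq_div_iff h2D0 h2Dtop two_ne_zero ENNReal.ofNat_ne_top]
        ring
    _ ≤ (∑ i, volume (Dp i)) / (2 * volume D) := ENNReal.div_le_div_right hsub _
    _ = ∑ i, volume (Dp i) / (2 * volume D) := by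
        simp only [div_eq_mul_inv, Finset.sum_mul]
    _ ≤ ∑ i, μHE[2] (B i) / μHE[2] (shadow (u i) K) := Finset.sum_le_sum fun i _ => key i

end Vale.Agent.H5.P243
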