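import Vale.Agent.H5.P243.Section
import Vale.Agent.H5.P243.PlanarD

/-!
# Cylinders parallel to chords joining two opposite edges of a tetrahedron (P243, track T)

`tetra_cross_cylinders`: let `T` be the tetrahedron with vertices `p₁, p₂, q₁, q₂` and let `T` be
covered by finitely many cylinders each of whose axes is parallel to a segment joining a point
of the edge `p₁p₂` to a point of the opposite edge `q₁q₂`.  Then the relative base areas sum to
at least `1/2`.  The planar piece is the midpoint parallelogram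
`{(x + y)/2 : x ∈ [p₁,p₂], y ∈ [q₁,q₂]}`.
-/

open MeasureTheory Set Module
open scoped ENNReal

namespace Vale.Agent.H5.P243

/-- Affine independence of four points, in terms of edge vectors. -/
theorem edge_indep (p₁ p₂ q₁ q₂ : E3) (hT : AffineIndependent ℝ ![p₁, p₂, q₁, q₂])
    (a b d : ℝ) (h : a • (p₂ - p₁) + b • (q₂ - q₁) + d • (q₁ - p₁) = 0) :
    a = 0 ∧ b = 0 ∧ d = 0 := by
  rw [affineIndependent_iff] at hT
  have key := hT Finset.univ ![-a - d, a, d - b, b]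
    (by
      rw [Fin.sum_univ_four]
      change -a - d + a + (d - b) + b = 0
      ring) (by
      rw [Fin.sum_univ_four]
      change (-a - d) • p₁ + a • p₂ + (d - b) • q₁ + b • q₂ = 0
      rw [← h]
      module)
  have h1 : a = 0 := key 1 (Finset.mem_univ _)
  have h3 : b = 0 := key 3 (Finset.mem_univ _)
  have h2 : d - b = 0 := key 2 (Finset.mem_univ _)
  exact ⟨h1, h3, by linarith⟩

theorem tetra_cross_cylinders (m : ℕ) (p₁ p₂ q₁ q₂ : EuclideanSpace ℝ (Fin 3))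
    (hT : AffineIndependent ℝ ![p₁, p₂, q₁, q₂])
    (u : Fin m → EuclideanSpace ℝ (Fin 3)) (hu : ∀ i, ‖u i‖ = 1)
    (hdir : ∀ i, ∃ x ∈ segment ℝ p₁ p₂, ∃ y ∈ segment ℝ q₁ q₂, ∃ c : ℝ, x - y = c • u i)
    (B : Fin m → Set (EuclideanSpace ℝ (Fin 3)))
    (hB : ∀ i, ∀ x ∈ B i, inner ℝ x (u i) = 0)
    (hcov : convexHull ℝ {p₁, p₂, q₁, q₂} ⊆ ⋃ i, {x | ∃ b ∈ B i, ∃ t : ℝ, x = b + t • u i}) :
    (1 / 2 : ℝ≥0∞) ≤ ∑ i, μHE[2] (B i) /
      μHE[2] ((fun x => x - inner ℝ x (u i) • u i) '' convexHull ℝ {p₁, p₂, q₁, q₂}) := by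
  set K : Set E3 := convexHull ℝ {p₁, p₂, q₁, q₂} with hK
  obtain ⟨o, ho⟩ : ∃ o : E3, o = (1 / 2 : ℝ) • (p₁ + q₁) := ⟨_, rfl⟩
  obtain ⟨v, hv⟩ : ∃ v : E3, v = (1 / 2 : ℝ) • (p₂ - p₁) := ⟨_, rfl⟩
  obtain ⟨w, hw⟩ : ∃ w : E3, w = (1 / 2 : ℝ) • (q₂ - q₁) := ⟨_, rfl⟩
  set D : Set (ℝ × ℝ) := Icc (0 : ℝ) 1 ×ˢ Icc (0 : ℝ) 1 with hD
  have hvolD : volume D = 1 := by
    rw [hD, Measure.volume_eq_prod, Measure.prod_prod]
    simp
  have hp₁ : p₁ ∈ K := subset_convexHull ℝ _ (by simp)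
  have hp₂ : p₂ ∈ K := subset_convexHull ℝ _ (by simp)
  have hq₁ : q₁ ∈ K := subset_convexHull ℝ _ (by simp)
  have hq₂ : q₂ ∈ K := subset_convexHull ℝ _ (by simp)
  have hKc : Convex ℝ K := convex_convexHull ℝ _
  have hDK : ∀ g ∈ D, chart o v w g ∈ K := by
    rintro ⟨s, t⟩ ⟨hs, ht⟩
    simp only [mem_Icc] at hs ht
    have hX : p₁ + s • (p₂ - p₁) ∈ K := by
      have := hKc.add_smul_sub_mem hp₁ hp₂ ⟨hs.1, hs.2⟩
      exact this
    have hY : q₁ + t • (q₂ - q₁) ∈ K := hKc.add_smul_sub_mem hq₁ hq₂ ⟨ht.1, ht.2⟩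
    have hmid := hKc.add_smul_sub_mem hX hY (t := (1 / 2 : ℝ)) ⟨by norm_num, by norm_num⟩
    have : chart o v w (s, t) =
        p₁ + s • (p₂ - p₁) + (1 / 2 : ℝ) • (q₁ + t • (q₂ - q₁) - (p₁ + s • (p₂ - p₁))) := by
      simp only [chart]
      rw [ho, hv, hw]
      module
    rw [this]
    exact hmid
  -- data of the directions
  have hdata : ∀ i, ∃ a₀ ∈ Icc (0 : ℝ) 1, ∃ b₀ ∈ Icc (0 : ℝ) 1, ∃ c : ℝ,
      (p₁ + a₀ • (p₂ - p₁)) - (q₁ + b₀ • (q₂ - q₁)) = c • u i := by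
    intro i
    obtain ⟨x, hx, y, hy, c, hc⟩ := hdir i
    rw [segment_eq_image'] at hx hy
    obtain ⟨a₀, ha₀, rfl⟩ := hx
    obtain ⟨b₀, hb₀, rfl⟩ := hy
    exact ⟨a₀, ha₀, b₀, hb₀, c, hc⟩
  have hli : ∀ i, LinearIndependent ℝ ![v, w, u i] := by
    intro i
    obtain ⟨a₀, -, b₀, -, c, hc⟩ := hdata i
    have hc0 : c ≠ 0 := by
      rintro rfl
      have h0 : a₀ • (p₂ - p₁) + (-b₀) • (q₂ - q₁) + (-1 : ℝ) • (q₁ - p₁) = 0 := by
        have : a₀ • (p₂ - p₁) + (-b₀) • (q₂ - q₁) + (-1 : ℝ) • (q₁ - p₁) =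
            (p₁ + a₀ • (p₂ - p₁)) - (q₁ + b₀ • (q₂ - q₁)) := by module
        rw [this, hc, zero_smul]
      have := (edge_indep p₁ p₂ q₁ q₂ hT _ _ _ h0).2.2
      norm_num at this
    rw [Fintype.linearIndependent_iff]
    intro g hg
    rw [Fin.sum_univ_three] at hg
    change g 0 • v + g 1 • w + g 2 • u i = 0 at hg
    have hcg : c • (g 0 • v + g 1 • w) + g 2 • (c • u i) = 0 := by
      have : c • (g 0 • v + g 1 • w) + g 2 • (c • u i) =
          c • (g 0 • v + g 1 • w + g 2 • u i) := by module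
      rw [this, hg, smul_zero]
    rw [← hc, hv, hw] at hcg
    have h0 : (c * g 0 / 2 + g 2 * a₀) • (p₂ - p₁) + (c * g 1 / 2 - g 2 * b₀) • (q₂ - q₁) +
        (-g 2) • (q₁ - p₁) = 0 := by
      rw [← hcg]
      module
    obtain ⟨e1, e2, e3⟩ := edge_indep p₁ p₂ q₁ q₂ hT _ _ _ h0
    have g2 : g 2 = 0 := by linarith
    have g0 : g 0 = 0 := by
      rw [g2] at e1
      have : c * g 0 = 0 := by linarith
      exact (mul_eq_zero.1 this).resolve_left hc0
    have g1 : g 1 = 0 := by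
      rw [g2] at e2
      have : c * g 1 = 0 := by linarith
      exact (mul_eq_zero.1 this).resolve_left hc0
    intro j
    fin_cases j
    · exact g0
    · exact g1
    · exact g2
  have hsh : ∀ i, μHE[2] (shadow (u i) K) ≤ 2 * μHE[2] (shadow (u i) (chart o v w '' D)) := by
    intro i
    obtain ⟨a₀, ha₀, b₀, hb₀, c, hc⟩ := hdata i
    refine shadow_le_of_chart K (u i) (hu i) o v w D o v w (hli i) D (crossRegion a₀ b₀)
      ?_ (fun g hg => ⟨g, hg, 0, by simp⟩) ?_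
    · intro x hx
      rw [hK, ← convexJoin_segments, mem_convexJoin] at hx
      obtain ⟨X, hX, Y, hY, hxXY⟩ := hx
      rw [segment_eq_image'] at hX hY hxXY
      obtain ⟨a, ha, rfl⟩ := hX
      obtain ⟨b, hb, rfl⟩ := hY
      obtain ⟨l, hl, rfl⟩ := hxXY
      refine ⟨(a₀ + 2 * (1 - l) * (a - a₀), b₀ + 2 * l * (b - b₀)),
        ⟨l, hl, a, ha, b, hb, rfl⟩, (1 / 2 - l) * c, ?_⟩
      rw [mul_smul, ← hc]
      simp only [chart]
      rw [ho, hv, hw]
      module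
    · rw [hvolD, mul_one]
      exact volume_crossRegion_le a₀ b₀ ha₀ hb₀
  have := plane_section m K u hu B hB hcov o v w D (by rw [hvolD]; exact one_ne_zero)
    (by rw [hvolD]; exact ENNReal.one_ne_top) hDK hli hsh
  exact this

end Vale.Agent.H5.P243
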