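import Vale.Agent.H5.P243.Section
import Vale.Agent.H5.P243.PlanarB
import Vale.Agent.H5.P243.Hull
import Vale.Agent.H5.P243.TetraD

/-!
# Three cylinders for a tetrahedron: two axes along opposite edges, the third arbitrary
(P243, track T)

`tetra_three_cylinders`: let `T` be the tetrahedron with vertices `p₁, p₂, q₁, q₂`, covered by
three cylinders with linearly independent axes `u 0 ∥ p₂ - p₁`, `u 1 ∥ q₂ - q₁` and `u 2`
arbitrary.  Then the relative base areas sum to at least `1/2`.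

The planar piece is the triangle cut from `T` by the plane through a side edge `p q` and the
midpoint of the opposite side edge; which of the four side edges is used depends on `u 2`
(`tetra_three_core` treats the edge `p₁ q₂`, the other cases follow by renaming the vertices).
-/

open MeasureTheory Set Module
open scoped ENNReal

namespace Vale.Agent.H5.P243

theorem two_mul_half_ennreal : (2 : ℝ≥0∞) * (1 / 2) = 1 := by
  rw [one_div]
  exact ENNReal.mul_inv_cancel two_ne_zero ENNReal.ofNat_ne_top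

/-- The case in which the side edge `p₁ q₂` is the good one. -/
theorem tetra_three_core (p₁ p₂ q₁ q₂ : E3) (u : Fin 3 → E3) (hu : ∀ i, ‖u i‖ = 1)
    (c₀ c₁ : ℝ) (h0 : p₂ - p₁ = c₀ • u 0) (h1 : q₂ - q₁ = c₁ • u 1)
    (hind : ∀ a b d : ℝ, a • (p₂ - p₁) + b • (q₂ - q₁) + d • u 2 = 0 → a = 0 ∧ b = 0 ∧ d = 0)
    (α β γ : ℝ) (hdec : q₁ - p₁ = α • (p₂ - p₁) + β • (q₂ - q₁) + γ • u 2)
    (hγ : γ ≠ 0) (hα : 1 / 2 ≤ α) (hβ : -1 / 2 ≤ β)
    (B : Fin 3 → Set E3) (hB : ∀ i, ∀ x ∈ B i, inner ℝ x (u i) = 0)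
    (hcov : convexHull ℝ {p₁, p₂, q₁, q₂} ⊆ ⋃ i, {x | ∃ b ∈ B i, ∃ t : ℝ, x = b + t • u i}) :
    (1 / 2 : ℝ≥0∞) ≤
      ∑ i, μHE[2] (B i) / μHE[2] (shadow (u i) (convexHull ℝ {p₁, p₂, q₁, q₂})) := by
  set K : Set E3 := convexHull ℝ {p₁, p₂, q₁, q₂} with hK
  have hc₀ : c₀ ≠ 0 := by
    rintro rfl
    rw [zero_smul] at h0
    have := (hind 1 0 0 (by rw [h0]; simp)).1
    norm_num at this
  have hc₁ : c₁ ≠ 0 := by
    rintro rfl
    rw [zero_smul] at h1
    have := (hind 0 1 0 (by rw [h1]; simp)).2.1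
    norm_num at this
  obtain ⟨v, hv⟩ : ∃ v : E3, v = q₂ - p₁ := ⟨_, rfl⟩
  obtain ⟨w, hw⟩ : ∃ w : E3, w = (1 / 2 : ℝ) • (p₂ + q₁) - p₁ := ⟨_, rfl⟩
  have hDK : ∀ g ∈ stdTri, chart p₁ v w g ∈ K := by
    rintro ⟨s, t⟩ ⟨hs, ht, hst⟩
    simp only at hs ht hst
    have := hull4_mem_weights p₁ p₂ q₁ q₂ (1 - s - t) (t / 2) (t / 2) s (by linarith)
      (by linarith) (by linarith) hs (by ring)
    convert this using 1
    simp only [chart]
    rw [hv, hw]
    module
  -- independence of the three edge vectors at `p₁`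
  have hindR : ∀ a b d : ℝ, a • (p₂ - p₁) + b • (q₂ - q₁) + d • (q₁ - p₁) = 0 →
      a = 0 ∧ b = 0 ∧ d = 0 := by
    intro a b d h
    have h' : (a + d * α) • (p₂ - p₁) + (b + d * β) • (q₂ - q₁) + (d * γ) • u 2 = 0 := by
      linear_combination (norm := module) h - d • hdec
    obtain ⟨e1, e2, e3⟩ := hind _ _ _ h'
    have hd : d = 0 := (mul_eq_zero.1 e3).resolve_right hγ
    rw [hd] at e1 e2
    exact ⟨by linarith, by linarith, hd⟩
  have hsum : 1 ≤ 1 + α + β := by linarith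
  have hli : ∀ i, LinearIndependent ℝ ![v, w, u i] := by
    intro i
    rw [Fintype.linearIndependent_iff]
    intro g hg
    rw [Fin.sum_univ_three] at hg
    change g 0 • v + g 1 • w + g 2 • u i = 0 at hg
    rw [hv, hw] at hg
    have key : g 0 = 0 ∧ g 1 = 0 ∧ g 2 = 0 := by
      fin_cases i
      · change g 0 • (q₂ - p₁) + g 1 • ((1 / 2 : ℝ) • (p₂ + q₁) - p₁) + g 2 • u 0 = 0 at hg
        have h' : (c₀ * g 1 / 2 + g 2) • (p₂ - p₁) + (c₀ * g 0) • (q₂ - q₁) +
            (c₀ * g 0 + c₀ * g 1 / 2) • (q₁ - p₁) = 0 := by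
          linear_combination (norm := module) c₀ • hg + g 2 • h0
        obtain ⟨e1, e2, e3⟩ := hindR _ _ _ h'
        have g0 : g 0 = 0 := (mul_eq_zero.1 e2).resolve_left hc₀
        rw [g0] at e3
        have g1 : g 1 = 0 := by
          have : c₀ * g 1 = 0 := by linarith
          exact (mul_eq_zero.1 this).resolve_left hc₀
        rw [g1] at e1
        exact ⟨g0, g1, by linarith⟩
      · change g 0 • (q₂ - p₁) + g 1 • ((1 / 2 : ℝ) • (p₂ + q₁) - p₁) + g 2 • u 1 = 0 at hg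
        have h' : (c₁ * g 1 / 2) • (p₂ - p₁) + (c₁ * g 0 + g 2) • (q₂ - q₁) +
            (c₁ * g 0 + c₁ * g 1 / 2) • (q₁ - p₁) = 0 := by
          linear_combination (norm := module) c₁ • hg + g 2 • h1
        obtain ⟨e1, e2, e3⟩ := hindR _ _ _ h'
        have g1 : g 1 = 0 := by
          have : c₁ * g 1 = 0 := by linarith
          exact (mul_eq_zero.1 this).resolve_left hc₁
        rw [g1] at e3
        have g0 : g 0 = 0 := by
          have : c₁ * g 0 = 0 := by linarith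
          exact (mul_eq_zero.1 this).resolve_left hc₁
        rw [g0] at e2
        exact ⟨g0, g1, by linarith⟩
      · change g 0 • (q₂ - p₁) + g 1 • ((1 / 2 : ℝ) • (p₂ + q₁) - p₁) + g 2 • u 2 = 0 at hg
        have h' : (g 0 * α + g 1 * (1 + α) / 2) • (p₂ - p₁) +
            (g 0 * (β + 1) + g 1 * β / 2) • (q₂ - q₁) +
            (g 0 * γ + g 1 * γ / 2 + g 2) • u 2 = 0 := by
          linear_combination (norm := module) hg - (g 0 + g 1 / 2) • hdec
        obtain ⟨e1, e2, e3⟩ := hind _ _ _ h'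
        have g0' : g 0 * (1 + α + β) = 0 := by linear_combination (1 + α) * e2 - β * e1
        have g0 : g 0 = 0 := (mul_eq_zero.1 g0').resolve_right (by linarith)
        rw [g0] at e1 e3
        have g1 : g 1 = 0 := by
          have : g 1 * (1 + α) = 0 := by linarith
          exact (mul_eq_zero.1 this).resolve_right (by linarith)
        rw [g1] at e3
        exact ⟨g0, g1, by linarith⟩
    obtain ⟨g0, g1, g2⟩ := key
    intro j
    fin_cases j
    · exact g0
    · exact g1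
    · exact g2
  have hli2 : LinearIndependent ℝ ![p₂ - p₁, q₂ - q₁, u 2] := by
    rw [Fintype.linearIndependent_iff]
    intro g hg
    rw [Fin.sum_univ_three] at hg
    change g 0 • (p₂ - p₁) + g 1 • (q₂ - q₁) + g 2 • u 2 = 0 at hg
    obtain ⟨g0, g1, g2⟩ := hind _ _ _ hg
    intro j
    fin_cases j
    · exact g0
    · exact g1
    · exact g2
  have hsh : ∀ i, μHE[2] (shadow (u i) K) ≤ 2 * μHE[2] (shadow (u i) (chart p₁ v w '' stdTri)) := by
    intro i
    fin_cases i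
    · -- the axis along `p₂ - p₁`
      refine shadow_le_of_chart K (u 0) (hu 0) p₁ v w stdTri p₁ v w (hli 0) stdTri
        (tri (0, 0) (1, 0) (0, 2)) ?_ (fun g hg => ⟨g, hg, 0, by simp⟩) ?_
      · intro x hx
        obtain ⟨l, hl, a, ha, b, hb, rfl⟩ := hull4_param p₁ p₂ q₁ q₂ x hx
        obtain ⟨hl0, hl1⟩ := hl
        obtain ⟨ha0, ha1⟩ := ha
        obtain ⟨hb0, hb1⟩ := hb
        refine ⟨(l * b, 2 * (l * (1 - b))), ⟨(l * b, l * (1 - b)),
          ⟨mul_nonneg hl0 hb0, mul_nonneg hl0 (by linarith), ?_⟩, ?_⟩,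
          ((1 - l) * a - l * (1 - b)) * c₀, ?_⟩
        · show l * b + l * (1 - b) ≤ 1
          nlinarith
        · ext <;> simp <;> ring
        · rw [mul_smul, ← h0]
          simp only [chart]
          rw [hv, hw]
          module
      · rw [volume_tri, volume_stdTri, two_mul_half_ennreal]
        norm_num
    · -- the axis along `q₂ - q₁`
      refine shadow_le_of_chart K (u 1) (hu 1) p₁ v w stdTri p₁ v w (hli 1) stdTri
        (tri (0, 0) (1, 0) (-1, 2)) ?_ (fun g hg => ⟨g, hg, 0, by simp⟩) ?_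
      · intro x hx
        obtain ⟨l, hl, a, ha, b, hb, rfl⟩ := hull4_param p₁ p₂ q₁ q₂ x hx
        obtain ⟨hl0, hl1⟩ := hl
        obtain ⟨ha0, ha1⟩ := ha
        obtain ⟨hb0, hb1⟩ := hb
        refine ⟨(l - (1 - l) * a, 2 * ((1 - l) * a)), ⟨(l, (1 - l) * a),
          ⟨hl0, mul_nonneg (by linarith) ha0, ?_⟩, ?_⟩,
          (l * b - l + (1 - l) * a) * c₁, ?_⟩
        · show l + (1 - l) * a ≤ 1
          nlinarith
        · ext <;> simp <;> ring
        · rw [mul_smul, ← h1]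
          simp only [chart]
          rw [hv, hw]
          module
      · rw [volume_tri, volume_stdTri, two_mul_half_ennreal]
        norm_num
    · -- the third axis
      refine shadow_le_of_chart K (u 2) (hu 2) p₁ v w stdTri p₁ (p₂ - p₁) (q₂ - q₁) hli2
        (tri (0, 0) (α, β + 1) ((1 + α) / 2, β / 2))
        (convexHull ℝ {((0 : ℝ), (0 : ℝ)), ((1 : ℝ), (0 : ℝ)), (α, β), (α, β + 1)}) ?_ ?_ ?_
      · intro x hx
        obtain ⟨l, hl, a, ha, b, hb, rfl⟩ := hull4_param p₁ p₂ q₁ q₂ x hx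
        refine ⟨((1 - l) * a + l * α, l * (β + b)), ?_, l * γ, ?_⟩
        · have := hull4_mem ((0 : ℝ), (0 : ℝ)) ((1 : ℝ), (0 : ℝ)) (α, β) (α, β + 1) l a b hl ha hb
          convert this using 1
          ext <;> simp <;> ring
        · simp only [chart]
          linear_combination (norm := module) l • hdec
      · rintro _ ⟨⟨x, y⟩, hxy, rfl⟩
        refine ⟨(x, y), hxy, -(x * γ + y * γ / 2), ?_⟩
        simp only [chart, Prod.mk_zero_zero, sub_zero, zero_add, Prod.fst_add, Prod.snd_add,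
          Prod.smul_fst, Prod.smul_snd, smul_eq_mul]
        rw [hv, hw]
        linear_combination (norm := module) (-(x + y / 2)) • hdec
      · calc volume (convexHull ℝ {((0 : ℝ), (0 : ℝ)), ((1 : ℝ), (0 : ℝ)), (α, β), (α, β + 1)})
            ≤ ENNReal.ofReal ((1 + α + β) / 2) := volume_hull4_le α β hα hβ
          _ = 2 * volume (tri (0, 0) (α, β + 1) ((1 + α) / 2, β / 2)) := by
            rw [volume_tri]
            have habs : |(α - 0) * (β / 2 - 0) - (β + 1 - 0) * ((1 + α) / 2 - 0)| =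
                (1 + α + β) / 2 := by
              rw [show (α - 0) * (β / 2 - 0) - (β + 1 - 0) * ((1 + α) / 2 - 0) =
                -((1 + α + β) / 2) by ring, abs_neg, abs_of_nonneg (by linarith)]
            rw [habs, ← ENNReal.ofReal_ofNat 2, ← ENNReal.ofReal_mul (by norm_num)]
            congr 1
            ring
  exact plane_section 3 K u hu B hB hcov p₁ v w stdTri
    (by rw [volume_stdTri]; norm_num) (by rw [volume_stdTri]; norm_num) hDK hli hsh

/-- **Three cylinders, two of them along opposite edges of the tetrahedron.** -/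
theorem tetra_three_cylinders (p₁ p₂ q₁ q₂ : EuclideanSpace ℝ (Fin 3))
    (hT : AffineIndependent ℝ ![p₁, p₂, q₁, q₂])
    (u : Fin 3 → EuclideanSpace ℝ (Fin 3)) (hu : ∀ i, ‖u i‖ = 1)
    (hu0 : ∃ c : ℝ, p₂ - p₁ = c • u 0) (hu1 : ∃ c : ℝ, q₂ - q₁ = c • u 1)
    (hli : LinearIndependent ℝ u)
    (B : Fin 3 → Set (EuclideanSpace ℝ (Fin 3)))
    (hB : ∀ i, ∀ x ∈ B i, inner ℝ x (u i) = 0)
    (hcov : convexHull ℝ {p₁, p₂, q₁, q₂} ⊆ ⋃ i, {x | ∃ b ∈ B i, ∃ t : ℝ, x = b + t • u i}) :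
    (1 / 2 : ℝ≥0∞) ≤ ∑ i, μHE[2] (B i) /
      μHE[2] ((fun x => x - inner ℝ x (u i) • u i) '' convexHull ℝ {p₁, p₂, q₁, q₂}) := by
  obtain ⟨c₀, h0⟩ := hu0
  obtain ⟨c₁, h1⟩ := hu1
  have hE := edge_indep p₁ p₂ q₁ q₂ hT
  have hc₀ : c₀ ≠ 0 := by
    rintro rfl
    rw [zero_smul] at h0
    have := (hE 1 0 0 (by rw [h0]; simp)).1
    norm_num at this
  have hc₁ : c₁ ≠ 0 := by
    rintro rfl
    rw [zero_smul] at h1
    have := (hE 0 1 0 (by rw [h1]; simp)).2.1
    norm_num at this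
  have hu3 : ∀ a b d : ℝ, a • u 0 + b • u 1 + d • u 2 = 0 → a = 0 ∧ b = 0 ∧ d = 0 := by
    intro a b d h
    have := Fintype.linearIndependent_iff.1 hli ![a, b, d] (by
      rw [Fin.sum_univ_three]
      exact h)
    exact ⟨this 0, this 1, this 2⟩
  have hind : ∀ a b d : ℝ, a • (p₂ - p₁) + b • (q₂ - q₁) + d • u 2 = 0 →
      a = 0 ∧ b = 0 ∧ d = 0 := by
    intro a b d h
    rw [h0, h1, smul_smul, smul_smul] at h
    obtain ⟨e1, e2, e3⟩ := hu3 _ _ _ h
    exact ⟨(mul_eq_zero.1 e1).resolve_right hc₀, (mul_eq_zero.1 e2).resolve_right hc₁, e3⟩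
  obtain ⟨α, β, γ, hdec⟩ : ∃ α β γ : ℝ,
      q₁ - p₁ = α • (p₂ - p₁) + β • (q₂ - q₁) + γ • u 2 := by
    have hb : ⇑(basisOfLinearIndependentOfCardEqFinrank hli (by simp)) = u :=
      coe_basisOfLinearIndependentOfCardEqFinrank hli _
    have hrep := (basisOfLinearIndependentOfCardEqFinrank hli (by simp)).sum_repr (q₁ - p₁)
    rw [Fin.sum_univ_three, hb] at hrep
    refine ⟨(basisOfLinearIndependentOfCardEqFinrank hli (by simp)).repr (q₁ - p₁) 0 / c₀,
      (basisOfLinearIndependentOfCardEqFinrank hli (by simp)).repr (q₁ - p₁) 1 / c₁,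
      (basisOfLinearIndependentOfCardEqFinrank hli (by simp)).repr (q₁ - p₁) 2, ?_⟩
    rw [h0, h1, smul_smul, smul_smul, div_mul_cancel₀ _ hc₀, div_mul_cancel₀ _ hc₁]
    exact hrep.symm
  have hγ : γ ≠ 0 := by
    rintro rfl
    have h : α • (p₂ - p₁) + β • (q₂ - q₁) + (-1 : ℝ) • (q₁ - p₁) = 0 := by
      linear_combination (norm := module) (-1 : ℝ) • hdec
    have := (hE _ _ _ h).2.2
    norm_num at this
  have h0' : p₁ - p₂ = (-c₀) • u 0 := by
    rw [neg_smul, ← h0]
    abel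
  have h1' : q₁ - q₂ = (-c₁) • u 1 := by
    rw [neg_smul, ← h1]
    abel
  rcases le_total (1 / 2) α with hα | hα <;> rcases le_total (-1 / 2) β with hβ | hβ
  · exact tetra_three_core p₁ p₂ q₁ q₂ u hu c₀ c₁ h0 h1 hind α β γ hdec hγ hα hβ B hB hcov
  · have hind' : ∀ a b d : ℝ, a • (p₂ - p₁) + b • (q₁ - q₂) + d • u 2 = 0 →
        a = 0 ∧ b = 0 ∧ d = 0 := by
      intro a b d h
      have h' : a • (p₂ - p₁) + (-b) • (q₂ - q₁) + d • u 2 = 0 := by
        rw [← h]
        module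
      obtain ⟨e1, e2, e3⟩ := hind _ _ _ h'
      exact ⟨e1, by linarith, e3⟩
    have hdec' : q₂ - p₁ = α • (p₂ - p₁) + (-β - 1) • (q₁ - q₂) + γ • u 2 := by
      linear_combination (norm := module) hdec
    have hset : ({p₁, p₂, q₂, q₁} : Set E3) = {p₁, p₂, q₁, q₂} := by
      rw [Set.pair_comm q₂ q₁]
    have := tetra_three_core p₁ p₂ q₂ q₁ u hu c₀ (-c₁) h0 h1' hind' α (-β - 1) γ hdec' hγ hα
      (by linarith) B hB (by rw [hset]; exact hcov)
    rw [hset] at this
    exact this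
  · have hind' : ∀ a b d : ℝ, a • (p₁ - p₂) + b • (q₂ - q₁) + d • u 2 = 0 →
        a = 0 ∧ b = 0 ∧ d = 0 := by
      intro a b d h
      have h' : (-a) • (p₂ - p₁) + b • (q₂ - q₁) + d • u 2 = 0 := by
        rw [← h]
        module
      obtain ⟨e1, e2, e3⟩ := hind _ _ _ h'
      exact ⟨by linarith, e2, e3⟩
    have hdec' : q₁ - p₂ = (1 - α) • (p₁ - p₂) + β • (q₂ - q₁) + γ • u 2 := by
      linear_combination (norm := module) hdec
    have hset : ({p₂, p₁, q₁, q₂} : Set E3) = {p₁, p₂, q₁, q₂} := Set.insert_comm p₂ p₁ _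
    have := tetra_three_core p₂ p₁ q₁ q₂ u hu (-c₀) c₁ h0' h1 hind' (1 - α) β γ hdec' hγ
      (by linarith) hβ B hB (by rw [hset]; exact hcov)
    rw [hset] at this
    exact this
  · have hind' : ∀ a b d : ℝ, a • (p₁ - p₂) + b • (q₁ - q₂) + d • u 2 = 0 →
        a = 0 ∧ b = 0 ∧ d = 0 := by
      intro a b d h
      have h' : (-a) • (p₂ - p₁) + (-b) • (q₂ - q₁) + d • u 2 = 0 := by
        rw [← h]
        module
      obtain ⟨e1, e2, e3⟩ := hind _ _ _ h'
      exact ⟨by linarith, by linarith, e3⟩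
    have hdec' : q₂ - p₂ = (1 - α) • (p₁ - p₂) + (-β - 1) • (q₁ - q₂) + γ • u 2 := by
      linear_combination (norm := module) hdec
    have hset : ({p₂, p₁, q₂, q₁} : Set E3) = {p₁, p₂, q₁, q₂} := by
      rw [Set.insert_comm p₂ p₁, Set.pair_comm q₂ q₁]
    have := tetra_three_core p₂ p₁ q₂ q₁ u hu (-c₀) (-c₁) h0' h1' hind' (1 - α) (-β - 1) γ
      hdec' hγ (by linarith) (by linarith) B hB (by rw [hset]; exact hcov)
    rw [hset] at this
    exact this

end Vale.Agent.H5.P243
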