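import Vale.Agent.H5.P243.Section
import Vale.Agent.H5.P243.PlanarG
import Vale.Agent.H5.P243.Hull
import Vale.Agent.H5.P243.TetraD

/-!
# Cylinders whose axes point from an edge of a tetrahedron to the two opposite vertices
(P243, track T)

`tetra_wedge_cylinders`: let `T` be the tetrahedron with vertices `v₁, v₂, v₃, v₄`, covered by
finitely many cylinders each of whose axes is parallel to `α (v₃ - x) + β (y - v₄)` for some
`α, β ≥ 0`, not both zero, and points `x, y` of the edge `v₁v₂`.  Then the relative base areas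
sum to at least `1/2`.  The planar piece is the triangle `v₁ v₂ (v₃+v₄)/2`.

The admissible axes include every segment joining `v₃` to a point of the face `v₁v₂v₄`, every
segment joining `v₄` to a point of the face `v₁v₂v₃`, and the five edges other than `v₁v₂`.
-/

open MeasureTheory Set Module
open scoped ENNReal

namespace Vale.Agent.H5.P243

theorem tetra_wedge_cylinders (m : ℕ) (v₁ v₂ v₃ v₄ : EuclideanSpace ℝ (Fin 3))
    (hT : AffineIndependent ℝ ![v₁, v₂, v₃, v₄])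
    (u : Fin m → EuclideanSpace ℝ (Fin 3)) (hu : ∀ i, ‖u i‖ = 1)
    (hdir : ∀ i, ∃ x ∈ segment ℝ v₁ v₂, ∃ y ∈ segment ℝ v₁ v₂, ∃ α β c : ℝ,
      0 ≤ α ∧ 0 ≤ β ∧ 0 < α + β ∧ c • u i = α • (v₃ - x) + β • (y - v₄))
    (B : Fin m → Set (EuclideanSpace ℝ (Fin 3)))
    (hB : ∀ i, ∀ x ∈ B i, inner ℝ x (u i) = 0)
    (hcov : convexHull ℝ {v₁, v₂, v₃, v₄} ⊆ ⋃ i, {x | ∃ b ∈ B i, ∃ t : ℝ, x = b + t • u i}) :
    (1 / 2 : ℝ≥0∞) ≤ ∑ i, μHE[2] (B i) /
      μHE[2] ((fun x => x - inner ℝ x (u i) • u i) '' convexHull ℝ {v₁, v₂, v₃, v₄}) := by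
  set K : Set E3 := convexHull ℝ {v₁, v₂, v₃, v₄} with hK
  -- independence of the edge vectors at `v₁`
  have hE : ∀ a b d : ℝ, a • (v₂ - v₁) + b • (v₃ - v₁) + d • (v₄ - v₁) = 0 →
      a = 0 ∧ b = 0 ∧ d = 0 := by
    intro a b d h
    have h' : a • (v₂ - v₁) + d • (v₄ - v₃) + (b + d) • (v₃ - v₁) = 0 := by
      rw [← h]
      module
    obtain ⟨e1, e2, e3⟩ := edge_indep v₁ v₂ v₃ v₄ hT _ _ _ h'
    exact ⟨e1, by linarith, e2⟩
  obtain ⟨w, hw⟩ : ∃ w : E3, w = (1 / 2 : ℝ) • (v₃ + v₄) - v₁ := ⟨_, rfl⟩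
  have hDK : ∀ g ∈ stdTri, chart v₁ (v₂ - v₁) w g ∈ K := by
    rintro ⟨s, t⟩ ⟨hs, ht, hst⟩
    simp only at hs ht hst
    have := hull4_mem_weights v₁ v₂ v₃ v₄ (1 - s - t) s (t / 2) (t / 2) (by linarith) hs
      (by linarith) (by linarith) (by ring)
    convert this using 1
    simp only [chart]
    rw [hw]
    module
  -- normalised data of the directions
  have hdata : ∀ i, ∃ τ ∈ Icc (0 : ℝ) 1, ∃ ξ ∈ Icc (0 : ℝ) 1, ∃ η ∈ Icc (0 : ℝ) 1, ∃ c : ℝ,
      c • u i = (1 - τ) • (v₃ - v₁) + (-τ) • (v₄ - v₁) +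
        (-((1 - τ) * ξ - τ * η)) • (v₂ - v₁) := by
    intro i
    obtain ⟨x, hx, y, hy, α, β, c, hα, hβ, hs, hrel⟩ := hdir i
    rw [segment_eq_image'] at hx hy
    obtain ⟨ξ, hξ, rfl⟩ := hx
    obtain ⟨η, hη, rfl⟩ := hy
    have hs0 : α + β ≠ 0 := hs.ne'
    refine ⟨β / (α + β), ⟨by positivity, by rw [div_le_one hs]; linarith⟩, ξ, hξ, η, hη,
      c / (α + β), ?_⟩
    have h1 : 1 - β / (α + β) = α / (α + β) := by
      field_simp
      ring
    have h2 : (c / (α + β)) • u i = (1 / (α + β)) • (c • u i) := by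
      rw [smul_smul]
      congr 1
      ring
    rw [h2, hrel, h1]
    module
  have hli : ∀ i, LinearIndependent ℝ ![v₂ - v₁, w, u i] := by
    intro i
    obtain ⟨τ, hτ, ξ, hξ, η, hη, c, hrel⟩ := hdata i
    have hc0 : c ≠ 0 := by
      rintro rfl
      rw [zero_smul] at hrel
      have h0 : (-((1 - τ) * ξ - τ * η)) • (v₂ - v₁) + (1 - τ) • (v₃ - v₁) +
          (-τ) • (v₄ - v₁) = 0 := by
        rw [hrel]
        module
      obtain ⟨-, e2, e3⟩ := hE _ _ _ h0
      linarith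
    rw [Fintype.linearIndependent_iff]
    intro g hg
    rw [Fin.sum_univ_three] at hg
    change g 0 • (v₂ - v₁) + g 1 • w + g 2 • u i = 0 at hg
    rw [hw] at hg
    have h0 : (c * g 0 - g 2 * ((1 - τ) * ξ - τ * η)) • (v₂ - v₁) +
        (c * g 1 / 2 + g 2 * (1 - τ)) • (v₃ - v₁) + (c * g 1 / 2 - g 2 * τ) • (v₄ - v₁) = 0 := by
      linear_combination (norm := module) c • hg - g 2 • hrel
    obtain ⟨e1, e2, e3⟩ := hE _ _ _ h0
    have g2 : g 2 = 0 := by linarith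
    rw [g2] at e1 e2
    have g1 : g 1 = 0 := by
      have : c * g 1 = 0 := by linarith
      exact (mul_eq_zero.1 this).resolve_left hc0
    have g0 : g 0 = 0 := by
      have : c * g 0 = 0 := by linarith
      exact (mul_eq_zero.1 this).resolve_left hc0
    intro j
    fin_cases j
    · exact g0
    · exact g1
    · exact g2
  have hsh : ∀ i, μHE[2] (shadow (u i) K) ≤
      2 * μHE[2] (shadow (u i) (chart v₁ (v₂ - v₁) w '' stdTri)) := by
    intro i
    obtain ⟨τ, hτ, ξ, hξ, η, hη, c, hrel⟩ := hdata i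
    refine shadow_le_of_chart K (u i) (hu i) v₁ (v₂ - v₁) w stdTri v₁ (v₂ - v₁) w (hli i) stdTri
      (convexHull ℝ {((0 : ℝ), (0 : ℝ)), ((1 : ℝ), (0 : ℝ)),
        ((1 - τ) * ξ - τ * η, 2 * τ), (-((1 - τ) * ξ - τ * η), 2 - 2 * τ)})
      ?_ (fun g hg => ⟨g, hg, 0, by simp⟩) ?_
    · intro x hx
      obtain ⟨l, hl, a, ha, b, hb, rfl⟩ := hull4_param v₁ v₂ v₃ v₄ x hx
      refine ⟨((1 - l) * a + l * ((1 - τ) * ξ - τ * η) * (1 - 2 * b),
        l * (2 * τ + b * (2 - 4 * τ))), ?_, l * (1 - 2 * b) * c, ?_⟩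
      · have := hull4_mem ((0 : ℝ), (0 : ℝ)) ((1 : ℝ), (0 : ℝ))
          ((1 - τ) * ξ - τ * η, 2 * τ) (-((1 - τ) * ξ - τ * η), 2 - 2 * τ) l a b hl ha hb
        convert this using 1
        refine Prod.ext ?_ ?_
        · simp only [Prod.fst_add, Prod.smul_fst, Prod.fst_sub, smul_eq_mul]
          ring
        · simp only [Prod.snd_add, Prod.smul_snd, Prod.snd_sub, smul_eq_mul]
          ring
      · simp only [chart]
        rw [hw]
        linear_combination (norm := module) (-(l * (1 - 2 * b))) • hrel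
    · rw [volume_stdTri, show (2 : ℝ≥0∞) * (1 / 2) = 1 from by
        rw [one_div]
        exact ENNReal.mul_inv_cancel two_ne_zero ENNReal.ofNat_ne_top]
      exact volume_hullG_le τ ξ η hτ hξ hη
  exact plane_section m K u hu B hB hcov v₁ (v₂ - v₁) w stdTri
    (by rw [volume_stdTri]; norm_num) (by rw [volume_stdTri]; norm_num) hDK hli hsh

end Vale.Agent.H5.P243
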