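import Vale.Agent.H5.P243.UDefs

/-!
# Track U (P243), row U7: the chamfered tetrahedron is compact, convex and inside the tetrahedron

LEAN ROW U7 (`chamfer_isCompact`, `chamfer_convex`, `chamfer_subset`).  Sketch: `chamfer` is the
image of `W := {q : ℝ × ℝ × ℝ × ℝ | sixteen closed linear conditions}` under the continuous
linear map `q ↦ q.1 • v₁ + q.2.1 • v₂ + q.2.2.1 • v₃ + q.2.2.2 • v₄`.  `W` is closed (finite
intersection of closed half-spaces and a hyperplane) and bounded (all coordinates in `[0, 1]`),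
hence compact; the image is compact.  Convexity: directly from the definition (convex
combinations of the weights; all conditions are linear) or as a linear image of the convex set
`W`.  Subset: `hull4_iff`.
-/

open Set

namespace Vale.Agent.H5.P243

/-- The closed bounded convex set of weights of the chamfer. -/
theorem uchamfertop_weights_compact (ε : ℝ) :
    IsCompact {q : ℝ × ℝ × ℝ × ℝ | 0 ≤ q.1 ∧ 0 ≤ q.2.1 ∧ 0 ≤ q.2.2.1 ∧ 0 ≤ q.2.2.2 ∧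
      q.1 + q.2.1 + q.2.2.1 + q.2.2.2 = 1 ∧
      ε ≤ q.1 + q.2.1 ∧ ε ≤ q.1 + q.2.2.1 ∧ ε ≤ q.1 + q.2.2.2 ∧ ε ≤ q.2.1 + q.2.2.1 ∧
      ε ≤ q.2.1 + q.2.2.2 ∧ ε ≤ q.2.2.1 + q.2.2.2 ∧
      q.1 ≤ 1 - 2 * ε ∧ q.2.1 ≤ 1 - 2 * ε ∧ q.2.2.1 ≤ 1 - 2 * ε ∧ q.2.2.2 ≤ 1 - 2 * ε} := by
  have hK : IsCompact ((Icc (0 : ℝ) 1) ×ˢ ((Icc (0 : ℝ) 1) ×ˢ ((Icc (0 : ℝ) 1) ×ˢ
      (Icc (0 : ℝ) 1)))) :=
    isCompact_Icc.prod (isCompact_Icc.prod (isCompact_Icc.prod isCompact_Icc))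
  refine hK.of_isClosed_subset ?_ ?_
  · have h1 : IsClosed {q : ℝ × ℝ × ℝ × ℝ | 0 ≤ q.1} :=
      isClosed_le continuous_const (by fun_prop)
    have h2 : IsClosed {q : ℝ × ℝ × ℝ × ℝ | 0 ≤ q.2.1} :=
      isClosed_le continuous_const (by fun_prop)
    have h3 : IsClosed {q : ℝ × ℝ × ℝ × ℝ | 0 ≤ q.2.2.1} :=
      isClosed_le continuous_const (by fun_prop)
    have h4 : IsClosed {q : ℝ × ℝ × ℝ × ℝ | 0 ≤ q.2.2.2} :=
      isClosed_le continuous_const (by fun_prop)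
    have h5 : IsClosed {q : ℝ × ℝ × ℝ × ℝ | q.1 + q.2.1 + q.2.2.1 + q.2.2.2 = 1} :=
      isClosed_eq (by fun_prop) continuous_const
    have h6 : IsClosed {q : ℝ × ℝ × ℝ × ℝ | ε ≤ q.1 + q.2.1} :=
      isClosed_le continuous_const (by fun_prop)
    have h7 : IsClosed {q : ℝ × ℝ × ℝ × ℝ | ε ≤ q.1 + q.2.2.1} :=
      isClosed_le continuous_const (by fun_prop)
    have h8 : IsClosed {q : ℝ × ℝ × ℝ × ℝ | ε ≤ q.1 + q.2.2.2} :=
      isClosed_le continuous_const (by fun_prop)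
    have h9 : IsClosed {q : ℝ × ℝ × ℝ × ℝ | ε ≤ q.2.1 + q.2.2.1} :=
      isClosed_le continuous_const (by fun_prop)
    have h10 : IsClosed {q : ℝ × ℝ × ℝ × ℝ | ε ≤ q.2.1 + q.2.2.2} :=
      isClosed_le continuous_const (by fun_prop)
    have h11 : IsClosed {q : ℝ × ℝ × ℝ × ℝ | ε ≤ q.2.2.1 + q.2.2.2} :=
      isClosed_le continuous_const (by fun_prop)
    have h12 : IsClosed {q : ℝ × ℝ × ℝ × ℝ | q.1 ≤ 1 - 2 * ε} :=
      isClosed_le (by fun_prop) continuous_const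
    have h13 : IsClosed {q : ℝ × ℝ × ℝ × ℝ | q.2.1 ≤ 1 - 2 * ε} :=
      isClosed_le (by fun_prop) continuous_const
    have h14 : IsClosed {q : ℝ × ℝ × ℝ × ℝ | q.2.2.1 ≤ 1 - 2 * ε} :=
      isClosed_le (by fun_prop) continuous_const
    have h15 : IsClosed {q : ℝ × ℝ × ℝ × ℝ | q.2.2.2 ≤ 1 - 2 * ε} :=
      isClosed_le (by fun_prop) continuous_const
    exact h1.inter (h2.inter (h3.inter (h4.inter (h5.inter (h6.inter (h7.inter (h8.inter
      (h9.inter (h10.inter (h11.inter (h12.inter (h13.inter (h14.inter h15)))))))))))))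
  · rintro ⟨a, b, c, d⟩ ⟨ha, hb, hc, hd, hs, -⟩
    simp only at ha hb hc hd hs
    refine ⟨⟨ha, by linarith⟩, ⟨hb, by linarith⟩, ⟨hc, by linarith⟩, ⟨hd, by linarith⟩⟩

/-- Convex combinations preserve a lower bound. -/
theorem uchamfertop_lower (s t p p' e : ℝ) (hs : 0 ≤ s) (ht : 0 ≤ t) (hst : s + t = 1)
    (hp : e ≤ p) (hp' : e ≤ p') : e ≤ s * p + t * p' := by
  have h1 := mul_le_mul_of_nonneg_left hp hs
  have h2 := mul_le_mul_of_nonneg_left hp' ht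
  have h3 : s * e + t * e = e := by rw [← add_mul, hst, one_mul]
  linarith

/-- Convex combinations preserve an upper bound. -/
theorem uchamfertop_upper (s t p p' e : ℝ) (hs : 0 ≤ s) (ht : 0 ≤ t) (hst : s + t = 1)
    (hp : p ≤ e) (hp' : p' ≤ e) : s * p + t * p' ≤ e := by
  have h1 := mul_le_mul_of_nonneg_left hp hs
  have h2 := mul_le_mul_of_nonneg_left hp' ht
  have h3 : s * e + t * e = e := by rw [← add_mul, hst, one_mul]
  linarith

theorem chamfer_isCompact (ε : ℝ) (v₁ v₂ v₃ v₄ : E3) : IsCompact (chamfer ε v₁ v₂ v₃ v₄) := by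
  have hW := uchamfertop_weights_compact ε
  have hf : Continuous (fun q : ℝ × ℝ × ℝ × ℝ =>
      q.1 • v₁ + q.2.1 • v₂ + q.2.2.1 • v₃ + q.2.2.2 • v₄) := by fun_prop
  have himg := hW.image hf
  have heq : chamfer ε v₁ v₂ v₃ v₄ = (fun q : ℝ × ℝ × ℝ × ℝ =>
      q.1 • v₁ + q.2.1 • v₂ + q.2.2.1 • v₃ + q.2.2.2 • v₄) ''
      {q : ℝ × ℝ × ℝ × ℝ | 0 ≤ q.1 ∧ 0 ≤ q.2.1 ∧ 0 ≤ q.2.2.1 ∧ 0 ≤ q.2.2.2 ∧
      q.1 + q.2.1 + q.2.2.1 + q.2.2.2 = 1 ∧
      ε ≤ q.1 + q.2.1 ∧ ε ≤ q.1 + q.2.2.1 ∧ ε ≤ q.1 + q.2.2.2 ∧ ε ≤ q.2.1 + q.2.2.1 ∧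
      ε ≤ q.2.1 + q.2.2.2 ∧ ε ≤ q.2.2.1 + q.2.2.2 ∧
      q.1 ≤ 1 - 2 * ε ∧ q.2.1 ≤ 1 - 2 * ε ∧ q.2.2.1 ≤ 1 - 2 * ε ∧ q.2.2.2 ≤ 1 - 2 * ε} := by
    ext x
    constructor
    · rintro ⟨a, b, c, d, h1, h2, h3, h4, h5, h6, h7, h8, h9, h10, h11, h12, h13, h14, h15, rfl⟩
      exact ⟨(a, b, c, d), ⟨h1, h2, h3, h4, h5, h6, h7, h8, h9, h10, h11, h12, h13, h14, h15⟩,
        rfl⟩
    · rintro ⟨⟨a, b, c, d⟩, ⟨h1, h2, h3, h4, h5, h6, h7, h8, h9, h10, h11, h12, h13, h14, h15⟩,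
        rfl⟩
      exact ⟨a, b, c, d, h1, h2, h3, h4, h5, h6, h7, h8, h9, h10, h11, h12, h13, h14, h15, rfl⟩
  rw [heq]
  exact himg

theorem chamfer_convex (ε : ℝ) (v₁ v₂ v₃ v₄ : E3) : Convex ℝ (chamfer ε v₁ v₂ v₃ v₄) := by
  rintro x ⟨a, b, c, d, h1, h2, h3, h4, h5, h6, h7, h8, h9, h10, h11, h12, h13, h14, h15, rfl⟩
    y ⟨a', b', c', d', k1, k2, k3, k4, k5, k6, k7, k8, k9, k10, k11, k12, k13, k14, k15, rfl⟩
    s t hs ht hst
  refine ⟨s * a + t * a', s * b + t * b', s * c + t * c', s * d + t * d', ?_, ?_, ?_, ?_, ?_,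
    ?_, ?_, ?_, ?_, ?_, ?_, ?_, ?_, ?_, ?_, ?_⟩
  · exact add_nonneg (mul_nonneg hs h1) (mul_nonneg ht k1)
  · exact add_nonneg (mul_nonneg hs h2) (mul_nonneg ht k2)
  · exact add_nonneg (mul_nonneg hs h3) (mul_nonneg ht k3)
  · exact add_nonneg (mul_nonneg hs h4) (mul_nonneg ht k4)
  · have e : s * a + t * a' + (s * b + t * b') + (s * c + t * c') + (s * d + t * d')
        = s * (a + b + c + d) + t * (a' + b' + c' + d') := by ring
    rw [e, h5, k5]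
    linarith
  · have e : s * a + t * a' + (s * b + t * b') = s * (a + b) + t * (a' + b') := by ring
    rw [e]
    exact uchamfertop_lower s t _ _ ε hs ht hst h6 k6
  · have e : s * a + t * a' + (s * c + t * c') = s * (a + c) + t * (a' + c') := by ring
    rw [e]
    exact uchamfertop_lower s t _ _ ε hs ht hst h7 k7
  · have e : s * a + t * a' + (s * d + t * d') = s * (a + d) + t * (a' + d') := by ring
    rw [e]
    exact uchamfertop_lower s t _ _ ε hs ht hst h8 k8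
  · have e : s * b + t * b' + (s * c + t * c') = s * (b + c) + t * (b' + c') := by ring
    rw [e]
    exact uchamfertop_lower s t _ _ ε hs ht hst h9 k9
  · have e : s * b + t * b' + (s * d + t * d') = s * (b + d) + t * (b' + d') := by ring
    rw [e]
    exact uchamfertop_lower s t _ _ ε hs ht hst h10 k10
  · have e : s * c + t * c' + (s * d + t * d') = s * (c + d) + t * (c' + d') := by ring
    rw [e]
    exact uchamfertop_lower s t _ _ ε hs ht hst h11 k11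
  · exact uchamfertop_upper s t _ _ _ hs ht hst h12 k12
  · exact uchamfertop_upper s t _ _ _ hs ht hst h13 k13
  · exact uchamfertop_upper s t _ _ _ hs ht hst h14 k14
  · exact uchamfertop_upper s t _ _ _ hs ht hst h15 k15
  · module

theorem chamfer_subset (ε : ℝ) (v₁ v₂ v₃ v₄ : E3) :
    chamfer ε v₁ v₂ v₃ v₄ ⊆ convexHull ℝ {v₁, v₂, v₃, v₄} := by
  rintro x ⟨a, b, c, d, h1, h2, h3, h4, h5, -, -, -, -, -, -, -, -, -, -, hx⟩
  exact (hull4_iff v₁ v₂ v₃ v₄ x).2 ⟨a, b, c, d, h1, h2, h3, h4, h5, hx⟩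

end Vale.Agent.H5.P243
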