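import Vale.Agent.H5.P243.UDefs

/-!
# Track U (P243), row U5c: volume of a corner

`corner δ p₀ p₁ p₂ p₃` has volume at most `δ ^ 3` times the volume of the tetrahedron.

LEAN ROW U5c (`corner_volume`).  Sketch: if `δ = 0` the corner is contained in `{p₀}`
(`a = 1`, so `b = c = d = 0`), of volume `0`.  If `0 < δ`: the corner is contained in
`AffineMap.homothety p₀ δ '' convexHull ℝ {p₀, p₁, p₂, p₃}`: a point with weights `a, b, c, d`,
`1 - δ ≤ a`, is the image of the point with weights `1 - (b + c + d) / δ, b / δ, c / δ, d / δ`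
(nonnegative because `b + c + d = 1 - a ≤ δ`; `hull4_iff`).  Conclude with
`MeasureTheory.Measure.addHaar_image_homothety` (`finrank ℝ E3 = 3`, `|δ ^ 3| = δ ^ 3`).
-/

open MeasureTheory Set
open scoped ENNReal

namespace Vale.Agent.H5.P243

theorem corner_volume (δ : ℝ) (hδ : 0 ≤ δ) (p₀ p₁ p₂ p₃ : E3) :
    volume (corner δ p₀ p₁ p₂ p₃) ≤
      ENNReal.ofReal (δ ^ 3) * volume (convexHull ℝ {p₀, p₁, p₂, p₃}) := by
  have hsub : corner δ p₀ p₁ p₂ p₃ ⊆
      AffineMap.homothety p₀ δ '' convexHull ℝ {p₀, p₁, p₂, p₃} := by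
    rintro x ⟨a, b, c, d, ha, hb, hc, hd, hs, haδ, rfl⟩
    rcases hδ.eq_or_lt with h0 | hpos
    · have hδ0 : δ = 0 := h0.symm
      have hb0 : b = 0 := by linarith
      have hc0 : c = 0 := by linarith
      have hd0 : d = 0 := by linarith
      have ha1 : a = 1 := by linarith
      refine ⟨p₀, (hull4_iff p₀ p₁ p₂ p₃ p₀).2 ⟨1, 0, 0, 0, by norm_num, le_refl _, le_refl _,
        le_refl _, by norm_num, by simp⟩, ?_⟩
      rw [ha1, hb0, hc0, hd0, hδ0]
      simp
    · obtain ⟨b', hb'⟩ : ∃ b', b = δ * b' := ⟨b / δ, by field_simp⟩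
      obtain ⟨c', hc'⟩ : ∃ c', c = δ * c' := ⟨c / δ, by field_simp⟩
      obtain ⟨d', hd'⟩ : ∃ d', d = δ * d' := ⟨d / δ, by field_simp⟩
      subst hb' hc' hd'
      have hb0 : 0 ≤ b' := (mul_nonneg_iff_of_pos_left hpos).1 hb
      have hc0 : 0 ≤ c' := (mul_nonneg_iff_of_pos_left hpos).1 hc
      have hd0 : 0 ≤ d' := (mul_nonneg_iff_of_pos_left hpos).1 hd
      have ha1 : a = 1 - δ * (b' + c' + d') := by linarith
      subst ha1
      have hle : b' + c' + d' ≤ 1 := by
        have h1 : δ * (b' + c' + d') ≤ δ * 1 := by linarith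
        exact le_of_mul_le_mul_left h1 hpos
      refine ⟨(1 - (b' + c' + d')) • p₀ + b' • p₁ + c' • p₂ + d' • p₃,
        (hull4_iff _ _ _ _ _).2 ⟨_, _, _, _, by linarith, hb0, hc0, hd0, by ring, rfl⟩, ?_⟩
      rw [AffineMap.homothety_apply]
      simp only [vsub_eq_sub, vadd_eq_add]
      module
  have hE : Module.finrank ℝ E3 = 3 := by simp
  calc volume (corner δ p₀ p₁ p₂ p₃)
      ≤ volume (AffineMap.homothety p₀ δ '' convexHull ℝ {p₀, p₁, p₂, p₃}) := measure_mono hsub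
    _ = ENNReal.ofReal |δ ^ Module.finrank ℝ E3| * volume (convexHull ℝ {p₀, p₁, p₂, p₃}) :=
        Measure.addHaar_image_homothety _ _ _ _
    _ = ENNReal.ofReal (δ ^ 3) * volume (convexHull ℝ {p₀, p₁, p₂, p₃}) := by
        rw [hE, abs_of_nonneg (pow_nonneg hδ 3)]

end Vale.Agent.H5.P243
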