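import Vale.Agent.H5.P243.UEdge
import Vale.Agent.H5.P243.UCorner

/-!
# Track U (P243), row U5d: the chamfered tetrahedron has almost full volume

LEAN ROW U5d (`chamfer_volume`), from the stubs `edge_nbhd_volume` and `corner_volume`.  Sketch:
with `T := convexHull ℝ {v₁, v₂, v₃, v₄}`,
`T ⊆ chamfer ε v₁ v₂ v₃ v₄ ∪ (six edge neighbourhoods) ∪ (four corners)`:
a point of `T` has weights `a, b, c, d` (`hull4_iff`); if all sixteen chamfer conditions hold it
is in the chamfer; if a pair sum is `< ε` it is in the corresponding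
`edgeNbhd ε` with the points permuted so that the two weights come first
(`edgeNbhd ε v₁ v₂ v₃ v₄`, `edgeNbhd ε v₁ v₃ v₂ v₄`, `edgeNbhd ε v₁ v₄ v₂ v₃`,
`edgeNbhd ε v₂ v₃ v₁ v₄`, `edgeNbhd ε v₂ v₄ v₁ v₃`, `edgeNbhd ε v₃ v₄ v₁ v₂`); if a weight is
`> 1 - 2 ε` it is in `corner (2 ε)` with that point first (`corner (2 * ε) v₁ v₂ v₃ v₄`,
`corner (2 * ε) v₂ v₁ v₃ v₄`, `corner (2 * ε) v₃ v₁ v₂ v₄`, `corner (2 * ε) v₄ v₁ v₂ v₃`).
The hull of the permuted points is the same set (`Set.insert_comm`), each edge neighbourhood has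
volume `≤ ofReal (3 ε ^ 2) * volume T`, each corner `≤ ofReal ((2 ε) ^ 3) * volume T`;
`measure_union_le` ten times and `6 * 3 ε ^ 2 + 4 * (2 ε) ^ 3 = 18 ε ^ 2 + 32 ε ^ 3`.
-/

open MeasureTheory Set
open scoped ENNReal

namespace Vale.Agent.H5.P243

theorem uchamfervol_arith (V c A B : ℝ≥0∞) :
    c + (A * V + (A * V + (A * V + (A * V + (A * V + (A * V +
      (B * V + (B * V + (B * V + B * V))))))))) = c + (6 * A + 4 * B) * V := by
  ring

theorem uchamfervol_ofReal (ε : ℝ) (hε : 0 ≤ ε) :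
    ENNReal.ofReal (18 * ε ^ 2 + 32 * ε ^ 3)
      = 6 * ENNReal.ofReal (3 * ε ^ 2) + 4 * ENNReal.ofReal ((2 * ε) ^ 3) := by
  rw [← ENNReal.ofReal_ofNat 6, ← ENNReal.ofReal_ofNat 4,
    ← ENNReal.ofReal_mul (by norm_num), ← ENNReal.ofReal_mul (by norm_num),
    ← ENNReal.ofReal_add (by positivity) (by positivity)]
  congr 1
  ring

theorem uchamfervol_cover (ε : ℝ) (v₁ v₂ v₃ v₄ : E3) :
    convexHull ℝ ({v₁, v₂, v₃, v₄} : Set E3) ⊆ chamfer ε v₁ v₂ v₃ v₄ ∪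
      (edgeNbhd ε v₁ v₂ v₃ v₄ ∪ (edgeNbhd ε v₁ v₃ v₂ v₄ ∪ (edgeNbhd ε v₁ v₄ v₂ v₃ ∪
      (edgeNbhd ε v₂ v₃ v₁ v₄ ∪ (edgeNbhd ε v₂ v₄ v₁ v₃ ∪ (edgeNbhd ε v₃ v₄ v₁ v₂ ∪
      (corner (2 * ε) v₁ v₂ v₃ v₄ ∪ (corner (2 * ε) v₂ v₁ v₃ v₄ ∪
      (corner (2 * ε) v₃ v₁ v₂ v₄ ∪ corner (2 * ε) v₄ v₁ v₂ v₃))))))))) := by
  intro x hx
  obtain ⟨a, b, c, d, ha, hb, hc, hd, hs, rfl⟩ := (hull4_iff v₁ v₂ v₃ v₄ x).1 hx
  by_cases h12 : a + b < ε
  · right; left
    exact ⟨a, b, c, d, ha, hb, hc, hd, hs, h12.le, rfl⟩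
  by_cases h13 : a + c < ε
  · right; right; left
    exact ⟨a, c, b, d, ha, hc, hb, hd, by linarith, h13.le, by module⟩
  by_cases h14 : a + d < ε
  · right; right; right; left
    exact ⟨a, d, b, c, ha, hd, hb, hc, by linarith, h14.le, by module⟩
  by_cases h23 : b + c < ε
  · right; right; right; right; left
    exact ⟨b, c, a, d, hb, hc, ha, hd, by linarith, h23.le, by module⟩
  by_cases h24 : b + d < ε
  · right; right; right; right; right; left
    exact ⟨b, d, a, c, hb, hd, ha, hc, by linarith, h24.le, by module⟩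
  by_cases h34 : c + d < ε
  · right; right; right; right; right; right; left
    exact ⟨c, d, a, b, hc, hd, ha, hb, by linarith, h34.le, by module⟩
  by_cases h1 : 1 - 2 * ε < a
  · right; right; right; right; right; right; right; left
    exact ⟨a, b, c, d, ha, hb, hc, hd, hs, h1.le, rfl⟩
  by_cases h2 : 1 - 2 * ε < b
  · right; right; right; right; right; right; right; right; left
    exact ⟨b, a, c, d, hb, ha, hc, hd, by linarith, h2.le, by module⟩
  by_cases h3 : 1 - 2 * ε < c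
  · right; right; right; right; right; right; right; right; right; left
    exact ⟨c, a, b, d, hc, ha, hb, hd, by linarith, h3.le, by module⟩
  by_cases h4 : 1 - 2 * ε < d
  · right; right; right; right; right; right; right; right; right; right
    exact ⟨d, a, b, c, hd, ha, hb, hc, by linarith, h4.le, by module⟩
  left
  push Not at h12 h13 h14 h23 h24 h34 h1 h2 h3 h4
  exact ⟨a, b, c, d, ha, hb, hc, hd, hs, h12, h13, h14, h23, h24, h34, h1, h2, h3, h4, rfl⟩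

theorem chamfer_volume (ε : ℝ) (hε : 0 ≤ ε) (v₁ v₂ v₃ v₄ : E3) :
    volume (convexHull ℝ {v₁, v₂, v₃, v₄}) ≤
      volume (chamfer ε v₁ v₂ v₃ v₄) +
        ENNReal.ofReal (18 * ε ^ 2 + 32 * ε ^ 3) * volume (convexHull ℝ {v₁, v₂, v₃, v₄}) := by
  have e13 : ({v₁, v₃, v₂, v₄} : Set E3) = {v₁, v₂, v₃, v₄} := by
    ext x
    simp only [Set.mem_insert_iff, Set.mem_singleton_iff]
    tauto
  have e14 : ({v₁, v₄, v₂, v₃} : Set E3) = {v₁, v₂, v₃, v₄} := by
    ext x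
    simp only [Set.mem_insert_iff, Set.mem_singleton_iff]
    tauto
  have e23 : ({v₂, v₃, v₁, v₄} : Set E3) = {v₁, v₂, v₃, v₄} := by
    ext x
    simp only [Set.mem_insert_iff, Set.mem_singleton_iff]
    tauto
  have e24 : ({v₂, v₄, v₁, v₃} : Set E3) = {v₁, v₂, v₃, v₄} := by
    ext x
    simp only [Set.mem_insert_iff, Set.mem_singleton_iff]
    tauto
  have e34 : ({v₃, v₄, v₁, v₂} : Set E3) = {v₁, v₂, v₃, v₄} := by
    ext x
    simp only [Set.mem_insert_iff, Set.mem_singleton_iff]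
    tauto
  have e2 : ({v₂, v₁, v₃, v₄} : Set E3) = {v₁, v₂, v₃, v₄} := by
    ext x
    simp only [Set.mem_insert_iff, Set.mem_singleton_iff]
    tauto
  have e3 : ({v₃, v₁, v₂, v₄} : Set E3) = {v₁, v₂, v₃, v₄} := by
    ext x
    simp only [Set.mem_insert_iff, Set.mem_singleton_iff]
    tauto
  have e4 : ({v₄, v₁, v₂, v₃} : Set E3) = {v₁, v₂, v₃, v₄} := by
    ext x
    simp only [Set.mem_insert_iff, Set.mem_singleton_iff]
    tauto
  have hE : ∀ p₀ p₁ p₂ p₃ : E3, ({p₀, p₁, p₂, p₃} : Set E3) = {v₁, v₂, v₃, v₄} →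
      volume (edgeNbhd ε p₀ p₁ p₂ p₃) ≤
        ENNReal.ofReal (3 * ε ^ 2) * volume (convexHull ℝ ({v₁, v₂, v₃, v₄} : Set E3)) := by
    intro p₀ p₁ p₂ p₃ hp
    have h := edge_nbhd_volume ε hε p₀ p₁ p₂ p₃
    rwa [hp] at h
  have hC : ∀ p₀ p₁ p₂ p₃ : E3, ({p₀, p₁, p₂, p₃} : Set E3) = {v₁, v₂, v₃, v₄} →
      volume (corner (2 * ε) p₀ p₁ p₂ p₃) ≤
        ENNReal.ofReal ((2 * ε) ^ 3) * volume (convexHull ℝ ({v₁, v₂, v₃, v₄} : Set E3)) := by
    intro p₀ p₁ p₂ p₃ hp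
    have h := corner_volume (2 * ε) (by linarith) p₀ p₁ p₂ p₃
    rwa [hp] at h
  refine (measure_mono (uchamfervol_cover ε v₁ v₂ v₃ v₄)).trans ?_
  rw [uchamfervol_ofReal ε hε, ← uchamfervol_arith]
  refine (measure_union_le _ _).trans (add_le_add le_rfl ?_)
  refine (measure_union_le _ _).trans (add_le_add (hE _ _ _ _ rfl) ?_)
  refine (measure_union_le _ _).trans (add_le_add (hE _ _ _ _ e13) ?_)
  refine (measure_union_le _ _).trans (add_le_add (hE _ _ _ _ e14) ?_)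
  refine (measure_union_le _ _).trans (add_le_add (hE _ _ _ _ e23) ?_)
  refine (measure_union_le _ _).trans (add_le_add (hE _ _ _ _ e24) ?_)
  refine (measure_union_le _ _).trans (add_le_add (hE _ _ _ _ e34) ?_)
  refine (measure_union_le _ _).trans (add_le_add (hC _ _ _ _ rfl) ?_)
  refine (measure_union_le _ _).trans (add_le_add (hC _ _ _ _ e2) ?_)
  exact (measure_union_le _ _).trans (add_le_add (hC _ _ _ _ e3) (hC _ _ _ _ e4))

end Vale.Agent.H5.P243
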