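import Vale.Agent.H5.P243.UDefs

/-!
# Track U (P243), row U8: a non-degenerate tetrahedron has positive volume

LEAN ROW U8 (`volume_tetra_pos`).  Sketch: `{v₁, v₂, v₃, v₄} = Set.range ![v₁, v₂, v₃, v₄]`;
an affinely independent family of `4 = finrank ℝ E3 + 1` points has affine span `⊤`
(`AffineIndependent.affineSpan_eq_top_iff_card_eq_finrank_add_one`), so the convex hull has
nonempty interior (`interior_convexHull_nonempty_iff_affineSpan_eq_top`), and a set with nonempty
interior has positive volume (`IsOpen.measure_pos` for the interior, `measure_mono`).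
-/

open MeasureTheory Set

namespace Vale.Agent.H5.P243

theorem volume_tetra_pos (v₁ v₂ v₃ v₄ : E3) (hT : AffineIndependent ℝ ![v₁, v₂, v₃, v₄]) :
    0 < volume (convexHull ℝ {v₁, v₂, v₃, v₄}) := by
  have hrange : Set.range ![v₁, v₂, v₃, v₄] = {v₁, v₂, v₃, v₄} := by
    ext x
    simp only [Set.mem_range, Set.mem_insert_iff, Set.mem_singleton_iff]
    constructor
    · rintro ⟨i, rfl⟩
      fin_cases i <;> simp
    · rintro (h | h | h | h)
      · exact ⟨0, by simp [h]⟩
      · exact ⟨1, by simp [h]⟩
      · exact ⟨2, by simp [h]⟩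
      · exact ⟨3, by simp [h]⟩
  have hcard : Fintype.card (Fin 4) = Module.finrank ℝ E3 + 1 := by
    simp [E3]
  have hspan : affineSpan ℝ (Set.range ![v₁, v₂, v₃, v₄]) = ⊤ :=
    (hT.affineSpan_eq_top_iff_card_eq_finrank_add_one).mpr hcard
  rw [hrange] at hspan
  have hint : (interior (convexHull ℝ ({v₁, v₂, v₃, v₄} : Set E3))).Nonempty :=
    interior_convexHull_nonempty_iff_affineSpan_eq_top.mpr hspan
  have hpos : 0 < volume (interior (convexHull ℝ ({v₁, v₂, v₃, v₄} : Set E3))) :=
    isOpen_interior.measure_pos volume hint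
  exact lt_of_lt_of_le hpos (measure_mono interior_subset)

end Vale.Agent.H5.P243
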