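import Vale.Agent.H5.P243.UCone
import Vale.Agent.H5.P243.UFubini

/-!
# Track U (P243), row U34: a sub-body with shorter chords

Let `K' ` and `K` be compact convex sets of a 3-dimensional Euclidean space such that every chord
of `K'` in the direction `u` is at most `θ` times some chord of `K` in the direction `u`.  Then
the part of `K'` in the cylinder over `B ⊆ u^⊥`, times the shadow area of `K`, is at most
`3 θ vol K` times the area of `B`.

LEAN ROW U34 (`sub_cylinder_bound`), from the stubs `cone_bound` and `chord_fubini`.  Sketch: if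
`K' = ∅` the left side is `0`.  Otherwise the set
`D := {t : ℝ | ∃ x ∈ K', x + t • u ∈ K'}` is compact (image of the compact set
`{(x, x') ∈ K' ×ˢ K' | x' - x = inner ℝ (x' - x) u • u}` under the continuous map
`(x, x') ↦ inner ℝ (x' - x) u`) and contains `0`, so it has a greatest element `F ≥ 0`, attained
at some `x₀` with `x₀ + F • u ∈ K'`.  `hchord x₀ F` gives `y ∈ K`, `0 ≤ s`, `F ≤ θ * s`,
`y + s • u ∈ K`.  `chord_fubini` for `K'` with this `F`:
`volume (K' ∩ proj ⁻¹' B) ≤ ofReal F * volume B`; `cone_bound` for `K`: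
`ofReal s * volume (proj '' K) ≤ 3 * volume K`.  Multiply and use
`ofReal F ≤ ofReal (θ * s) = ofReal θ * ofReal s`.
-/

open MeasureTheory Set Module
open scoped ENNReal

namespace Vale.Agent.H5.P243

variable {E : Type*} [NormedAddCommGroup E] [InnerProductSpace ℝ E] [FiniteDimensional ℝ E]
  [MeasurableSpace E] [BorelSpace E]

theorem sub_cylinder_bound (hE : finrank ℝ E = 3) (u : E) (hu : ‖u‖ = 1) {K K' : Set E}
    (hK : IsCompact K) (hKc : Convex ℝ K) (hK' : IsCompact K') (hK'c : Convex ℝ K')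
    {θ : ℝ} (hθ : 0 ≤ θ)
    (hchord : ∀ x ∈ K', ∀ t : ℝ, 0 ≤ t → x + t • u ∈ K' →
      ∃ y ∈ K, ∃ s : ℝ, 0 ≤ s ∧ t ≤ θ * s ∧ y + s • u ∈ K)
    {B : Set ↥(Submodule.span ℝ {u})ᗮ} (hB : MeasurableSet B) :
    volume (K' ∩ (Submodule.span ℝ {u})ᗮ.orthogonalProjectionOnto ⁻¹' B) *
        volume ((Submodule.span ℝ {u})ᗮ.orthogonalProjectionOnto '' K) ≤
      ENNReal.ofReal (3 * θ) * volume K * volume B := by
  rcases K'.eq_empty_or_nonempty with hK'e | ⟨x₁, hx₁⟩
  · rw [hK'e]
    simp
  · have hSc : IsCompact {p : E × E | p ∈ K' ×ˢ K' ∧ p.2 - p.1 = inner ℝ (p.2 - p.1) u • u} := by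
      have hcl : IsClosed {p : E × E | p.2 - p.1 = inner ℝ (p.2 - p.1) u • u} :=
        isClosed_eq (by fun_prop) (by fun_prop)
      exact (hK'.prod hK').inter_right hcl
    have hg : Continuous (fun p : E × E => inner ℝ (p.2 - p.1) u) := by fun_prop
    have hDc := hSc.image hg
    have hinner : ∀ t : ℝ, inner ℝ (t • u) u = t := by
      intro t
      rw [real_inner_smul_left, real_inner_self_eq_norm_sq, hu]
      ring
    have hmem : ∀ x ∈ K', ∀ t : ℝ, x + t • u ∈ K' →
        t ∈ (fun p : E × E => inner ℝ (p.2 - p.1) u) ''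
          {p : E × E | p ∈ K' ×ˢ K' ∧ p.2 - p.1 = inner ℝ (p.2 - p.1) u • u} := by
      intro x hx t hxt
      refine ⟨(x, x + t • u), ⟨⟨hx, hxt⟩, ?_⟩, ?_⟩
      · show x + t • u - x = inner ℝ (x + t • u - x) u • u
        rw [add_sub_cancel_left, hinner]
      · show inner ℝ (x + t • u - x) u = t
        rw [add_sub_cancel_left, hinner]
    have h0 := hmem x₁ hx₁ 0 (by simpa using hx₁)
    obtain ⟨F, hFmem, hFub⟩ := hDc.exists_isGreatest ⟨0, h0⟩
    have hF0 : 0 ≤ F := hFub h0
    obtain ⟨p, ⟨⟨hp1, hp2⟩, hline⟩, hpF⟩ := hFmem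
    have hpF' : inner ℝ (p.2 - p.1) u = F := hpF
    rw [hpF'] at hline
    have hx0F : p.1 + F • u ∈ K' := by
      rw [← hline]
      simpa using hp2
    obtain ⟨y, hy, s, hs, hFs, hys⟩ := hchord p.1 hp1 F hF0 hx0F
    have h1 := chord_fubini hE u hu hK' hK'c hF0
      (fun x hx t hxt => hFub (hmem x hx t hxt)) hB
    have h2 := cone_bound hE u hu hK hKc hs hy hys
    have h3 : ENNReal.ofReal F ≤ ENNReal.ofReal θ * ENNReal.ofReal s := by
      rw [← ENNReal.ofReal_mul hθ]
      exact ENNReal.ofReal_le_ofReal hFs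
    refine le_trans (mul_le_mul' (h1.trans (mul_le_mul' h3 le_rfl)) le_rfl) ?_
    have e : ENNReal.ofReal θ * ENNReal.ofReal s * volume B *
        volume ((Submodule.span ℝ {u})ᗮ.orthogonalProjectionOnto '' K) =
        ENNReal.ofReal θ * volume B *
          (ENNReal.ofReal s * volume ((Submodule.span ℝ {u})ᗮ.orthogonalProjectionOnto '' K)) := by
      ring
    rw [e]
    refine le_trans (mul_le_mul' le_rfl h2) ?_
    rw [ENNReal.ofReal_mul (by norm_num : (0 : ℝ) ≤ 3), ENNReal.ofReal_ofNat]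
    exact le_of_eq (by ring)

end Vale.Agent.H5.P243
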