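import Vale.Agent.H5.P243.UChord
import Vale.Agent.H5.P243.USub
import Vale.Agent.H5.P243.UChamferVol
import Vale.Agent.H5.P243.UChamferTop
import Vale.Agent.H5.P243.UPos
import Vale.Agent.H5.P243.UShadowPos

/-!
# Track U (P243): every cylinder covering of a tetrahedron

**Theorem U.** If a non-degenerate tetrahedron `T` of Euclidean 3-space is covered by finitely
many cylinders `B i + ℝ u i` (any number, any directions, arbitrary bases `B i ⊆ (u i)^⊥`), then
the relative base areas sum to at least `317 / 900 > 1 / 3`.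

Proof: the chamfered tetrahedron `T' = chamfer (1/20)` has volume at least `(1 - 49/1000) vol T`
(`chamfer_volume`), each of its chords is at most `9/10` of a chord of `T` in the same direction
(`chord_lemma`), hence `vol (T' ∩ cylinder i) * shadow area i ≤ 3 * (9/10) * vol T * |B i|`
(`sub_cylinder_bound`); sum over the cylinders.
-/

open MeasureTheory Set Module
open scoped ENNReal

namespace Vale.Agent.H5.P243

/-- **Theorem U.** Every covering of a tetrahedron by finitely many cylinders has relative base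
areas summing to at least `317 / 900`. -/
theorem tetra_all_cylinders (m : ℕ) (v₁ v₂ v₃ v₄ : EuclideanSpace ℝ (Fin 3))
    (hT : AffineIndependent ℝ ![v₁, v₂, v₃, v₄])
    (u : Fin m → EuclideanSpace ℝ (Fin 3)) (hu : ∀ i, ‖u i‖ = 1)
    (B : Fin m → Set (EuclideanSpace ℝ (Fin 3)))
    (hB : ∀ i, ∀ x ∈ B i, inner ℝ x (u i) = 0)
    (hcov : convexHull ℝ {v₁, v₂, v₃, v₄} ⊆ ⋃ i, {x | ∃ b ∈ B i, ∃ t : ℝ, x = b + t • u i}) :
    ENNReal.ofReal (317 / 900) ≤ ∑ i, μHE[2] (B i) /
      μHE[2] ((fun x => x - inner ℝ x (u i) • u i) '' convexHull ℝ {v₁, v₂, v₃, v₄}) := by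
  classical
  have hE : finrank ℝ (EuclideanSpace ℝ (Fin 3)) = 3 := by simp
  set T : Set (EuclideanSpace ℝ (Fin 3)) := convexHull ℝ {v₁, v₂, v₃, v₄} with hTdef
  have hTc : IsCompact T := by
    have hfin : ({v₁, v₂, v₃, v₄} : Set (EuclideanSpace ℝ (Fin 3))).Finite := by simp
    exact Set.Finite.isCompact_convexHull (𝕜 := ℝ) hfin
  have hTconv : Convex ℝ T := convex_convexHull ℝ _
  have hT'c := chamfer_isCompact (1 / 20) v₁ v₂ v₃ v₄
  have hT'conv := chamfer_convex (1 / 20) v₁ v₂ v₃ v₄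
  have hT'sub : chamfer (1 / 20) v₁ v₂ v₃ v₄ ⊆ T := chamfer_subset (1 / 20) v₁ v₂ v₃ v₄
  have hVpos : 0 < volume T := volume_tetra_pos v₁ v₂ v₃ v₄ hT
  have hVfin : volume T ≠ ⊤ := hTc.measure_lt_top.ne
  have hvol := chamfer_volume (1 / 20) (by norm_num) v₁ v₂ v₃ v₄
  -- the bases inside the subspaces and their measurable hulls
  have hB'm : ∀ i, MeasurableSet
      (toMeasurable volume (Subtype.val ⁻¹' B i : Set ↥(Submodule.span ℝ {u i})ᗮ)) :=
    fun i => measurableSet_toMeasurable _ _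
  have hB'v : ∀ i, volume
      (toMeasurable volume (Subtype.val ⁻¹' B i : Set ↥(Submodule.span ℝ {u i})ᗮ)) =
      μHE[2] (B i) := by
    intro i
    rw [measure_toMeasurable, Vale.Agent.H76.hausdorff_base hE (u i) (hu i) (B i) (hB i)]
  have hS : ∀ i, μHE[2] ((fun x => x - inner ℝ x (u i) • u i) '' T) =
      volume ((Submodule.span ℝ {u i})ᗮ.orthogonalProjectionOnto '' T) :=
    fun i => Vale.Agent.H76.hausdorff_shadow hE (u i) (hu i) T
  have hSpos : ∀ i, volume ((Submodule.span ℝ {u i})ᗮ.orthogonalProjectionOnto '' T) ≠ 0 :=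
    fun i => (shadow_pos hE (u i) (hu i) hTc hVpos).ne'
  have hSfin : ∀ i, volume ((Submodule.span ℝ {u i})ᗮ.orthogonalProjectionOnto '' T) ≠ ⊤ :=
    fun i => (hTc.image
      (Submodule.span ℝ {u i})ᗮ.orthogonalProjectionOnto.continuous).measure_lt_top.ne
  -- the covering of the chamfered tetrahedron
  have hcov' : chamfer (1 / 20) v₁ v₂ v₃ v₄ ⊆ ⋃ i, (chamfer (1 / 20) v₁ v₂ v₃ v₄ ∩
      (Submodule.span ℝ {u i})ᗮ.orthogonalProjectionOnto ⁻¹'
        (toMeasurable volume (Subtype.val ⁻¹' B i : Set ↥(Submodule.span ℝ {u i})ᗮ))) := by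
    intro x hx
    obtain ⟨i, hi⟩ := mem_iUnion.1 (hcov (hT'sub hx))
    exact mem_iUnion.2 ⟨i, hx, subset_toMeasurable _ _
      (Vale.Agent.H76.proj_mem_of_cyl (u i) (hu i) (B i) (hB i) x hi)⟩
  -- one cylinder
  have hper : ∀ i, volume (chamfer (1 / 20) v₁ v₂ v₃ v₄ ∩
      (Submodule.span ℝ {u i})ᗮ.orthogonalProjectionOnto ⁻¹'
        (toMeasurable volume (Subtype.val ⁻¹' B i : Set ↥(Submodule.span ℝ {u i})ᗮ))) ≤
      ENNReal.ofReal (27 / 10) * volume T * (μHE[2] (B i) /
        μHE[2] ((fun x => x - inner ℝ x (u i) • u i) '' T)) := by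
    intro i
    have h := sub_cylinder_bound hE (u i) (hu i) hTc hTconv hT'c hT'conv
      (θ := 9 / 10) (by norm_num)
      (by
        intro x hx t ht hxt
        obtain ⟨y, hy, s, hs, hts, hys⟩ :=
          chord_lemma (1 / 20) v₁ v₂ v₃ v₄ (u i) (hu i) x t ht hx hxt
        refine ⟨y, hy, s, hs, ?_, hys⟩
        have e : (1 : ℝ) - 2 * (1 / 20) = 9 / 10 := by norm_num
        rw [e] at hts
        exact hts) (hB'm i)
    rw [hB'v i] at h
    have e : (3 : ℝ) * (9 / 10) = 27 / 10 := by norm_num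
    rw [e] at h
    rw [hS i, ← mul_div_assoc, ENNReal.le_div_iff_mul_le (Or.inl (hSpos i)) (Or.inl (hSfin i))]
    exact h
  -- summation
  have hsum : volume (chamfer (1 / 20) v₁ v₂ v₃ v₄) ≤
      ENNReal.ofReal (27 / 10) * volume T * ∑ i, μHE[2] (B i) /
        μHE[2] ((fun x => x - inner ℝ x (u i) • u i) '' T) := by
    calc volume (chamfer (1 / 20) v₁ v₂ v₃ v₄)
        ≤ volume (⋃ i, (chamfer (1 / 20) v₁ v₂ v₃ v₄ ∩
            (Submodule.span ℝ {u i})ᗮ.orthogonalProjectionOnto ⁻¹'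
              (toMeasurable volume
                (Subtype.val ⁻¹' B i : Set ↥(Submodule.span ℝ {u i})ᗮ)))) :=
          measure_mono hcov'
      _ ≤ ∑ i, volume (chamfer (1 / 20) v₁ v₂ v₃ v₄ ∩
            (Submodule.span ℝ {u i})ᗮ.orthogonalProjectionOnto ⁻¹'
              (toMeasurable volume
                (Subtype.val ⁻¹' B i : Set ↥(Submodule.span ℝ {u i})ᗮ))) :=
          measure_iUnion_fintype_le _ _
      _ ≤ ∑ i, ENNReal.ofReal (27 / 10) * volume T * (μHE[2] (B i) /
            μHE[2] ((fun x => x - inner ℝ x (u i) • u i) '' T)) :=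
          Finset.sum_le_sum fun i _ => hper i
      _ = _ := by rw [Finset.mul_sum]
  set R : ℝ≥0∞ := ∑ i, μHE[2] (B i) /
    μHE[2] ((fun x => x - inner ℝ x (u i) • u i) '' T) with hR
  -- divide by the volume
  have hmain : volume T * 1 ≤ volume T *
      (ENNReal.ofReal (27 / 10) * R + ENNReal.ofReal (49 / 1000)) := by
    have e : (18 : ℝ) * (1 / 20) ^ 2 + 32 * (1 / 20) ^ 3 = 49 / 1000 := by norm_num
    rw [e] at hvol
    calc volume T * 1 = volume T := mul_one _
      _ ≤ volume (chamfer (1 / 20) v₁ v₂ v₃ v₄) + ENNReal.ofReal (49 / 1000) * volume T := hvol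
      _ ≤ ENNReal.ofReal (27 / 10) * volume T * R + ENNReal.ofReal (49 / 1000) * volume T := by
          gcongr
      _ = volume T * (ENNReal.ofReal (27 / 10) * R + ENNReal.ofReal (49 / 1000)) := by ring
  have hone : (1 : ℝ≥0∞) ≤ ENNReal.ofReal (27 / 10) * R + ENNReal.ofReal (49 / 1000) :=
    (ENNReal.mul_le_mul_iff_right hVpos.ne' hVfin).1 hmain
  by_cases hRtop : R = ⊤
  · rw [hRtop]
    exact le_top
  · have hRr : R = ENNReal.ofReal R.toReal := (ENNReal.ofReal_toReal hRtop).symm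
    have hr0 : 0 ≤ R.toReal := ENNReal.toReal_nonneg
    rw [hRr, ← ENNReal.ofReal_mul (by norm_num), ← ENNReal.ofReal_add (by positivity)
      (by norm_num), ← ENNReal.ofReal_one, ENNReal.ofReal_le_ofReal_iff (by positivity)] at hone
    rw [hRr]
    apply ENNReal.ofReal_le_ofReal
    linarith

end Vale.Agent.H5.P243
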