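import Mathlib

/-!
# Track U (P243), row U1: the total-variation lemma

Two weight vectors of the chamfered simplex (all pair sums at least `ε`, all weights at most
`1 - 2 ε`) have total-variation distance at most `1 - 2 ε`.

LEAN ROW U1 (`tv_lemma`).  Sketch: split into the 16 sign cases of the four differences
(`rcases le_total (a' - a) 0` etc., rewrite with `max_eq_right` / `max_eq_left`); every case is
linear: no positive difference: `2 ε ≤ 1` from `hab`, `hcd`, `hs`; one positive difference, say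
`a' - a`: `a' - a ≤ a' ≤ 1 - 2 ε`; two, say `a`, `b`: `(a' + b') - (a + b) ≤ (1 - ε) - ε` from
`hcd'` and `hab`; three, say `a`, `b`, `c`: the sum is `d - d' ≤ d ≤ 1 - 2 ε`; four: the sum is `0`.
-/

namespace Vale.Agent.H5.P243

theorem tv_lemma (ε a b c d a' b' c' d' : ℝ)
    (ha : 0 ≤ a) (hb : 0 ≤ b) (hc : 0 ≤ c) (hd : 0 ≤ d) (hs : a + b + c + d = 1)
    (hab : ε ≤ a + b) (hac : ε ≤ a + c) (had : ε ≤ a + d) (hbc : ε ≤ b + c) (hbd : ε ≤ b + d)
    (hcd : ε ≤ c + d)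
    (ha1 : a ≤ 1 - 2 * ε) (hb1 : b ≤ 1 - 2 * ε) (hc1 : c ≤ 1 - 2 * ε) (hd1 : d ≤ 1 - 2 * ε)
    (ha' : 0 ≤ a') (hb' : 0 ≤ b') (hc' : 0 ≤ c') (hd' : 0 ≤ d') (hs' : a' + b' + c' + d' = 1)
    (hab' : ε ≤ a' + b') (hac' : ε ≤ a' + c') (had' : ε ≤ a' + d') (hbc' : ε ≤ b' + c')
    (hbd' : ε ≤ b' + d') (hcd' : ε ≤ c' + d')
    (ha1' : a' ≤ 1 - 2 * ε) (hb1' : b' ≤ 1 - 2 * ε) (hc1' : c' ≤ 1 - 2 * ε)
    (hd1' : d' ≤ 1 - 2 * ε) :
    max (a' - a) 0 + max (b' - b) 0 + max (c' - c) 0 + max (d' - d) 0 ≤ 1 - 2 * ε := by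
  rcases le_total (a' - a) 0 with h1 | h1 <;> rcases le_total (b' - b) 0 with h2 | h2 <;>
    rcases le_total (c' - c) 0 with h3 | h3 <;> rcases le_total (d' - d) 0 with h4 | h4 <;>
    simp only [max_eq_right, max_eq_left, h1, h2, h3, h4] <;> linarith

end Vale.Agent.H5.P243
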