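import Vale.Agent.H5.P243.UDefs
import Vale.Agent.H5.P243.UTv

/-!
# Track U (P243), row U2: chords of the chamfered tetrahedron

Every chord of the chamfered tetrahedron in direction `u` is at most `1 - 2 ε` times some chord
of the tetrahedron in the same direction.

LEAN ROW U2 (`chord_lemma`).  Sketch: take weights `a, b, c, d` of `x` and `a', b', c', d'`
of `x + t • u` from the definition of `chamfer`.  Put
`D := max (a' - a) 0 + max (b' - b) 0 + max (c' - c) 0 + max (d' - d) 0`; by `tv_lemma`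
`D ≤ 1 - 2 ε`, and `D = max (a - a') 0 + ... ` (the differences sum to zero;
`max x 0 - max (-x) 0 = x`).
* If `D = 0`, all four differences vanish, so `t • u = 0`, hence `t = 0` (`u ≠ 0`):
  take `y := x`, `s := 0` (`x` is in the hull by `hull4_iff`).
* If `0 < D`: `y := (max (a - a') 0 / D) • v₁ + ...` and
  `y' := (max (a' - a) 0 / D) • v₁ + ...` are in the hull (`hull4_iff`), and
  `y' - y = (1 / D) • ((x + t • u) - x) = (t / D) • u`; take `s := t / D`; then
  `t = D * s ≤ (1 - 2 ε) * s`.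
-/

open Set

namespace Vale.Agent.H5.P243

/-- Positive part minus negative part. -/
theorem uchord_posneg (a a' : ℝ) : max (a' - a) 0 - max (a - a') 0 = a' - a := by
  rcases le_total (a' - a) 0 with h | h
  · rw [max_eq_right h, max_eq_left (by linarith)]
    ring
  · rw [max_eq_left h, max_eq_right (by linarith)]
    ring

theorem chord_lemma (ε : ℝ) (v₁ v₂ v₃ v₄ u : E3) (hu : ‖u‖ = 1) (x : E3) (t : ℝ) (ht : 0 ≤ t)
    (hx : x ∈ chamfer ε v₁ v₂ v₃ v₄) (hxt : x + t • u ∈ chamfer ε v₁ v₂ v₃ v₄) :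
    ∃ y ∈ convexHull ℝ {v₁, v₂, v₃, v₄}, ∃ s : ℝ, 0 ≤ s ∧ t ≤ (1 - 2 * ε) * s ∧
      y + s • u ∈ convexHull ℝ {v₁, v₂, v₃, v₄} := by
  obtain ⟨a, b, c, d, ha, hb, hc, hd, hs, hab, hac, had, hbc, hbd, hcd, ha1, hb1, hc1, hd1,
    rfl⟩ := hx
  obtain ⟨a', b', c', d', ha', hb', hc', hd', hs', hab', hac', had', hbc', hbd', hcd', ha1',
    hb1', hc1', hd1', hxt⟩ := hxt
  have hD := tv_lemma ε a b c d a' b' c' d' ha hb hc hd hs hab hac had hbc hbd hcd ha1 hb1 hc1
    hd1 ha' hb' hc' hd' hs' hab' hac' had' hbc' hbd' hcd' ha1' hb1' hc1' hd1'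
  obtain ⟨pa, hpa⟩ : ∃ pa : ℝ, pa = max (a' - a) 0 := ⟨_, rfl⟩
  obtain ⟨pb, hpb⟩ : ∃ pb : ℝ, pb = max (b' - b) 0 := ⟨_, rfl⟩
  obtain ⟨pc, hpc⟩ : ∃ pc : ℝ, pc = max (c' - c) 0 := ⟨_, rfl⟩
  obtain ⟨pd, hpd⟩ : ∃ pd : ℝ, pd = max (d' - d) 0 := ⟨_, rfl⟩
  obtain ⟨na, hna⟩ : ∃ na : ℝ, na = max (a - a') 0 := ⟨_, rfl⟩
  obtain ⟨nb, hnb⟩ : ∃ nb : ℝ, nb = max (b - b') 0 := ⟨_, rfl⟩
  obtain ⟨nc, hnc⟩ : ∃ nc : ℝ, nc = max (c - c') 0 := ⟨_, rfl⟩
  obtain ⟨nd, hnd⟩ : ∃ nd : ℝ, nd = max (d - d') 0 := ⟨_, rfl⟩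
  rw [← hpa, ← hpb, ← hpc, ← hpd] at hD
  have hpa0 : 0 ≤ pa := hpa ▸ le_max_right _ _
  have hpb0 : 0 ≤ pb := hpb ▸ le_max_right _ _
  have hpc0 : 0 ≤ pc := hpc ▸ le_max_right _ _
  have hpd0 : 0 ≤ pd := hpd ▸ le_max_right _ _
  have hna0 : 0 ≤ na := hna ▸ le_max_right _ _
  have hnb0 : 0 ≤ nb := hnb ▸ le_max_right _ _
  have hnc0 : 0 ≤ nc := hnc ▸ le_max_right _ _
  have hnd0 : 0 ≤ nd := hnd ▸ le_max_right _ _
  have hda : a' - a = pa - na := by
    rw [hpa, hna]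
    exact (uchord_posneg a a').symm
  have hdb : b' - b = pb - nb := by
    rw [hpb, hnb]
    exact (uchord_posneg b b').symm
  have hdc : c' - c = pc - nc := by
    rw [hpc, hnc]
    exact (uchord_posneg c c').symm
  have hdd : d' - d = pd - nd := by
    rw [hpd, hnd]
    exact (uchord_posneg d d').symm
  have hsum : na + nb + nc + nd = pa + pb + pc + pd := by linarith
  have htu : t • u = (pa - na) • v₁ + (pb - nb) • v₂ + (pc - nc) • v₃ + (pd - nd) • v₄ := by
    rw [← hda, ← hdb, ← hdc, ← hdd]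
    have e : t • u = (a • v₁ + b • v₂ + c • v₃ + d • v₄ + t • u)
        - (a • v₁ + b • v₂ + c • v₃ + d • v₄) := by
      abel
    rw [e, hxt]
    module
  have hxmem : a • v₁ + b • v₂ + c • v₃ + d • v₄ ∈ convexHull ℝ {v₁, v₂, v₃, v₄} :=
    (hull4_iff v₁ v₂ v₃ v₄ _).mpr ⟨a, b, c, d, ha, hb, hc, hd, hs, rfl⟩
  have hD0 : 0 ≤ pa + pb + pc + pd := by linarith
  rcases lt_or_eq_of_le hD0 with hDpos | hDz
  · -- positive total variation
    have hDne : pa + pb + pc + pd ≠ 0 := hDpos.ne'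
    have hs0 : 0 ≤ t / (pa + pb + pc + pd) := div_nonneg ht hDpos.le
    refine ⟨(na / (pa + pb + pc + pd)) • v₁ + (nb / (pa + pb + pc + pd)) • v₂
        + (nc / (pa + pb + pc + pd)) • v₃ + (nd / (pa + pb + pc + pd)) • v₄,
      (hull4_iff v₁ v₂ v₃ v₄ _).mpr ⟨_, _, _, _, div_nonneg hna0 hDpos.le,
        div_nonneg hnb0 hDpos.le, div_nonneg hnc0 hDpos.le, div_nonneg hnd0 hDpos.le, ?_, rfl⟩,
      t / (pa + pb + pc + pd), hs0, ?_, ?_⟩
    · rw [← add_div, ← add_div, ← add_div, hsum, div_self hDne]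
    · calc t = (pa + pb + pc + pd) * (t / (pa + pb + pc + pd)) := by
            field_simp
        _ ≤ (1 - 2 * ε) * (t / (pa + pb + pc + pd)) := mul_le_mul_of_nonneg_right hD hs0
    · refine (hull4_iff v₁ v₂ v₃ v₄ _).mpr ⟨pa / (pa + pb + pc + pd), pb / (pa + pb + pc + pd),
        pc / (pa + pb + pc + pd), pd / (pa + pb + pc + pd), div_nonneg hpa0 hDpos.le,
        div_nonneg hpb0 hDpos.le, div_nonneg hpc0 hDpos.le, div_nonneg hpd0 hDpos.le, ?_, ?_⟩
      · rw [← add_div, ← add_div, ← add_div, div_self hDne]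
      · have hsu : (t / (pa + pb + pc + pd)) • u = (1 / (pa + pb + pc + pd)) • (t • u) := by
          rw [smul_smul]
          congr 1
          ring
        rw [hsu, htu]
        module
  · -- no variation: the chord is trivial
    have hpa' : pa = 0 := by linarith
    have hpb' : pb = 0 := by linarith
    have hpc' : pc = 0 := by linarith
    have hpd' : pd = 0 := by linarith
    have hna' : na = 0 := by linarith
    have hnb' : nb = 0 := by linarith
    have hnc' : nc = 0 := by linarith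
    have hnd' : nd = 0 := by linarith
    have htu0 : t • u = 0 := by
      rw [htu, hpa', hpb', hpc', hpd', hna', hnb', hnc', hnd']
      simp
    have hu0 : u ≠ 0 := by
      intro h0
      rw [h0, norm_zero] at hu
      norm_num at hu
    have ht0 : t = 0 := (smul_eq_zero.mp htu0).resolve_right hu0
    refine ⟨_, hxmem, 0, le_refl 0, ?_, ?_⟩
    · rw [ht0]
      simp
    · rw [zero_smul, add_zero]
      exact hxmem

end Vale.Agent.H5.P243
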