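import Vale.Agent.H5.P243.Scale
import Vale.Agent.H5.P243.Hull

/-!
# Track U (P243): all cylinder coverings of a tetrahedron — definitions

For a tetrahedron `T = convexHull ℝ {v₁, v₂, v₃, v₄}` and `ε ≥ 0` the chamfered tetrahedron
`chamfer ε v₁ v₂ v₃ v₄` consists of the convex combinations `a • v₁ + b • v₂ + c • v₃ + d • v₄`
all of whose six pair sums of weights are at least `ε` and all of whose weights are at most
`1 - 2 ε`.  The sets `edgeNbhd` and `corner` cover the removed part of `T`.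
-/

open Set

namespace Vale.Agent.H5.P243

/-- The chamfered tetrahedron: edges and vertices are cut off. -/
def chamfer (ε : ℝ) (v₁ v₂ v₃ v₄ : E3) : Set E3 :=
  {x | ∃ a b c d : ℝ, 0 ≤ a ∧ 0 ≤ b ∧ 0 ≤ c ∧ 0 ≤ d ∧ a + b + c + d = 1 ∧
    ε ≤ a + b ∧ ε ≤ a + c ∧ ε ≤ a + d ∧ ε ≤ b + c ∧ ε ≤ b + d ∧ ε ≤ c + d ∧
    a ≤ 1 - 2 * ε ∧ b ≤ 1 - 2 * ε ∧ c ≤ 1 - 2 * ε ∧ d ≤ 1 - 2 * ε ∧
    x = a • v₁ + b • v₂ + c • v₃ + d • v₄}

/-- Points of the tetrahedron whose first two weights have sum at most `ε`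
(a neighbourhood of the edge `p₂ p₃`). -/
def edgeNbhd (ε : ℝ) (p₀ p₁ p₂ p₃ : E3) : Set E3 :=
  {x | ∃ a b c d : ℝ, 0 ≤ a ∧ 0 ≤ b ∧ 0 ≤ c ∧ 0 ≤ d ∧ a + b + c + d = 1 ∧ a + b ≤ ε ∧
    x = a • p₀ + b • p₁ + c • p₂ + d • p₃}

/-- Points of the tetrahedron whose first weight is at least `1 - δ`
(a neighbourhood of the vertex `p₀`). -/
def corner (δ : ℝ) (p₀ p₁ p₂ p₃ : E3) : Set E3 :=
  {x | ∃ a b c d : ℝ, 0 ≤ a ∧ 0 ≤ b ∧ 0 ≤ c ∧ 0 ≤ d ∧ a + b + c + d = 1 ∧ 1 - δ ≤ a ∧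
    x = a • p₀ + b • p₁ + c • p₂ + d • p₃}

/-- Membership in the hull of four points in terms of weights. -/
theorem hull4_iff (v₁ v₂ v₃ v₄ x : E3) :
    x ∈ convexHull ℝ {v₁, v₂, v₃, v₄} ↔
      ∃ a b c d : ℝ, 0 ≤ a ∧ 0 ≤ b ∧ 0 ≤ c ∧ 0 ≤ d ∧ a + b + c + d = 1 ∧
        x = a • v₁ + b • v₂ + c • v₃ + d • v₄ := by
  constructor
  · intro hx
    obtain ⟨l, ⟨hl0, hl1⟩, a, ⟨ha0, ha1⟩, b, ⟨hb0, hb1⟩, rfl⟩ := hull4_param v₁ v₂ v₃ v₄ x hx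
    refine ⟨(1 - l) * (1 - a), (1 - l) * a, l * (1 - b), l * b,
      mul_nonneg (by linarith) (by linarith), mul_nonneg (by linarith) ha0,
      mul_nonneg hl0 (by linarith), mul_nonneg hl0 hb0, by ring, ?_⟩
    module
  · rintro ⟨a, b, c, d, ha, hb, hc, hd, hs, rfl⟩
    exact hull4_mem_weights v₁ v₂ v₃ v₄ a b c d ha hb hc hd hs

end Vale.Agent.H5.P243
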