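import Vale.Agent.H5.P243.Scale

/-!
# Track U (P243), row U5a: a thin prism against the standard simplex

In coordinates `w : E3 = EuclideanSpace ℝ (Fin 3)`, the prism
`{0 ≤ w 0, 0 ≤ w 1, w 0 + w 1 ≤ ε, 0 ≤ w 2 ≤ 1}` has volume at most `3 ε ^ 2` times the volume of
the simplex `{0 ≤ w 0, 0 ≤ w 1, 0 ≤ w 2, w 0 + w 1 + w 2 ≤ 1}` (the volumes are `ε ^ 2 / 2` and
`1 / 6`).

LEAN ROW U5a (`prism_le_simplex`).  Two possible routes.
(A) Fubini: transport to `Fin 3 → ℝ` (`EuclideanSpace.volume_preserving_measurableEquiv`) or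
`ℝ × ℝ × ℝ` and compute both volumes (`ofReal (ε ^ 2 / 2)` and `ofReal (1 / 6)`).
(B) No integration (staircase triangulation): the prism with `ε = 1` is the union of
`S := {0 ≤ w 0, 0 ≤ w 1, 0 ≤ w 2, w 0 + w 1 + w 2 ≤ 1}` (the part `w 2 ≤ 1 - w 0 - w 1`), of the
image of `S` under `w ↦ (w 0 + w 2, w 1, 1 - w 0 - w 1)` (the part
`1 - w 0 - w 1 ≤ w 2 ≤ 1 - w 1`) and of the image of `S` under `w ↦ (w 0, w 1 + w 2, 1 - w 1)`
(the part `1 - w 1 ≤ w 2`); both maps are a translation after a linear map of determinant `1`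
(`MeasureTheory.Measure.addHaar_image_linearMap`, `Matrix.det_fin_three`), so the unit prism has
volume at most `3 * volume S`; the `ε`-prism is the image of the unit prism under
`w ↦ (ε * w 0, ε * w 1, w 2)` of determinant `ε ^ 2`.
-/

open MeasureTheory Set
open scoped ENNReal

namespace Vale.Agent.H5.P243

theorem uprism_det (M : Matrix (Fin 3) (Fin 3) ℝ) :
    LinearMap.det (Matrix.toEuclideanLin M : E3 →ₗ[ℝ] E3) = M.det := by
  rw [Matrix.toEuclideanLin_eq_toLin_orthonormal]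
  exact LinearMap.det_toLin _ M

theorem uprism_apply (M : Matrix (Fin 3) (Fin 3) ℝ) (w : E3) (i : Fin 3) :
    (Matrix.toEuclideanLin M w) i = M i 0 * w 0 + M i 1 * w 1 + M i 2 * w 2 := by
  show (M.mulVec (WithLp.ofLp w)) i = _
  simp [Matrix.mulVec, dotProduct, Fin.sum_univ_three]

theorem uprism_image (M : Matrix (Fin 3) (Fin 3) ℝ) (s : Set E3) :
    volume ((Matrix.toEuclideanLin M : E3 →ₗ[ℝ] E3) '' s) =
      ENNReal.ofReal |M.det| * volume s := by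
  rw [Measure.addHaar_image_linearMap, uprism_det]

theorem uprism_translate (b : E3) (s : Set E3) : volume ((fun x => b + x) '' s) = volume s := by
  rw [image_add_left]
  exact measure_preimage_add _ _ _

/-- The unit prism is covered by three unimodular affine images of the simplex. -/
theorem uprism_unit :
    volume {w : E3 | 0 ≤ w 0 ∧ 0 ≤ w 1 ∧ w 0 + w 1 ≤ 1 ∧ 0 ≤ w 2 ∧ w 2 ≤ 1} ≤
      3 * volume {w : E3 | 0 ≤ w 0 ∧ 0 ≤ w 1 ∧ 0 ≤ w 2 ∧ w 0 + w 1 + w 2 ≤ 1} := by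
  have hd1 : (!![1, 0, 1; 0, 1, 0; -1, -1, 0] : Matrix (Fin 3) (Fin 3) ℝ).det = 1 := by
    simp [Matrix.det_fin_three]
  have hd2 : (!![1, 0, 0; 0, 1, 1; 0, -1, 0] : Matrix (Fin 3) (Fin 3) ℝ).det = 1 := by
    simp [Matrix.det_fin_three]
  have hsub : {w : E3 | 0 ≤ w 0 ∧ 0 ≤ w 1 ∧ w 0 + w 1 ≤ 1 ∧ 0 ≤ w 2 ∧ w 2 ≤ 1} ⊆
      {w : E3 | 0 ≤ w 0 ∧ 0 ≤ w 1 ∧ 0 ≤ w 2 ∧ w 0 + w 1 + w 2 ≤ 1} ∪
      ((fun x => (!₂[0, 0, 1] : E3) + x) ''
        ((Matrix.toEuclideanLin (!![1, 0, 1; 0, 1, 0; -1, -1, 0] : Matrix (Fin 3) (Fin 3) ℝ) :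
          E3 →ₗ[ℝ] E3) '' {w : E3 | 0 ≤ w 0 ∧ 0 ≤ w 1 ∧ 0 ≤ w 2 ∧ w 0 + w 1 + w 2 ≤ 1})) ∪
      ((fun x => (!₂[0, 0, 1] : E3) + x) ''
        ((Matrix.toEuclideanLin (!![1, 0, 0; 0, 1, 1; 0, -1, 0] : Matrix (Fin 3) (Fin 3) ℝ) :
          E3 →ₗ[ℝ] E3) '' {w : E3 | 0 ≤ w 0 ∧ 0 ≤ w 1 ∧ 0 ≤ w 2 ∧ w 0 + w 1 + w 2 ≤ 1})) := by
    rintro v ⟨h0, h1, h01, h2, h21⟩
    by_cases hA : v 2 ≤ 1 - v 0 - v 1
    · left
      left
      exact ⟨h0, h1, h2, by linarith⟩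
    · have hA' : 1 - v 0 - v 1 < v 2 := not_le.mp hA
      by_cases hB : v 2 ≤ 1 - v 1
      · left
        right
        refine ⟨_, ⟨!₂[1 - v 1 - v 2, v 1, v 0 + v 1 + v 2 - 1], ⟨?_, ?_, ?_, ?_⟩, rfl⟩, ?_⟩
        · simp
          linarith
        · simpa using h1
        · simp
          linarith
        · simp
          linarith
        · ext i
          fin_cases i <;> simp <;> ring
      · have hB' : 1 - v 1 < v 2 := not_le.mp hB
        right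
        refine ⟨_, ⟨!₂[v 0, 1 - v 2, v 1 + v 2 - 1], ⟨?_, ?_, ?_, ?_⟩, rfl⟩, ?_⟩
        · simpa using h0
        · simp
          linarith
        · simp
          linarith
        · simp
          linarith
        · ext i
          fin_cases i <;> simp
  have key : ∀ A B C : Set E3, volume (A ∪ B ∪ C) ≤ volume A + volume B + volume C :=
    fun A B C => (measure_union_le _ _).trans (add_le_add (measure_union_le _ _) le_rfl)
  refine (measure_mono hsub).trans ((key _ _ _).trans ?_)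
  rw [uprism_translate, uprism_translate, uprism_image, uprism_image, hd1, hd2]
  simp only [abs_one, ENNReal.ofReal_one, one_mul]
  apply le_of_eq
  ring

theorem prism_le_simplex (ε : ℝ) (hε : 0 ≤ ε) :
    volume {w : E3 | 0 ≤ w 0 ∧ 0 ≤ w 1 ∧ w 0 + w 1 ≤ ε ∧ 0 ≤ w 2 ∧ w 2 ≤ 1} ≤
      ENNReal.ofReal (3 * ε ^ 2) *
        volume {w : E3 | 0 ≤ w 0 ∧ 0 ≤ w 1 ∧ 0 ≤ w 2 ∧ w 0 + w 1 + w 2 ≤ 1} := by
  have hdD : (!![ε, 0, 0; 0, ε, 0; 0, 0, 1] : Matrix (Fin 3) (Fin 3) ℝ).det = ε ^ 2 := by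
    simp [Matrix.det_fin_three]
    ring
  have hsub : {w : E3 | 0 ≤ w 0 ∧ 0 ≤ w 1 ∧ w 0 + w 1 ≤ ε ∧ 0 ≤ w 2 ∧ w 2 ≤ 1} ⊆
      (Matrix.toEuclideanLin (!![ε, 0, 0; 0, ε, 0; 0, 0, 1] : Matrix (Fin 3) (Fin 3) ℝ) :
        E3 →ₗ[ℝ] E3) '' {w : E3 | 0 ≤ w 0 ∧ 0 ≤ w 1 ∧ w 0 + w 1 ≤ 1 ∧ 0 ≤ w 2 ∧ w 2 ≤ 1} := by
    rintro v ⟨h0, h1, h01, h2, h21⟩
    rcases eq_or_lt_of_le hε with h | h
    · have hv0 : v 0 = 0 := by linarith
      have hv1 : v 1 = 0 := by linarith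
      refine ⟨!₂[0, 0, v 2], ⟨by simp, by simp, by simp, by simpa using h2,
        by simpa using h21⟩, ?_⟩
      ext i
      fin_cases i <;> simp [hv0, hv1]
    · refine ⟨!₂[v 0 / ε, v 1 / ε, v 2], ⟨?_, ?_, ?_, ?_, ?_⟩, ?_⟩
      · simpa using div_nonneg h0 h.le
      · simpa using div_nonneg h1 h.le
      · have h3 : v 0 / ε + v 1 / ε ≤ 1 := by
          rw [← add_div, div_le_one h]
          exact h01
        simpa using h3
      · simpa using h2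
      · simpa using h21
      · ext i
        fin_cases i <;> simp <;> field_simp
  refine (measure_mono hsub).trans ?_
  rw [uprism_image, hdD, abs_of_nonneg (sq_nonneg ε)]
  refine (mul_le_mul_right uprism_unit _).trans ?_
  rw [ENNReal.ofReal_mul (by norm_num : (0 : ℝ) ≤ 3)]
  simp only [ENNReal.ofReal_ofNat]
  apply le_of_eq
  ring

end Vale.Agent.H5.P243
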