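import Vale.Agent.H5.P243.UDefs
import Vale.Agent.H5.P243.UPrism

/-!
# Track U (P243), row U5b: volume of an edge neighbourhood

`edgeNbhd ε p₀ p₁ p₂ p₃` has volume at most `3 ε ^ 2` times the volume of the tetrahedron (no
non-degeneracy assumption).

LEAN ROW U5b (`edge_nbhd_volume`), from the stub `prism_le_simplex`.  Sketch: the linear map
`L : E3 →ₗ[ℝ] E3`, `L w = w 0 • (p₀ - p₃) + w 1 • (p₁ - p₃) + w 2 • (p₂ - p₃)` and the chart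
`ψ w = p₃ + L w`.  (i) `edgeNbhd ε p₀ p₁ p₂ p₃ ⊆ ψ '' prism` (weights `a, b, c, d`: take
`w = !₂[a, b, c]`, note `c ≤ 1`); (ii) `ψ '' simplex ⊆ convexHull ℝ {p₀, p₁, p₂, p₃}`
(`hull4_iff` with weights `w 0, w 1, w 2, 1 - w 0 - w 1 - w 2`); (iii) for every set `S`,
`volume (ψ '' S) = ofReal |LinearMap.det L| * volume S`
(`MeasureTheory.Measure.addHaar_image_linearMap`, translation invariance
`measure_preimage_add` / `Measure.addHaar_image_homothety`-style; `ψ '' S = (p₃ + ·) '' (L '' S)`).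
Then `volume (edgeNbhd ..) ≤ |det L| * volume prism ≤ |det L| * (3 ε ^ 2 * volume simplex)
= 3 ε ^ 2 * volume (ψ '' simplex) ≤ 3 ε ^ 2 * volume (hull)`.
-/

open MeasureTheory Set
open scoped ENNReal

namespace Vale.Agent.H5.P243

/-- The linear part of the affine chart of the tetrahedron based at `p₃`. -/
noncomputable def uedgeL (p₀ p₁ p₂ p₃ : E3) : E3 →ₗ[ℝ] E3 where
  toFun w := w 0 • (p₀ - p₃) + w 1 • (p₁ - p₃) + w 2 • (p₂ - p₃)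
  map_add' x y := by
    simp only [PiLp.add_apply]
    module
  map_smul' c x := by
    simp only [PiLp.smul_apply, smul_eq_mul, RingHom.id_apply]
    module

theorem uedge_apply (p₀ p₁ p₂ p₃ w : E3) :
    uedgeL p₀ p₁ p₂ p₃ w = w 0 • (p₀ - p₃) + w 1 • (p₁ - p₃) + w 2 • (p₂ - p₃) := rfl

theorem uedge_image_volume (p₀ p₁ p₂ p₃ : E3) (S : Set E3) :
    volume ((fun w => p₃ + uedgeL p₀ p₁ p₂ p₃ w) '' S)
      = ENNReal.ofReal |LinearMap.det (uedgeL p₀ p₁ p₂ p₃)| * volume S := by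
  have h : (fun w => p₃ + uedgeL p₀ p₁ p₂ p₃ w) '' S
      = (fun x => p₃ + x) '' (uedgeL p₀ p₁ p₂ p₃ '' S) := by
    rw [Set.image_image]
  rw [h, Set.image_add_left, measure_preimage_add, Measure.addHaar_image_linearMap]

theorem edge_nbhd_volume (ε : ℝ) (hε : 0 ≤ ε) (p₀ p₁ p₂ p₃ : E3) :
    volume (edgeNbhd ε p₀ p₁ p₂ p₃) ≤
      ENNReal.ofReal (3 * ε ^ 2) * volume (convexHull ℝ {p₀, p₁, p₂, p₃}) := by
  have h1 : edgeNbhd ε p₀ p₁ p₂ p₃ ⊆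
      (fun w => p₃ + uedgeL p₀ p₁ p₂ p₃ w) ''
        {w : E3 | 0 ≤ w 0 ∧ 0 ≤ w 1 ∧ w 0 + w 1 ≤ ε ∧ 0 ≤ w 2 ∧ w 2 ≤ 1} := by
    rintro x ⟨a, b, c, d, ha, hb, hc, hd, hs, hab, rfl⟩
    have hd' : d = 1 - a - b - c := by linarith
    subst hd'
    refine ⟨!₂[a, b, c], ⟨?_, ?_, ?_, ?_, ?_⟩, ?_⟩
    · simpa using ha
    · simpa using hb
    · simpa using hab
    · simpa using hc
    · have : c ≤ 1 := by linarith
      simpa using this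
    · show p₃ + uedgeL p₀ p₁ p₂ p₃ !₂[a, b, c] = _
      rw [uedge_apply]
      simp only [Matrix.cons_val_zero, Matrix.cons_val_one, Matrix.cons_val_two,
        Matrix.head_cons, Matrix.tail_cons]
      module
  have h2 : (fun w => p₃ + uedgeL p₀ p₁ p₂ p₃ w) ''
        {w : E3 | 0 ≤ w 0 ∧ 0 ≤ w 1 ∧ 0 ≤ w 2 ∧ w 0 + w 1 + w 2 ≤ 1} ⊆
      convexHull ℝ {p₀, p₁, p₂, p₃} := by
    rintro _ ⟨w, ⟨h0, h1, h2, hs⟩, rfl⟩
    rw [hull4_iff]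
    refine ⟨w 0, w 1, w 2, 1 - w 0 - w 1 - w 2, h0, h1, h2, by linarith, by ring, ?_⟩
    show p₃ + uedgeL p₀ p₁ p₂ p₃ w = _
    rw [uedge_apply]
    module
  calc volume (edgeNbhd ε p₀ p₁ p₂ p₃)
      ≤ volume ((fun w => p₃ + uedgeL p₀ p₁ p₂ p₃ w) ''
          {w : E3 | 0 ≤ w 0 ∧ 0 ≤ w 1 ∧ w 0 + w 1 ≤ ε ∧ 0 ≤ w 2 ∧ w 2 ≤ 1}) := measure_mono h1
    _ = ENNReal.ofReal |LinearMap.det (uedgeL p₀ p₁ p₂ p₃)| *
          volume {w : E3 | 0 ≤ w 0 ∧ 0 ≤ w 1 ∧ w 0 + w 1 ≤ ε ∧ 0 ≤ w 2 ∧ w 2 ≤ 1} :=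
        uedge_image_volume p₀ p₁ p₂ p₃ _
    _ ≤ ENNReal.ofReal |LinearMap.det (uedgeL p₀ p₁ p₂ p₃)| *
          (ENNReal.ofReal (3 * ε ^ 2) *
            volume {w : E3 | 0 ≤ w 0 ∧ 0 ≤ w 1 ∧ 0 ≤ w 2 ∧ w 0 + w 1 + w 2 ≤ 1}) :=
        mul_le_mul_right (prism_le_simplex ε hε) _
    _ = ENNReal.ofReal (3 * ε ^ 2) *
          (ENNReal.ofReal |LinearMap.det (uedgeL p₀ p₁ p₂ p₃)| *
            volume {w : E3 | 0 ≤ w 0 ∧ 0 ≤ w 1 ∧ 0 ≤ w 2 ∧ w 0 + w 1 + w 2 ≤ 1}) := by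
        ring
    _ = ENNReal.ofReal (3 * ε ^ 2) *
          volume ((fun w => p₃ + uedgeL p₀ p₁ p₂ p₃ w) ''
            {w : E3 | 0 ≤ w 0 ∧ 0 ≤ w 1 ∧ 0 ≤ w 2 ∧ w 0 + w 1 + w 2 ≤ 1}) := by
        rw [uedge_image_volume]
    _ ≤ ENNReal.ofReal (3 * ε ^ 2) * volume (convexHull ℝ {p₀, p₁, p₂, p₃}) :=
        mul_le_mul_right (measure_mono h2) _

end Vale.Agent.H5.P243
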